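import Vale.Agent.P088.R2.H558.Spec

/-!
# P088, the conjugation identity for `Px`, `Py` and calculus on pairs of points of the ball
-/

open MeasureTheory Set Filter
open scoped ContDiff Matrix Topology

noncomputable section

namespace Vale.Agent.P088.R2.H820

open Vale.Agent.P088.LR Vale.Agent.P088.HY

variable {n : ℕ}

/-! ## The sets -/

lemma contDiff_sq : ContDiff ℝ ∞ (HY.sq : V n → ℝ) := by
  unfold HY.sq
  fun_prop

lemma contDiff_rr : ContDiff ℝ ∞ (rr : V n → ℝ) := by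
  unfold rr
  exact (contDiff_const.sub contDiff_sq).div_const 2

lemma isOpen_Bn : IsOpen (Bn n) := isOpen_lt contDiff_sq.continuous continuous_const

lemma isOpen_Un : IsOpen (Un n) := isOpen_Bn.prod isOpen_Bn

lemma measurableSet_Un : MeasurableSet (Un n) := isOpen_Un.measurableSet

lemma rr_pos {x : V n} (hx : x ∈ Bn n) : 0 < rr x := by
  have h : HY.sq x < 1 := hx
  unfold rr
  linarith

lemma rr1_pos {z : VV n} (hz : z ∈ Un n) : 0 < rr z.1 := rr_pos hz.1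

lemma rr2_pos {z : VV n} (hz : z ∈ Un n) : 0 < rr z.2 := rr_pos hz.2

/-! ## Smooth functions on the set of pairs -/

/-- Smooth on the set of pairs. -/
def Sm (f : VV n → ℝ) : Prop := ContDiffOn ℝ ∞ f (Un n)

lemma Sm.diff {f : VV n → ℝ} (hf : Sm f) {z : VV n} (hz : z ∈ Un n) : DifferentiableAt ℝ f z :=
  (hf.contDiffAt (isOpen_Un.mem_nhds hz)).differentiableAt (by simp)

lemma Sm.at {f : VV n → ℝ} (hf : Sm f) {z : VV n} (hz : z ∈ Un n) : ContDiffAt ℝ ∞ f z :=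
  hf.contDiffAt (isOpen_Un.mem_nhds hz)

lemma Sm.fd {f : VV n → ℝ} (hf : Sm f) (v : VV n) : Sm (fun z => fderiv ℝ f z v) :=
  ContDiffOn.clm_apply (hf.fderiv_of_isOpen isOpen_Un (by simp)) contDiffOn_const

lemma Sm.dx {f : VV n → ℝ} (hf : Sm f) (i : Fin n) : Sm (HY.dx i f) := hf.fd _

lemma Sm.dy {f : VV n → ℝ} (hf : Sm f) (i : Fin n) : Sm (HY.dy i f) := hf.fd _

lemma Sm.mul {f g : VV n → ℝ} (hf : Sm f) (hg : Sm g) : Sm (fun z => f z * g z) :=
  ContDiffOn.mul hf hg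

lemma Sm.add {f g : VV n → ℝ} (hf : Sm f) (hg : Sm g) : Sm (fun z => f z + g z) :=
  ContDiffOn.add hf hg

lemma Sm.sub {f g : VV n → ℝ} (hf : Sm f) (hg : Sm g) : Sm (fun z => f z - g z) :=
  ContDiffOn.sub hf hg

lemma Sm.neg {f : VV n → ℝ} (hf : Sm f) : Sm (fun z => -f z) := ContDiffOn.neg hf

lemma Sm.pow {f : VV n → ℝ} (hf : Sm f) (k : ℕ) : Sm (fun z => f z ^ k) := ContDiffOn.pow hf k

lemma Sm.sum {ι : Type*} {s : Finset ι} {f : ι → VV n → ℝ} (hf : ∀ i ∈ s, Sm (f i)) :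
    Sm (fun z => ∑ i ∈ s, f i z) := ContDiffOn.sum hf

lemma sm_const (c : ℝ) : Sm (fun _ : VV n => c) := contDiffOn_const

lemma sm_of {f : VV n → ℝ} (hf : ContDiff ℝ ∞ f) : Sm f := hf.contDiffOn

lemma sm_r1 : Sm (fun z : VV n => rr z.1) := (contDiff_rr.comp contDiff_fst).contDiffOn

lemma sm_r2 : Sm (fun z : VV n => rr z.2) := (contDiff_rr.comp contDiff_snd).contDiffOn

lemma sm_x (i : Fin n) : Sm (fun z : VV n => z.1 i) :=
  ((contDiff_apply ℝ ℝ i).comp contDiff_fst).contDiffOn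

lemma sm_y (i : Fin n) : Sm (fun z : VV n => z.2 i) :=
  ((contDiff_apply ℝ ℝ i).comp contDiff_snd).contDiffOn

lemma sm_s1 {s : MF n} (hs : SmM s) (i j : Fin n) : Sm (fun z : VV n => s z.1 i j) :=
  ((hs i j).comp contDiff_fst).contDiffOn

lemma sm_s2 {s : MF n} (hs : SmM s) (i j : Fin n) : Sm (fun z : VV n => s z.2 i j) :=
  ((hs i j).comp contDiff_snd).contDiffOn

lemma Sm.congr {f g : VV n → ℝ} (hf : Sm f) (h : ∀ z ∈ Un n, g z = f z) : Sm g :=
  ContDiffOn.congr hf h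

lemma sm_uu : Sm (uu : VV n → ℝ) := by
  unfold uu
  have h1 : ContDiffOn ℝ ∞ (fun z : VV n => HY.sq (z.1 - z.2)) (Un n) :=
    (contDiff_sq.comp (contDiff_fst.sub contDiff_snd)).contDiffOn
  have h2 : ContDiffOn ℝ ∞ (fun z : VV n => 2 * rr z.1 * rr z.2) (Un n) :=
    (contDiffOn_const.mul sm_r1).mul sm_r2
  refine ContDiffOn.add contDiffOn_const (ContDiffOn.div h1 h2 fun z hz => ?_)
  have := rr1_pos hz
  have := rr2_pos hz
  positivity

lemma sm_exp (τ : ℝ) : Sm (fun z : VV n => Real.exp (τ * uu z)) :=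
  ContDiffOn.exp ((sm_const τ).mul sm_uu)

/-- `ρ^a`, `ρ = r(x) r(y)`. -/
def rp (a : ℝ) (z : VV n) : ℝ := (rr z.1 * rr z.2) ^ a

lemma rp_pos (a : ℝ) {z : VV n} (hz : z ∈ Un n) : 0 < rp a z :=
  Real.rpow_pos_of_pos (mul_pos (rr1_pos hz) (rr2_pos hz)) a

lemma sm_rp (a : ℝ) : Sm (rp a : VV n → ℝ) := by
  unfold rp
  exact ContDiffOn.rpow_const_of_ne (sm_r1.mul sm_r2)
    fun z hz => (mul_pos (rr1_pos hz) (rr2_pos hz)).ne'

lemma rp_neg_mul (a : ℝ) {z : VV n} (hz : z ∈ Un n) : rp a z * rp (-a) z = 1 := by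
  unfold rp
  rw [← Real.rpow_add (mul_pos (rr1_pos hz) (rr2_pos hz)), add_neg_cancel, Real.rpow_zero]

/-! ## Derivatives -/

lemma fd_mul {f g : VV n → ℝ} {z : VV n} (hf : DifferentiableAt ℝ f z)
    (hg : DifferentiableAt ℝ g z) (v : VV n) :
    fderiv ℝ (fun z => f z * g z) z v = fderiv ℝ f z v * g z + f z * fderiv ℝ g z v := by
  rw [fderiv_fun_mul hf hg]
  simp
  ring

lemma fd_add {f g : VV n → ℝ} {z : VV n} (hf : DifferentiableAt ℝ f z)
    (hg : DifferentiableAt ℝ g z) (v : VV n) :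
    fderiv ℝ (fun z => f z + g z) z v = fderiv ℝ f z v + fderiv ℝ g z v := by
  rw [fderiv_fun_add hf hg]
  simp

lemma fd_congr {f g : VV n → ℝ} (h : ∀ z ∈ Un n, f z = g z) {z : VV n} (hz : z ∈ Un n)
    (v : VV n) : fderiv ℝ f z v = fderiv ℝ g z v := by
  have : f =ᶠ[𝓝 z] g := by
    filter_upwards [isOpen_Un.mem_nhds hz] with w hw using h w hw
  rw [this.fderiv_eq]

lemma dx_congr {f g : VV n → ℝ} (h : ∀ z ∈ Un n, f z = g z) {z : VV n} (hz : z ∈ Un n)
    (i : Fin n) : HY.dx i f z = HY.dx i g z := fd_congr h hz _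

lemma dy_congr {f g : VV n → ℝ} (h : ∀ z ∈ Un n, f z = g z) {z : VV n} (hz : z ∈ Un n)
    (i : Fin n) : HY.dy i f z = HY.dy i g z := fd_congr h hz _

lemma dx_mul {f g : VV n → ℝ} (hf : Sm f) (hg : Sm g) {z : VV n} (hz : z ∈ Un n) (i : Fin n) :
    HY.dx i (fun z => f z * g z) z = HY.dx i f z * g z + f z * HY.dx i g z :=
  fd_mul (hf.diff hz) (hg.diff hz) _

lemma dy_mul {f g : VV n → ℝ} (hf : Sm f) (hg : Sm g) {z : VV n} (hz : z ∈ Un n) (i : Fin n) :
    HY.dy i (fun z => f z * g z) z = HY.dy i f z * g z + f z * HY.dy i g z :=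
  fd_mul (hf.diff hz) (hg.diff hz) _

lemma dx_add {f g : VV n → ℝ} (hf : Sm f) (hg : Sm g) {z : VV n} (hz : z ∈ Un n) (i : Fin n) :
    HY.dx i (fun z => f z + g z) z = HY.dx i f z + HY.dx i g z :=
  fd_add (hf.diff hz) (hg.diff hz) _

lemma dy_add {f g : VV n → ℝ} (hf : Sm f) (hg : Sm g) {z : VV n} (hz : z ∈ Un n) (i : Fin n) :
    HY.dy i (fun z => f z + g z) z = HY.dy i f z + HY.dy i g z :=
  fd_add (hf.diff hz) (hg.diff hz) _

lemma fderiv_fst_comp {F : V n → ℝ} {z : VV n} (hF : DifferentiableAt ℝ F z.1) (v : VV n) :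
    fderiv ℝ (fun z : VV n => F z.1) z v = fderiv ℝ F z.1 v.1 := by
  have : HasFDerivAt (fun z : VV n => F z.1) ((fderiv ℝ F z.1).comp
      (ContinuousLinearMap.fst ℝ (V n) (V n))) z := hF.hasFDerivAt.comp z hasFDerivAt_fst
  rw [this.fderiv]
  rfl

lemma fderiv_snd_comp {F : V n → ℝ} {z : VV n} (hF : DifferentiableAt ℝ F z.2) (v : VV n) :
    fderiv ℝ (fun z : VV n => F z.2) z v = fderiv ℝ F z.2 v.2 := by
  have : HasFDerivAt (fun z : VV n => F z.2) ((fderiv ℝ F z.2).comp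
      (ContinuousLinearMap.snd ℝ (V n) (V n))) z := hF.hasFDerivAt.comp z hasFDerivAt_snd
  rw [this.fderiv]
  rfl

lemma dx_fst {F : V n → ℝ} {z : VV n} (hF : DifferentiableAt ℝ F z.1) (i : Fin n) :
    HY.dx i (fun z : VV n => F z.1) z = pd i F z.1 := fderiv_fst_comp hF _

lemma dy_fst {F : V n → ℝ} {z : VV n} (hF : DifferentiableAt ℝ F z.1) (i : Fin n) :
    HY.dy i (fun z : VV n => F z.1) z = 0 := by
  unfold HY.dy
  rw [fderiv_fst_comp hF]
  simp

lemma dy_snd {F : V n → ℝ} {z : VV n} (hF : DifferentiableAt ℝ F z.2) (i : Fin n) :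
    HY.dy i (fun z : VV n => F z.2) z = pd i F z.2 := fderiv_snd_comp hF _

lemma dx_snd {F : V n → ℝ} {z : VV n} (hF : DifferentiableAt ℝ F z.2) (i : Fin n) :
    HY.dx i (fun z : VV n => F z.2) z = 0 := by
  unfold HY.dx
  rw [fderiv_snd_comp hF]
  simp

lemma pd_rr (i : Fin n) (x : V n) : pd i (rr : V n → ℝ) x = -x i := by
  have h1 : HasFDerivAt (HY.sq : V n → ℝ)
      (∑ j, (2 * x j) • ContinuousLinearMap.proj (R := ℝ) (φ := fun _ : Fin n => ℝ) j) x := by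
    unfold HY.sq
    refine HasFDerivAt.fun_sum fun j _ => ?_
    have := (ContinuousLinearMap.proj (R := ℝ) (φ := fun _ : Fin n => ℝ) j).hasFDerivAt (x := x)
    have h2 := this.pow 2
    refine h2.congr_fderiv ?_
    ext v
    simp
  have h2 : HasFDerivAt (rr : V n → ℝ)
      ((2 : ℝ)⁻¹ • -(∑ j, (2 * x j) • ContinuousLinearMap.proj (R := ℝ) (φ := fun _ : Fin n => ℝ) j)) x := by
    have := (h1.const_sub 1).const_smul (2 : ℝ)⁻¹
    refine this.congr_of_eventuallyEq (Eventually.of_forall fun y => ?_)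
    unfold rr
    simp
    ring
  unfold pd
  rw [h2.fderiv]
  simp [Pi.single_apply]

lemma dx_r1 (i : Fin n) (z : VV n) : HY.dx i (fun z : VV n => rr z.1) z = -z.1 i := by
  rw [dx_fst (contDiff_rr.differentiable (by simp) _), pd_rr]

lemma dy_r1 (i : Fin n) (z : VV n) : HY.dy i (fun z : VV n => rr z.1) z = 0 :=
  dy_fst (contDiff_rr.differentiable (by simp) _) i

lemma dy_r2 (i : Fin n) (z : VV n) : HY.dy i (fun z : VV n => rr z.2) z = -z.2 i := by
  rw [dy_snd (contDiff_rr.differentiable (by simp) _), pd_rr]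

lemma dx_r2 (i : Fin n) (z : VV n) : HY.dx i (fun z : VV n => rr z.2) z = 0 :=
  dx_snd (contDiff_rr.differentiable (by simp) _) i

/-! ## The multiplier -/

/-- `ρ^{-γ} e^{τu}`. -/
def hh (τ : ℝ) (z : VV n) : ℝ := rp (-(ga n)) z * Real.exp (τ * uu z)

lemma sm_hh (τ : ℝ) : Sm (hh τ : VV n → ℝ) := (sm_rp _).mul (sm_exp τ)

lemma hh_pos (τ : ℝ) {z : VV n} (hz : z ∈ Un n) : 0 < hh τ z :=
  mul_pos (rp_pos _ hz) (Real.exp_pos _)

lemma fd_rp (a : ℝ) {z : VV n} (hz : z ∈ Un n) (v : VV n) :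
    fderiv ℝ (rp a) z v = a * (fderiv ℝ (fun z : VV n => rr z.1) z v / rr z.1
      + fderiv ℝ (fun z : VV n => rr z.2) z v / rr z.2) * rp a z := by
  have h1 := rr1_pos hz
  have h2 := rr2_pos hz
  have hm := mul_pos h1 h2
  have hd : DifferentiableAt ℝ (fun z : VV n => rr z.1 * rr z.2) z := (sm_r1.mul sm_r2).diff hz
  have h3 := hd.hasFDerivAt.rpow_const (p := a) (Or.inl hm.ne')
  have h4 : fderiv ℝ (rp a) z = (a * (rr z.1 * rr z.2) ^ (a - 1)) •
      fderiv ℝ (fun z : VV n => rr z.1 * rr z.2) z := h3.fderiv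
  rw [h4]
  simp only [_root_.smul_apply, smul_eq_mul]
  rw [fd_mul (sm_r1.diff hz) (sm_r2.diff hz)]
  unfold rp
  rw [Real.rpow_sub_one hm.ne']
  field_simp

lemma fd_exp (τ : ℝ) {z : VV n} (hz : z ∈ Un n) (v : VV n) :
    fderiv ℝ (fun z : VV n => Real.exp (τ * uu z)) z v
      = τ * fderiv ℝ uu z v * Real.exp (τ * uu z) := by
  have h1 := ((sm_uu.diff hz).hasFDerivAt.const_mul τ).exp
  rw [h1.fderiv]
  simp
  ring

lemma dx_hh (τ : ℝ) {z : VV n} (hz : z ∈ Un n) (i : Fin n) :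
    HY.dx i (hh τ) z = hh τ z * (ga n * z.1 i / rr z.1 + τ * HY.dx i uu z) := by
  have h : HY.dx i (hh τ) z = _ := dx_mul (sm_rp (-(ga n))) (sm_exp τ) hz i
  have h1 : HY.dx i (rp (-(ga n))) z = _ := fd_rp (-(ga n)) hz (Pi.single i 1, 0)
  have h2 : HY.dx i (fun z : VV n => Real.exp (τ * uu z)) z = _ := fd_exp τ hz (Pi.single i 1, 0)
  have e1 : fderiv ℝ (fun z : VV n => rr z.1) z (Pi.single i 1, 0) = -z.1 i := dx_r1 i z
  have e2 : fderiv ℝ (fun z : VV n => rr z.2) z (Pi.single i 1, 0) = 0 := dx_r2 i z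
  rw [h, h1, h2, e1, e2]
  unfold hh HY.dx
  ring

lemma dy_hh (τ : ℝ) {z : VV n} (hz : z ∈ Un n) (i : Fin n) :
    HY.dy i (hh τ) z = hh τ z * (ga n * z.2 i / rr z.2 + τ * HY.dy i uu z) := by
  have h : HY.dy i (hh τ) z = _ := dy_mul (sm_rp (-(ga n))) (sm_exp τ) hz i
  have h1 : HY.dy i (rp (-(ga n))) z = _ := fd_rp (-(ga n)) hz (0, Pi.single i 1)
  have h2 : HY.dy i (fun z : VV n => Real.exp (τ * uu z)) z = _ := fd_exp τ hz (0, Pi.single i 1)
  have e1 : fderiv ℝ (fun z : VV n => rr z.1) z (0, Pi.single i 1) = 0 := dy_r1 i z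
  have e2 : fderiv ℝ (fun z : VV n => rr z.2) z (0, Pi.single i 1) = -z.2 i := dy_r2 i z
  rw [h, h1, h2, e1, e2]
  unfold hh HY.dy
  ring

/-- the algebra of the conjugation -/
lemma conj_alg (s : Matrix (Fin n) (Fin n) ℝ) (hs : s.IsSymm) (x u1 f1 : Fin n → ℝ)
    (u2 f2 : Fin n → Fin n → ℝ) (r f u0 τ : ℝ) (hr : r ≠ 0) :
    r ^ 2 * ∑ i, ∑ j, s i j * ((ga n * x i / r + τ * u1 i) * (f1 j + (ga n * x j / r + τ * u1 j) * f)
        + (f2 i j + ((ga n * (if i = j then 1 else 0) / r + ga n * x i * x j / r ^ 2 + τ * u2 i j) * f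
          + (ga n * x j / r + τ * u1 j) * f1 i)))
      = (∑ i, ∑ j, s i j * (r * (-x i * f1 j + r * f2 i j) + (n - 1) * x i * (r * f1 j))
          + (ga n * r * ∑ i, s i i + ga n * (ga n + 1) * ∑ i, ∑ j, s i j * x i * x j) * f)
        + τ * (2 * (∑ i, ∑ j, s i j * (r * u1 i) * (r * f1 j))
          + ((∑ i, ∑ j, s i j * (r * (-x i * u1 j + r * u2 i j) + (n - 1) * x i * (r * u1 j))
          + (ga n * r * ∑ i, s i i + ga n * (ga n + 1) * ∑ i, ∑ j, s i j * x i * x j) * u0)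
            - (ga n * r * ∑ i, s i i + ga n * (ga n + 1) * ∑ i, ∑ j, s i j * x i * x j) * u0) * f)
        + τ ^ 2 * (∑ i, ∑ j, s i j * (r * u1 i) * (r * u1 j)) * f := by
  have hg : ga n = ((n : ℝ) - 2) / 2 := rfl
  have htr : ∑ i, s i i = ∑ i, ∑ j, s i j * (if i = j then 1 else 0) := by
    simp
  have hsw : ∀ a b : Fin n → ℝ, ∑ i, ∑ j, s i j * (a i * b j) = ∑ i, ∑ j, s i j * (b i * a j) := by
    intro a b
    rw [Finset.sum_comm]
    refine Finset.sum_congr rfl fun i _ => Finset.sum_congr rfl fun j _ => ?_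
    rw [show s j i = s i j from hs.apply i j]
    ring
  have h1 := hsw (fun i => ga n * x i / r + τ * u1 i) f1
  have h2 := hsw x u1
  have e1 : ∑ i, ∑ j, s i j * ((ga n * x i / r + τ * u1 i)
        * (f1 j + (ga n * x j / r + τ * u1 j) * f)
        + (f2 i j + ((ga n * (if i = j then 1 else 0) / r + ga n * x i * x j / r ^ 2
          + τ * u2 i j) * f + (ga n * x j / r + τ * u1 j) * f1 i)))
      = ∑ i, ∑ j, s i j * ((ga n * x i / r + τ * u1 i)
        * (2 * f1 j + (ga n * x j / r + τ * u1 j) * f)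
        + ga n / r * τ * f * (x i * u1 j - u1 i * x j)
        + (f2 i j + ((ga n * (if i = j then 1 else 0) / r + ga n * x i * x j / r ^ 2
          + τ * u2 i j) * f))) := by
    have : ∀ i j, s i j * ((ga n * x i / r + τ * u1 i)
        * (f1 j + (ga n * x j / r + τ * u1 j) * f)
        + (f2 i j + ((ga n * (if i = j then 1 else 0) / r + ga n * x i * x j / r ^ 2
          + τ * u2 i j) * f + (ga n * x j / r + τ * u1 j) * f1 i)))
        = s i j * ((ga n * x i / r + τ * u1 i)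
        * (2 * f1 j + (ga n * x j / r + τ * u1 j) * f)
        + ga n / r * τ * f * (x i * u1 j - u1 i * x j)
        + (f2 i j + ((ga n * (if i = j then 1 else 0) / r + ga n * x i * x j / r ^ 2
          + τ * u2 i j) * f))) - s i j * ((ga n * x i / r + τ * u1 i) * f1 j)
          + s i j * (f1 i * (ga n * x j / r + τ * u1 j))
          - (ga n / r * τ * f) * (s i j * (x i * u1 j))
          + (ga n / r * τ * f) * (s i j * (u1 i * x j)) := by
      intro i j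
      ring
    simp only [this, Finset.sum_add_distrib, Finset.sum_sub_distrib, ← Finset.mul_sum]
    rw [← h1, ← h2]
    ring
  rw [e1, htr]
  simp only [Finset.mul_sum, Finset.sum_mul, ← Finset.sum_add_distrib, ← Finset.sum_sub_distrib]
  refine Finset.sum_congr rfl fun i _ => Finset.sum_congr rfl fun j _ => ?_
  rw [hg]
  field_simp
  ring

lemma pd_apply (i j : Fin n) (x : V n) :
    pd i (fun y : V n => y j) x = if i = j then 1 else 0 := by
  unfold pd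
  have : HasFDerivAt (fun y : V n => y j)
      (ContinuousLinearMap.proj (R := ℝ) (φ := fun _ : Fin n => ℝ) j) x :=
    (ContinuousLinearMap.proj (R := ℝ) (φ := fun _ : Fin n => ℝ) j).hasFDerivAt
  rw [this.fderiv]
  simp [Pi.single_apply, eq_comm]

lemma pd_div_rr (c : ℝ) (i j : Fin n) {x : V n} (hx : x ∈ Bn n) :
    DifferentiableAt ℝ (fun x : V n => c * x j / rr x) x ∧
    pd i (fun x : V n => c * x j / rr x) x
      = c * (if i = j then 1 else 0) / rr x + c * x i * x j / rr x ^ 2 := by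
  have hr := rr_pos hx
  have h0 : ContDiff ℝ ∞ (fun x : V n => c * x j) := by fun_prop
  have h1 : DifferentiableAt ℝ (fun x : V n => c * x j / rr x) x :=
    (h0.contDiffAt.div contDiff_rr.contDiffAt hr.ne').differentiableAt (by simp)
  have h2 : DifferentiableAt ℝ (rr : V n → ℝ) x := contDiff_rr.differentiable (by simp) _
  refine ⟨h1, ?_⟩
  have h3 : (fun x : V n => (c * x j / rr x) * rr x) =ᶠ[𝓝 x] fun x => c * x j := by
    filter_upwards [isOpen_Bn.mem_nhds hx] with y hy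
    have := rr_pos hy
    field_simp
  have h4 := h3.fderiv_eq (𝕜 := ℝ)
  rw [fderiv_fun_mul h1 h2] at h4
  have h5 := congrArg (fun L : V n →L[ℝ] ℝ => L (Pi.single i 1)) h4
  have e6 : fderiv ℝ (rr : V n → ℝ) x (Pi.single i 1) = -x i := pd_rr i x
  have e7 : fderiv ℝ (fun x : V n => c * x j) x (Pi.single i 1) = c * (if i = j then 1 else 0) := by
    have h6 : DifferentiableAt ℝ (fun x : V n => x j) x := by fun_prop
    rw [fderiv_const_mul h6]
    have := pd_apply i j x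
    unfold pd at this
    simp only [_root_.smul_apply, smul_eq_mul, this]
  have e8 : fderiv ℝ (fun x : V n => c * x j / rr x) x (Pi.single i 1)
      = pd i (fun x : V n => c * x j / rr x) x := rfl
  simp only [_root_.add_apply, _root_.smul_apply, smul_eq_mul, e6, e7, e8] at h5
  field_simp at h5 ⊢
  linarith

/-- `λ_j = γ x_j / r_x + τ ∂_{x_j} u`. -/
def lx (τ : ℝ) (j : Fin n) (z : VV n) : ℝ := ga n * z.1 j / rr z.1 + τ * HY.dx j uu z

/-- `λ_j = γ y_j / r_y + τ ∂_{y_j} u`. -/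
def ly (τ : ℝ) (j : Fin n) (z : VV n) : ℝ := ga n * z.2 j / rr z.2 + τ * HY.dy j uu z

lemma sm_lx (τ : ℝ) (j : Fin n) : Sm (lx τ j) :=
  Sm.add (ContDiffOn.div ((sm_const _).mul (sm_x j)) sm_r1 fun _ hz => (rr1_pos hz).ne')
    ((sm_const τ).mul (sm_uu.dx j))

lemma sm_ly (τ : ℝ) (j : Fin n) : Sm (ly τ j) :=
  Sm.add (ContDiffOn.div ((sm_const _).mul (sm_y j)) sm_r2 fun _ hz => (rr2_pos hz).ne')
    ((sm_const τ).mul (sm_uu.dy j))

lemma dx_lx (τ : ℝ) (i j : Fin n) {z : VV n} (hz : z ∈ Un n) :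
    HY.dx i (lx τ j) z = ga n * (if i = j then 1 else 0) / rr z.1
      + ga n * z.1 i * z.1 j / rr z.1 ^ 2 + τ * HY.dx i (HY.dx j uu) z := by
  have h1 : Sm (fun z : VV n => ga n * z.1 j / rr z.1) :=
    ContDiffOn.div ((sm_const _).mul (sm_x j)) sm_r1 fun _ hz => (rr1_pos hz).ne'
  have h2 : Sm (fun z : VV n => τ * HY.dx j uu z) := (sm_const τ).mul (sm_uu.dx j)
  have e0 : HY.dx i (lx τ j) z = _ := dx_add h1 h2 hz i
  have e2 : HY.dx i (fun z : VV n => τ * HY.dx j uu z) z = _ := dx_mul (sm_const τ) (sm_uu.dx j) hz i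
  have e3 : HY.dx i (fun _ : VV n => τ) z = 0 := by
    unfold HY.dx
    simp
  have hd := pd_div_rr (ga n) i j hz.1
  have e1 : HY.dx i (fun z : VV n => ga n * z.1 j / rr z.1) z
      = ga n * (if i = j then 1 else 0) / rr z.1 + ga n * z.1 i * z.1 j / rr z.1 ^ 2 := by
    rw [dx_fst (F := fun x : V n => ga n * x j / rr x) hd.1]
    exact hd.2
  rw [e0, e1, e2, e3]
  ring

lemma dy_ly (τ : ℝ) (i j : Fin n) {z : VV n} (hz : z ∈ Un n) :
    HY.dy i (ly τ j) z = ga n * (if i = j then 1 else 0) / rr z.2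
      + ga n * z.2 i * z.2 j / rr z.2 ^ 2 + τ * HY.dy i (HY.dy j uu) z := by
  have h1 : Sm (fun z : VV n => ga n * z.2 j / rr z.2) :=
    ContDiffOn.div ((sm_const _).mul (sm_y j)) sm_r2 fun _ hz => (rr2_pos hz).ne'
  have h2 : Sm (fun z : VV n => τ * HY.dy j uu z) := (sm_const τ).mul (sm_uu.dy j)
  have e0 : HY.dy i (ly τ j) z = _ := dy_add h1 h2 hz i
  have e2 : HY.dy i (fun z : VV n => τ * HY.dy j uu z) z = _ := dy_mul (sm_const τ) (sm_uu.dy j) hz i
  have e3 : HY.dy i (fun _ : VV n => τ) z = 0 := by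
    unfold HY.dy
    simp
  have hd := pd_div_rr (ga n) i j hz.2
  have e1 : HY.dy i (fun z : VV n => ga n * z.2 j / rr z.2) z
      = ga n * (if i = j then 1 else 0) / rr z.2 + ga n * z.2 i * z.2 j / rr z.2 ^ 2 := by
    rw [dy_snd (F := fun x : V n => ga n * x j / rr x) hd.1]
    exact hd.2
  rw [e0, e1, e2, e3]
  ring

/-- second derivatives of `ρ^{-γ} e^{τu} f` -/
lemma dxdx_hh (τ : ℝ) {f : VV n → ℝ} (hf : Sm f) (i j : Fin n) {z : VV n} (hz : z ∈ Un n) :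
    HY.dx i (HY.dx j (fun w => hh τ w * f w)) z = hh τ z *
      (lx τ i z * (HY.dx j f z + lx τ j z * f z) + (HY.dx i (HY.dx j f) z
        + ((ga n * (if i = j then 1 else 0) / rr z.1
      + ga n * z.1 i * z.1 j / rr z.1 ^ 2 + τ * HY.dx i (HY.dx j uu) z) * f z
        + lx τ j z * HY.dx i f z))) := by
  have h1 : ∀ w ∈ Un n, HY.dx j (fun w => hh τ w * f w) w
      = hh τ w * (HY.dx j f w + lx τ j w * f w) := by
    intro w hw
    rw [dx_mul (sm_hh τ) hf hw, dx_hh τ hw]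
    unfold lx
    ring
  have s1 : Sm (fun w => HY.dx j f w + lx τ j w * f w) := (hf.dx j).add ((sm_lx τ j).mul hf)
  rw [dx_congr h1 hz, dx_mul (sm_hh τ) s1 hz, dx_hh τ hz,
    dx_add (hf.dx j) ((sm_lx τ j).mul hf) hz, dx_mul (sm_lx τ j) hf hz, dx_lx τ i j hz]
  have e : ga n * z.1 i / rr z.1 + τ * HY.dx i uu z = lx τ i z := rfl
  rw [e]
  ring

lemma dydy_hh (τ : ℝ) {f : VV n → ℝ} (hf : Sm f) (i j : Fin n) {z : VV n} (hz : z ∈ Un n) :
    HY.dy i (HY.dy j (fun w => hh τ w * f w)) z = hh τ z *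
      (ly τ i z * (HY.dy j f z + ly τ j z * f z) + (HY.dy i (HY.dy j f) z
        + ((ga n * (if i = j then 1 else 0) / rr z.2
      + ga n * z.2 i * z.2 j / rr z.2 ^ 2 + τ * HY.dy i (HY.dy j uu) z) * f z
        + ly τ j z * HY.dy i f z))) := by
  have h1 : ∀ w ∈ Un n, HY.dy j (fun w => hh τ w * f w) w
      = hh τ w * (HY.dy j f w + ly τ j w * f w) := by
    intro w hw
    rw [dy_mul (sm_hh τ) hf hw, dy_hh τ hw]
    unfold ly
    ring
  have s1 : Sm (fun w => HY.dy j f w + ly τ j w * f w) := (hf.dy j).add ((sm_ly τ j).mul hf)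
  rw [dy_congr h1 hz, dy_mul (sm_hh τ) s1 hz, dy_hh τ hz,
    dy_add (hf.dy j) ((sm_ly τ j).mul hf) hz, dy_mul (sm_ly τ j) hf hz, dy_ly τ i j hz]
  have e : ga n * z.2 i / rr z.2 + τ * HY.dy i uu z = ly τ i z := rfl
  rw [e]
  ring

lemma Ax_Ax {f : VV n → ℝ} (hf : Sm f) (i j : Fin n) {z : VV n} (hz : z ∈ Un n) :
    Ax i (Ax j f) z = rr z.1 * (-z.1 i * HY.dx j f z + rr z.1 * HY.dx i (HY.dx j f) z) := by
  have h : HY.dx i (Ax j f) z = _ := dx_mul sm_r1 (hf.dx j) hz i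
  have e : Ax i (Ax j f) z = rr z.1 * HY.dx i (Ax j f) z := rfl
  rw [e, h, dx_r1]

lemma By_By {f : VV n → ℝ} (hf : Sm f) (i j : Fin n) {z : VV n} (hz : z ∈ Un n) :
    By i (By j f) z = rr z.2 * (-z.2 i * HY.dy j f z + rr z.2 * HY.dy i (HY.dy j f) z) := by
  have h : HY.dy i (By j f) z = _ := dy_mul sm_r2 (hf.dy j) hz i
  have e : By i (By j f) z = rr z.2 * HY.dy i (By j f) z := rfl
  rw [e, h, dy_r2]

/-- the weight `ρ^γ e^{-τu}` -/
def gg (τ : ℝ) (z : VV n) : ℝ := rp (ga n) z * Real.exp (-(τ * uu z))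

lemma gg_mul_hh (τ : ℝ) {z : VV n} (hz : z ∈ Un n) : gg τ z * hh τ z = 1 := by
  unfold gg hh
  rw [Real.exp_neg]
  have := rp_neg_mul (ga n) hz
  have h2 := Real.exp_pos (τ * uu z)
  field_simp
  linarith

/-- the conjugation identity in the first variable -/
theorem conj_x {s : MF n} (hs : ∀ x, (s x).IsSymm) (τ : ℝ) {f : VV n → ℝ} (hf : Sm f)
    {z : VV n} (hz : z ∈ Un n) :
    Px s τ f z = gg τ z * (rr z.1 ^ 2 * Lx s (fun w => hh τ w * f w) z) := by
  have hr := rr1_pos hz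
  have e1 : Lx s (fun w => hh τ w * f w) z = hh τ z * ∑ i, ∑ j, s z.1 i j *
      ((ga n * z.1 i / rr z.1 + τ * HY.dx i uu z)
        * (HY.dx j f z + (ga n * z.1 j / rr z.1 + τ * HY.dx j uu z) * f z)
        + (HY.dx i (HY.dx j f) z + ((ga n * (if i = j then 1 else 0) / rr z.1
          + ga n * z.1 i * z.1 j / rr z.1 ^ 2 + τ * HY.dx i (HY.dx j uu) z) * f z
          + (ga n * z.1 j / rr z.1 + τ * HY.dx j uu z) * HY.dx i f z))) := by
    unfold Lx
    simp only [dxdx_hh τ hf _ _ hz, lx, Finset.mul_sum]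
    refine Finset.sum_congr rfl fun i _ => Finset.sum_congr rfl fun j _ => ?_
    ring
  have e2 := conj_alg (s z.1) (hs z.1) z.1 (fun i => HY.dx i uu z) (fun i => HY.dx i f z)
    (fun i j => HY.dx i (HY.dx j uu) z) (fun i j => HY.dx i (HY.dx j f) z) (rr z.1) (f z) (uu z) τ
    hr.ne'
  rw [e1]
  have e3 : ∀ a : ℝ, gg τ z * (rr z.1 ^ 2 * (hh τ z * a)) = rr z.1 ^ 2 * a := by
    intro a
    calc gg τ z * (rr z.1 ^ 2 * (hh τ z * a)) = (gg τ z * hh τ z) * (rr z.1 ^ 2 * a) := by ring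
      _ = _ := by rw [gg_mul_hh τ hz, one_mul]
  rw [e3, e2]
  unfold Px Dxs Kxs kax Fxs Dxs vp al
  simp only [Ax_Ax hf _ _ hz, Ax_Ax sm_uu _ _ hz]
  unfold Ax
  ring

/-- the conjugation identity in the second variable -/
theorem conj_y {s : MF n} (hs : ∀ x, (s x).IsSymm) (τ : ℝ) {f : VV n → ℝ} (hf : Sm f)
    {z : VV n} (hz : z ∈ Un n) :
    Py s τ f z = gg τ z * (rr z.2 ^ 2 * Ly s (fun w => hh τ w * f w) z) := by
  have hr := rr2_pos hz
  have e1 : Ly s (fun w => hh τ w * f w) z = hh τ z * ∑ i, ∑ j, s z.2 i j *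
      ((ga n * z.2 i / rr z.2 + τ * HY.dy i uu z)
        * (HY.dy j f z + (ga n * z.2 j / rr z.2 + τ * HY.dy j uu z) * f z)
        + (HY.dy i (HY.dy j f) z + ((ga n * (if i = j then 1 else 0) / rr z.2
          + ga n * z.2 i * z.2 j / rr z.2 ^ 2 + τ * HY.dy i (HY.dy j uu) z) * f z
          + (ga n * z.2 j / rr z.2 + τ * HY.dy j uu z) * HY.dy i f z))) := by
    unfold Ly
    simp only [dydy_hh τ hf _ _ hz, ly, Finset.mul_sum]
    refine Finset.sum_congr rfl fun i _ => Finset.sum_congr rfl fun j _ => ?_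
    ring
  have e2 := conj_alg (s z.2) (hs z.2) z.2 (fun i => HY.dy i uu z) (fun i => HY.dy i f z)
    (fun i j => HY.dy i (HY.dy j uu) z) (fun i j => HY.dy i (HY.dy j f) z) (rr z.2) (f z) (uu z) τ
    hr.ne'
  rw [e1]
  have e3 : ∀ a : ℝ, gg τ z * (rr z.2 ^ 2 * (hh τ z * a)) = rr z.2 ^ 2 * a := by
    intro a
    calc gg τ z * (rr z.2 ^ 2 * (hh τ z * a)) = (gg τ z * hh τ z) * (rr z.2 ^ 2 * a) := by ring
      _ = _ := by rw [gg_mul_hh τ hz, one_mul]
  rw [e3, e2]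
  unfold Py Dys Kys kay Fys Dys vp be
  simp only [By_By hf _ _ hz, By_By sm_uu _ _ hz]
  unfold By
  ring

end Vale.Agent.P088.R2.H820
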