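import Vale.Agent.P088.R2.H820.Conj

/-!
# P088, integration by parts and commutation on pairs of points of the ball
-/

open MeasureTheory Set Filter
open scoped ContDiff Matrix Topology

noncomputable section

namespace Vale.Agent.P088.R2.H820

open Vale.Agent.P088.LR Vale.Agent.P088.HY

variable {n : ℕ}

/-! ## Test functions -/

instance instHaarVV : (volume : Measure (VV n)).IsAddHaarMeasure :=
  Measure.prod.instIsAddHaarMeasure (volume : Measure (V n)) (volume : Measure (V n))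

lemma contDiff_of_ts {f : VV n → ℝ} (h : ∀ z ∈ tsupport f, ContDiffAt ℝ ∞ f z) :
    ContDiff ℝ ∞ f := by
  rw [contDiff_iff_contDiffAt]
  intro z
  by_cases hz : z ∈ tsupport f
  · exact h z hz
  · have h1 : f =ᶠ[𝓝 z] fun _ => (0 : ℝ) := by
      have := notMem_tsupport_iff_eventuallyEq.1 hz
      exact this
    exact contDiffAt_const.congr_of_eventuallyEq h1

/-- Test functions on the set of pairs. -/
abbrev Te (f : VV n → ℝ) : Prop := TF (Un n) f

lemma Te.sm {f : VV n → ℝ} (hf : Te f) : Sm f := hf.1.contDiffOn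

lemma Te.zero_of {f : VV n → ℝ} {z : VV n} (hz : z ∉ tsupport f) : f z = 0 :=
  image_eq_zero_of_notMem_tsupport hz

lemma Te.mul {f g : VV n → ℝ} (hf : Sm f) (hg : Te g) : Te (fun z => f z * g z) := by
  have hs : tsupport (fun z => f z * g z) ⊆ tsupport g := tsupport_mul_subset_right
  refine ⟨contDiff_of_ts fun z hz => ?_, hg.2.1.mul_left, hs.trans hg.2.2⟩
  exact (hf.at (hg.2.2 (hs hz))).mul hg.1.contDiffAt

lemma Te.mul_left {f g : VV n → ℝ} (hf : Te f) (hg : Sm g) : Te (fun z => f z * g z) := by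
  have := Te.mul hg hf
  simpa only [mul_comm] using this

lemma Te.fd {f : VV n → ℝ} (hf : Te f) (v : VV n) : Te (fun z => fderiv ℝ f z v) := by
  refine ⟨?_, ?_, ?_⟩
  · exact (hf.1.fderiv_right (by simp)).clm_apply contDiff_const
  · exact hf.2.1.fderiv_apply (𝕜 := ℝ) v
  · exact (tsupport_fderiv_apply_subset ℝ v).trans hf.2.2

lemma Te.dx {f : VV n → ℝ} (hf : Te f) (i : Fin n) : Te (HY.dx i f) := hf.fd _

lemma Te.dy {f : VV n → ℝ} (hf : Te f) (i : Fin n) : Te (HY.dy i f) := hf.fd _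

lemma Te.add {f g : VV n → ℝ} (hf : Te f) (hg : Te g) : Te (fun z => f z + g z) := by
  refine ⟨hf.1.add hg.1, hf.2.1.add hg.2.1, ?_⟩
  exact (tsupport_add f g).trans (union_subset hf.2.2 hg.2.2)

lemma te_zero : Te (fun _ : VV n => (0 : ℝ)) := by
  refine ⟨contDiff_const, HasCompactSupport.zero, ?_⟩
  simp

lemma Te.smul {f : VV n → ℝ} (hf : Te f) (c : ℝ) : Te (fun z => c * f z) := Te.mul (sm_const c) hf

lemma Te.integrable {f : VV n → ℝ} (hf : Te f) : Integrable f :=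
  hf.1.continuous.integrable_of_hasCompactSupport hf.2.1

lemma Te.int_mul {f g : VV n → ℝ} (hf : Sm f) (hg : Te g) : Integrable (fun z => f z * g z) :=
  (Te.mul hf hg).integrable

/-! ## Integration by parts -/

lemma ibp {f g : VV n → ℝ} (hf : Sm f) (hg : Te g) (v : VV n) :
    ∫ z, f z * fderiv ℝ g z v = -∫ z, fderiv ℝ f z v * g z :=
  integral_mul_fderiv_eq_neg_fderiv_mul_of_integrable (Te.int_mul (hf.fd v) hg)
    (Te.int_mul hf (hg.fd v)) (Te.int_mul hf hg) (fun _ hz => hf.diff (hg.2.2 hz))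
    fun _ _ => (hg.1.differentiable (by simp)) _

/-- the formal symmetry of a second order operator in the directions `e` -/
lemma ibp2 {e : Fin n → VV n} {a : Fin n → Fin n → VV n → ℝ} (ha : ∀ i j, Sm (a i j))
    (hsym : ∀ i j, ∀ z, a i j z = a j i z)
    (hdiv : ∀ j, ∀ z ∈ Un n, ∑ i, fderiv ℝ (a i j) z (e i) = 0)
    {f g : VV n → ℝ} (hf : Sm f) (hg : Te g) :
    ∫ z, f z * ∑ i, ∑ j, a i j z * fderiv ℝ (fun w => fderiv ℝ g w (e j)) z (e i)
      = ∫ z, (∑ i, ∑ j, a i j z * fderiv ℝ (fun w => fderiv ℝ f w (e j)) z (e i)) * g z := by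
  have i1 : ∀ i j, Integrable (fun z => (f z * a i j z) * fderiv ℝ (fun w => fderiv ℝ g w (e j)) z (e i)) :=
    fun i j => Te.int_mul (hf.mul (ha i j)) ((hg.fd (e j)).fd (e i))
  have i2 : ∀ i j, Integrable (fun z => (fderiv ℝ f z (e i) * a i j z) * fderiv ℝ g z (e j)) :=
    fun i j => Te.int_mul ((hf.fd _).mul (ha i j)) (hg.fd (e j))
  have i3 : ∀ i j, Integrable (fun z => (f z * fderiv ℝ (a i j) z (e i)) * fderiv ℝ g z (e j)) :=
    fun i j => Te.int_mul (hf.mul ((ha i j).fd _)) (hg.fd (e j))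
  have i4 : ∀ i j, Integrable (fun z => (fderiv ℝ (fun w => fderiv ℝ f w (e i)) z (e j) * a i j z) * g z) :=
    fun i j => Te.int_mul (((hf.fd _).fd _).mul (ha i j)) hg
  have i5 : ∀ i j, Integrable (fun z => (fderiv ℝ f z (e i) * fderiv ℝ (a i j) z (e j)) * g z) :=
    fun i j => Te.int_mul ((hf.fd _).mul ((ha i j).fd _)) hg
  have z3 : ∫ z, ∑ j, ∑ i, (f z * fderiv ℝ (a i j) z (e i)) * fderiv ℝ g z (e j) = 0 := by
    rw [← integral_zero (VV n) ℝ]
    refine integral_congr_ae (Eventually.of_forall fun z => ?_)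
    refine Finset.sum_eq_zero fun j _ => ?_
    by_cases hz : z ∈ Un n
    · rw [← Finset.sum_mul, ← Finset.mul_sum, hdiv j z hz, mul_zero, zero_mul]
    · have : fderiv ℝ g z (e j) = 0 :=
        Te.zero_of (f := fun z => fderiv ℝ g z (e j)) fun h => hz ((hg.fd (e j)).2.2 h)
      simp [this]
  have z5 : ∫ z, ∑ i, ∑ j, (fderiv ℝ f z (e i) * fderiv ℝ (a i j) z (e j)) * g z = 0 := by
    rw [← integral_zero (VV n) ℝ]
    refine integral_congr_ae (Eventually.of_forall fun z => ?_)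
    refine Finset.sum_eq_zero fun i _ => ?_
    by_cases hz : z ∈ Un n
    · have e1 : ∀ j, fderiv ℝ (a i j) z (e j) = fderiv ℝ (a j i) z (e j) := by
        intro j
        have : a i j = a j i := funext fun z => hsym i j z
        rw [this]
      rw [← Finset.sum_mul, ← Finset.mul_sum, Finset.sum_congr rfl fun j _ => e1 j, hdiv i z hz,
        mul_zero, zero_mul]
    · have : g z = 0 := Te.zero_of fun h => hz (hg.2.2 h)
      simp [this]
  have s1 : ∀ i j, ∫ z, (f z * a i j z) * fderiv ℝ (fun w => fderiv ℝ g w (e j)) z (e i)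
      = -(∫ z, (fderiv ℝ f z (e i) * a i j z) * fderiv ℝ g z (e j))
        - ∫ z, (f z * fderiv ℝ (a i j) z (e i)) * fderiv ℝ g z (e j) := by
    intro i j
    rw [ibp (hf.mul (ha i j)) (hg.fd (e j)) (e i), ← neg_add', ← integral_add (i2 i j) (i3 i j)]
    congr 1
    refine integral_congr_ae (Eventually.of_forall fun z => ?_)
    by_cases hz : z ∈ Un n
    · simp only
      rw [fd_mul (hf.diff hz) ((ha i j).diff hz)]
      ring
    · have : fderiv ℝ g z (e j) = 0 :=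
        Te.zero_of (f := fun z => fderiv ℝ g z (e j)) fun h => hz ((hg.fd (e j)).2.2 h)
      simp [this]
  have s2 : ∀ i j, ∫ z, (fderiv ℝ f z (e i) * a i j z) * fderiv ℝ g z (e j)
      = -(∫ z, (fderiv ℝ (fun w => fderiv ℝ f w (e i)) z (e j) * a i j z) * g z)
        - ∫ z, (fderiv ℝ f z (e i) * fderiv ℝ (a i j) z (e j)) * g z := by
    intro i j
    rw [ibp ((hf.fd (e i)).mul (ha i j)) hg (e j), ← neg_add', ← integral_add (i4 i j) (i5 i j)]
    congr 1
    refine integral_congr_ae (Eventually.of_forall fun z => ?_)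
    by_cases hz : z ∈ Un n
    · simp only
      rw [fd_mul ((hf.fd (e i)).diff hz) ((ha i j).diff hz)]
      ring
    · have : g z = 0 := Te.zero_of fun h => hz (hg.2.2 h)
      simp [this]
  rw [integral_finsetSum _ fun j _ => integrable_finsetSum _ fun i _ => i3 i j] at z3
  rw [integral_finsetSum _ fun i _ => integrable_finsetSum _ fun j _ => i5 i j] at z5
  simp only [integral_finsetSum _ fun i _ => i3 i _] at z3
  simp only [integral_finsetSum _ fun j _ => i5 _ j] at z5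
  rw [Finset.sum_comm] at z3
  have l1 : ∫ z, f z * ∑ i, ∑ j, a i j z * fderiv ℝ (fun w => fderiv ℝ g w (e j)) z (e i)
      = ∑ i, ∑ j, ∫ z, (f z * a i j z) * fderiv ℝ (fun w => fderiv ℝ g w (e j)) z (e i) := by
    rw [← Finset.sum_congr rfl fun i _ => integral_finsetSum _ fun j _ => i1 i j,
      ← integral_finsetSum _ fun i _ => integrable_finsetSum _ fun j _ => i1 i j]
    congr 1
    ext z
    simp only [Finset.mul_sum, mul_assoc]
  have l2 : ∫ z, (∑ i, ∑ j, a i j z * fderiv ℝ (fun w => fderiv ℝ f w (e j)) z (e i)) * g z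
      = ∑ i, ∑ j, ∫ z, (fderiv ℝ (fun w => fderiv ℝ f w (e i)) z (e j) * a i j z) * g z := by
    rw [← Finset.sum_congr rfl fun i _ => integral_finsetSum _ fun j _ => i4 i j,
      ← integral_finsetSum _ fun i _ => integrable_finsetSum _ fun j _ => i4 i j]
    congr 1
    ext z
    rw [Finset.sum_comm, Finset.sum_mul]
    refine Finset.sum_congr rfl fun i _ => ?_
    rw [Finset.sum_mul]
    refine Finset.sum_congr rfl fun j _ => ?_
    rw [hsym j i]
    ring
  rw [l1, l2]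
  simp only [s1, s2, Finset.sum_sub_distrib, Finset.sum_neg_distrib, z3, z5]
  ring

lemma Lx_symm {s : MF n} (hs : SmM s) (hsy : ∀ x, (s x).IsSymm)
    (hdv : ∀ x ∈ Bn n, ∀ j, ∑ i, pd i (fun y => s y i j) x = 0)
    {f g : VV n → ℝ} (hf : Sm f) (hg : Te g) :
    ∫ z, f z * Lx s g z = ∫ z, Lx s f z * g z := by
  refine ibp2 (e := fun i => (Pi.single i 1, 0)) (a := fun i j z => s z.1 i j)
    (fun i j => sm_s1 hs i j) (fun i j z => (hsy z.1).apply j i) (fun j z hz => ?_) hf hg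
  rw [← hdv z.1 hz.1 j]
  exact Finset.sum_congr rfl fun i _ => dx_fst ((hs i j).differentiable (by simp) _) i

lemma Ly_symm {s : MF n} (hs : SmM s) (hsy : ∀ x, (s x).IsSymm)
    (hdv : ∀ x ∈ Bn n, ∀ j, ∑ i, pd i (fun y => s y i j) x = 0)
    {f g : VV n → ℝ} (hf : Sm f) (hg : Te g) :
    ∫ z, f z * Ly s g z = ∫ z, Ly s f z * g z := by
  refine ibp2 (e := fun i => (0, Pi.single i 1)) (a := fun i j z => s z.2 i j)
    (fun i j => sm_s2 hs i j) (fun i j z => (hsy z.2).apply j i) (fun j z hz => ?_) hf hg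
  rw [← hdv z.2 hz.2 j]
  exact Finset.sum_congr rfl fun i _ => dy_snd ((hs i j).differentiable (by simp) _) i

/-! ## Commutation -/

lemma fd_fd {f : VV n → ℝ} (hf : Sm f) {z : VV n} (hz : z ∈ Un n) (u v : VV n) :
    fderiv ℝ (fun w => fderiv ℝ f w v) z u = fderiv ℝ (fderiv ℝ f) z u v := by
  have h1 : DifferentiableAt ℝ (fderiv ℝ f) z :=
    ((hf.at hz).fderiv_right (m := 1) (by norm_cast)).differentiableAt (by simp)
  have h2 := h1.hasFDerivAt.clm_apply (hasFDerivAt_const v z)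
  rw [h2.fderiv]
  simp

lemma fd_comm {f : VV n → ℝ} (hf : Sm f) {z : VV n} (hz : z ∈ Un n) (u v : VV n) :
    fderiv ℝ (fun w => fderiv ℝ f w v) z u = fderiv ℝ (fun w => fderiv ℝ f w u) z v := by
  rw [fd_fd hf hz, fd_fd hf hz]
  have h := (hf.at hz).isSymmSndFDerivAt (by simp; exact WithTop.coe_le_coe.2 le_top)
  exact h.eq u v

lemma dx_dy {f : VV n → ℝ} (hf : Sm f) {z : VV n} (hz : z ∈ Un n) (i j : Fin n) :
    HY.dx i (HY.dy j f) z = HY.dy j (HY.dx i f) z := fd_comm hf hz _ _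

lemma dydy_dxdx {f : VV n → ℝ} (hf : Sm f) {z : VV n} (hz : z ∈ Un n) (i j k l : Fin n) :
    HY.dy k (HY.dy l (HY.dx i (HY.dx j f))) z = HY.dx i (HY.dx j (HY.dy k (HY.dy l f))) z := by
  have a1 : ∀ w ∈ Un n, HY.dy l (HY.dx i (HY.dx j f)) w = HY.dx i (HY.dx j (HY.dy l f)) w := by
    intro w hw
    rw [← dx_dy (hf.dx j) hw i l]
    exact dx_congr (fun w hw => (dx_dy hf hw j l).symm) hw i
  rw [dy_congr a1 hz, ← dx_dy ((hf.dy l).dx j) hz i k]
  exact dx_congr (fun w hw => (dx_dy (hf.dy l) hw j k).symm) hz i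

lemma dy_c1 {c : V n → ℝ} (hc : ContDiff ℝ ∞ c) {g : VV n → ℝ} (hg : Sm g) {z : VV n}
    (hz : z ∈ Un n) (i : Fin n) :
    HY.dy i (fun z => c z.1 * g z) z = c z.1 * HY.dy i g z := by
  have hc1 : Sm (fun z : VV n => c z.1) := sm_of (hc.comp contDiff_fst)
  rw [dy_mul hc1 hg hz, dy_fst (hc.differentiable (by simp) _)]
  ring

lemma dx_c2 {c : V n → ℝ} (hc : ContDiff ℝ ∞ c) {g : VV n → ℝ} (hg : Sm g) {z : VV n}
    (hz : z ∈ Un n) (i : Fin n) :
    HY.dx i (fun z => c z.2 * g z) z = c z.2 * HY.dx i g z := by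
  have hc1 : Sm (fun z : VV n => c z.2) := sm_of (hc.comp contDiff_snd)
  rw [dx_mul hc1 hg hz, dx_snd (hc.differentiable (by simp) _)]
  ring

lemma Ly_c1 (s : MF n) {c : V n → ℝ} (hc : ContDiff ℝ ∞ c) {g : VV n → ℝ} (hg : Sm g) {z : VV n}
    (hz : z ∈ Un n) : Ly s (fun z => c z.1 * g z) z = c z.1 * Ly s g z := by
  unfold Ly
  simp only [Finset.mul_sum]
  refine Finset.sum_congr rfl fun i _ => Finset.sum_congr rfl fun j _ => ?_
  rw [dy_congr (fun w hw => dy_c1 hc hg hw j) hz, dy_c1 hc (hg.dy j) hz]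
  ring

lemma Lx_c2 (s : MF n) {c : V n → ℝ} (hc : ContDiff ℝ ∞ c) {g : VV n → ℝ} (hg : Sm g) {z : VV n}
    (hz : z ∈ Un n) : Lx s (fun z => c z.2 * g z) z = c z.2 * Lx s g z := by
  unfold Lx
  simp only [Finset.mul_sum]
  refine Finset.sum_congr rfl fun i _ => Finset.sum_congr rfl fun j _ => ?_
  rw [dx_congr (fun w hw => dx_c2 hc hg hw j) hz, dx_c2 hc (hg.dx j) hz]
  ring

lemma Sm.Lx {s : MF n} (hs : SmM s) {f : VV n → ℝ} (hf : Sm f) : Sm (HY.Lx s f) :=
  Sm.sum fun i _ => Sm.sum fun j _ => (sm_s1 hs i j).mul ((hf.dx j).dx i)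

lemma Sm.Ly {s : MF n} (hs : SmM s) {f : VV n → ℝ} (hf : Sm f) : Sm (HY.Ly s f) :=
  Sm.sum fun i _ => Sm.sum fun j _ => (sm_s2 hs i j).mul ((hf.dy j).dy i)

lemma dy_sum {ι : Type*} {t : Finset ι} {g : ι → VV n → ℝ} (hg : ∀ a ∈ t, Sm (g a)) {z : VV n}
    (hz : z ∈ Un n) (i : Fin n) :
    HY.dy i (fun z => ∑ a ∈ t, g a z) z = ∑ a ∈ t, HY.dy i (g a) z := by
  unfold HY.dy
  rw [fderiv_fun_sum fun a ha => (hg a ha).diff hz]
  simp

lemma dx_sum {ι : Type*} {t : Finset ι} {g : ι → VV n → ℝ} (hg : ∀ a ∈ t, Sm (g a)) {z : VV n}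
    (hz : z ∈ Un n) (i : Fin n) :
    HY.dx i (fun z => ∑ a ∈ t, g a z) z = ∑ a ∈ t, HY.dx i (g a) z := by
  unfold HY.dx
  rw [fderiv_fun_sum fun a ha => (hg a ha).diff hz]
  simp

lemma Lx_congr (s : MF n) {f g : VV n → ℝ} (h : ∀ z ∈ Un n, f z = g z) {z : VV n}
    (hz : z ∈ Un n) : Lx s f z = Lx s g z := by
  unfold Lx
  refine Finset.sum_congr rfl fun i _ => Finset.sum_congr rfl fun j _ => ?_
  rw [dx_congr (fun w hw => dx_congr h hw j) hz]

lemma Ly_congr (s : MF n) {f g : VV n → ℝ} (h : ∀ z ∈ Un n, f z = g z) {z : VV n}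
    (hz : z ∈ Un n) : Ly s f z = Ly s g z := by
  unfold Ly
  refine Finset.sum_congr rfl fun i _ => Finset.sum_congr rfl fun j _ => ?_
  rw [dy_congr (fun w hw => dy_congr h hw j) hz]

/-- the operators in the two variables commute -/
theorem Ly_Lx {s₁ s₂ : MF n} (h₁ : SmM s₁) (h₂ : SmM s₂) {f : VV n → ℝ} (hf : Sm f) {z : VV n}
    (hz : z ∈ Un n) : Ly s₂ (Lx s₁ f) z = Lx s₁ (Ly s₂ f) z := by
  have a1 : ∀ k l, ∀ w ∈ Un n, HY.dy k (HY.dy l (Lx s₁ f)) w
      = ∑ i, ∑ j, s₁ w.1 i j * HY.dy k (HY.dy l (HY.dx i (HY.dx j f))) w := by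
    intro k l w hw
    have b1 : ∀ w ∈ Un n, HY.dy l (Lx s₁ f) w
        = ∑ i, ∑ j, s₁ w.1 i j * HY.dy l (HY.dx i (HY.dx j f)) w := by
      intro w hw
      unfold Lx
      rw [dy_sum (fun i _ => Sm.sum fun j _ => (sm_s1 h₁ i j).mul ((hf.dx j).dx i)) hw]
      refine Finset.sum_congr rfl fun i _ => ?_
      rw [dy_sum (fun j _ => (sm_s1 h₁ i j).mul ((hf.dx j).dx i)) hw]
      exact Finset.sum_congr rfl fun j _ => dy_c1 (h₁ i j) ((hf.dx j).dx i) hw l
    rw [dy_congr b1 hw,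
      dy_sum (fun i _ => Sm.sum fun j _ => (sm_s1 h₁ i j).mul (((hf.dx j).dx i).dy l)) hw]
    refine Finset.sum_congr rfl fun i _ => ?_
    rw [dy_sum (fun j _ => (sm_s1 h₁ i j).mul (((hf.dx j).dx i).dy l)) hw]
    exact Finset.sum_congr rfl fun j _ => dy_c1 (h₁ i j) (((hf.dx j).dx i).dy l) hw k
  have a2 : ∀ i j, ∀ w ∈ Un n, HY.dx i (HY.dx j (Ly s₂ f)) w
      = ∑ k, ∑ l, s₂ w.2 k l * HY.dx i (HY.dx j (HY.dy k (HY.dy l f))) w := by
    intro i j w hw
    have b1 : ∀ w ∈ Un n, HY.dx j (Ly s₂ f) w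
        = ∑ k, ∑ l, s₂ w.2 k l * HY.dx j (HY.dy k (HY.dy l f)) w := by
      intro w hw
      unfold Ly
      rw [dx_sum (fun k _ => Sm.sum fun l _ => (sm_s2 h₂ k l).mul ((hf.dy l).dy k)) hw]
      refine Finset.sum_congr rfl fun k _ => ?_
      rw [dx_sum (fun l _ => (sm_s2 h₂ k l).mul ((hf.dy l).dy k)) hw]
      exact Finset.sum_congr rfl fun l _ => dx_c2 (h₂ k l) ((hf.dy l).dy k) hw j
    rw [dx_congr b1 hw,
      dx_sum (fun k _ => Sm.sum fun l _ => (sm_s2 h₂ k l).mul (((hf.dy l).dy k).dx j)) hw]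
    refine Finset.sum_congr rfl fun k _ => ?_
    rw [dx_sum (fun l _ => (sm_s2 h₂ k l).mul (((hf.dy l).dy k).dx j)) hw]
    exact Finset.sum_congr rfl fun l _ => dx_c2 (h₂ k l) (((hf.dy l).dy k).dx j) hw i
  have e1 : Ly s₂ (Lx s₁ f) z = ∑ k, ∑ l, s₂ z.2 k l *
      ∑ i, ∑ j, s₁ z.1 i j * HY.dy k (HY.dy l (HY.dx i (HY.dx j f))) z := by
    change ∑ k, ∑ l, s₂ z.2 k l * HY.dy k (HY.dy l (Lx s₁ f)) z = _
    exact Finset.sum_congr rfl fun k _ => Finset.sum_congr rfl fun l _ => by rw [a1 k l z hz]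
  have e2 : Lx s₁ (Ly s₂ f) z = ∑ i, ∑ j, s₁ z.1 i j *
      ∑ k, ∑ l, s₂ z.2 k l * HY.dx i (HY.dx j (HY.dy k (HY.dy l f))) z := by
    change ∑ i, ∑ j, s₁ z.1 i j * HY.dx i (HY.dx j (Ly s₂ f)) z = _
    exact Finset.sum_congr rfl fun i _ => Finset.sum_congr rfl fun j _ => by rw [a2 i j z hz]
  rw [e1, e2]
  simp only [Finset.mul_sum, dydy_dxdx hf hz]
  rw [Finset.sum_congr rfl fun k _ => Finset.sum_comm]
  rw [Finset.sum_comm]
  refine Finset.sum_congr rfl fun i _ => ?_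
  rw [Finset.sum_congr rfl fun k _ => Finset.sum_comm]
  rw [Finset.sum_comm]
  refine Finset.sum_congr rfl fun j _ => Finset.sum_congr rfl fun k _ =>
    Finset.sum_congr rfl fun l _ => ?_
  ring

end Vale.Agent.P088.R2.H820
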