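import Vale.Agent.P088.R2.H820.Sol
import Vale.Agent.P088.R2.H349.J.Spec

/-!
# P088, row SOLG: operators on vectors of functions, conjugation, linearity
-/

open MeasureTheory Set Filter
open scoped ContDiff Matrix Topology RealInnerProductSpace

noncomputable section

namespace Vale.Agent.P088.R2.H820

open Vale.Agent.P088.LR Vale.Agent.P088.HY

variable {n m : ℕ}

/-- smooth coefficients -/
structure CoSm (e : Co n m) : Prop where
  b : ∀ l p q, ContDiff ℝ ∞ (fun x => e.b l x p q)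
  c : ∀ p q, ContDiff ℝ ∞ (fun x => e.c x p q)

lemma CoOk.csm {K : ℕ} {ε M : ℝ} {e : Co n m} (h : CoOk K ε M e) : CoSm e := ⟨h.sb, h.sc⟩

lemma contDiff_pd {f : V n → ℝ} (hf : ContDiff ℝ ∞ f) (i : Fin n) : ContDiff ℝ ∞ (pd i f) := by
  unfold pd
  exact (hf.fderiv_right (by simp)).clm_apply contDiff_const

lemma CoSm.adj {e : Co n m} (h : CoSm e) : CoSm (HY.adj e) := by
  refine ⟨fun l p q => ?_, fun p q => ?_⟩
  · have : (fun x => (HY.adj e).b l x p q) = fun x => -(e.b l x q p) := rfl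
    rw [this]
    exact (h.b l q p).neg
  · have : (fun x => (HY.adj e).c x p q)
        = fun x => e.c x q p - ∑ l, pd l (fun y => e.b l y q p) x := rfl
    rw [this]
    exact (h.c q p).sub (ContDiff.sum fun l _ => contDiff_pd (h.b l q p) l)

lemma adj_adj (e : Co n m) : HY.adj (HY.adj e) = e := by
  obtain ⟨b, c⟩ := e
  have hb : (HY.adj (HY.adj ⟨b, c⟩)).b = b := by
    funext l x
    ext p q
    simp [HY.adj]
  have hc : (HY.adj (HY.adj ⟨b, c⟩)).c = c := by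
    funext x
    ext p q
    have e1 : ∀ l, pd l (fun y => -b l y p q) x = -pd l (fun y => b l y p q) x := by
      intro l
      unfold pd
      rw [fderiv_fun_neg]
      rfl
    simp [HY.adj, e1]
  change (⟨(HY.adj (HY.adj ⟨b, c⟩)).b, (HY.adj (HY.adj ⟨b, c⟩)).c⟩ : Co n m) = ⟨b, c⟩
  rw [hb, hc]

/-! ## The lower order terms -/

/-- the lower order terms in `x` -/
def Rx (e : Co n m) (f : Fin m → VV n → ℝ) (p : Fin m) (z : VV n) : ℝ :=
  ∑ q, (∑ l, e.b l z.1 p q * HY.dx l (f q) z + e.c z.1 p q * f q z)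

/-- the lower order terms in `y` -/
def Ry (e : Co n m) (f : Fin m → VV n → ℝ) (p : Fin m) (z : VV n) : ℝ :=
  ∑ q, (∑ l, e.b l z.2 p q * HY.dy l (f q) z + e.c z.2 p q * f q z)

lemma LxG_eq (s : MF n) (e : Co n m) (f : Fin m → VV n → ℝ) (p : Fin m) (z : VV n) :
    LxG s e f p z = Lx s (f p) z + Rx e f p z := rfl

lemma LyG_eq (s : MF n) (e : Co n m) (f : Fin m → VV n → ℝ) (p : Fin m) (z : VV n) :
    LyG s e f p z = Ly s (f p) z + Ry e f p z := rfl

lemma CoSm.b1 {e : Co n m} (h : CoSm e) (l : Fin n) (p q : Fin m) :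
    Sm (fun z : VV n => e.b l z.1 p q) := sm_of ((h.b l p q).comp contDiff_fst)

lemma CoSm.b2 {e : Co n m} (h : CoSm e) (l : Fin n) (p q : Fin m) :
    Sm (fun z : VV n => e.b l z.2 p q) := sm_of ((h.b l p q).comp contDiff_snd)

lemma CoSm.c1 {e : Co n m} (h : CoSm e) (p q : Fin m) :
    Sm (fun z : VV n => e.c z.1 p q) := sm_of ((h.c p q).comp contDiff_fst)

lemma CoSm.c2 {e : Co n m} (h : CoSm e) (p q : Fin m) :
    Sm (fun z : VV n => e.c z.2 p q) := sm_of ((h.c p q).comp contDiff_snd)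

lemma Sm.Rx {e : Co n m} (h : CoSm e) {f : Fin m → VV n → ℝ} (hf : ∀ q, Sm (f q)) (p : Fin m) :
    Sm (H820.Rx e f p) :=
  Sm.sum fun q _ => (Sm.sum fun l _ => (h.b1 l p q).mul ((hf q).dx l)).add ((h.c1 p q).mul (hf q))

lemma Sm.Ry {e : Co n m} (h : CoSm e) {f : Fin m → VV n → ℝ} (hf : ∀ q, Sm (f q)) (p : Fin m) :
    Sm (H820.Ry e f p) :=
  Sm.sum fun q _ => (Sm.sum fun l _ => (h.b2 l p q).mul ((hf q).dy l)).add ((h.c2 p q).mul (hf q))

lemma Te.sum {ι : Type*} {t : Finset ι} {f : ι → VV n → ℝ} (hf : ∀ i ∈ t, Te (f i)) :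
    Te (fun z => ∑ i ∈ t, f i z) := by
  classical
  induction t using Finset.induction_on with
  | empty => simpa using te_zero
  | insert a t ha ih =>
    simp only [Finset.sum_insert ha]
    exact Te.add (hf a (Finset.mem_insert_self a t))
      (ih fun i hi => hf i (Finset.mem_insert_of_mem hi))

lemma Te.Rx {e : Co n m} (h : CoSm e) {f : Fin m → VV n → ℝ} (hf : ∀ q, Te (f q)) (p : Fin m) :
    Te (H820.Rx e f p) :=
  Te.sum fun q _ => (Te.sum fun l _ => Te.mul (h.b1 l p q) ((hf q).dx l)).add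
    (Te.mul (h.c1 p q) (hf q))

lemma Te.Ry {e : Co n m} (h : CoSm e) {f : Fin m → VV n → ℝ} (hf : ∀ q, Te (f q)) (p : Fin m) :
    Te (H820.Ry e f p) :=
  Te.sum fun q _ => (Te.sum fun l _ => Te.mul (h.b2 l p q) ((hf q).dy l)).add
    (Te.mul (h.c2 p q) (hf q))

lemma Rx_congr (e : Co n m) {f g : Fin m → VV n → ℝ} (h : ∀ q, ∀ z ∈ Un n, f q z = g q z)
    (p : Fin m) {z : VV n} (hz : z ∈ Un n) : Rx e f p z = Rx e g p z := by
  unfold Rx
  refine Finset.sum_congr rfl fun q _ => ?_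
  rw [h q z hz]
  congr 1
  exact Finset.sum_congr rfl fun l _ => by rw [dx_congr (h q) hz]

lemma Ry_congr (e : Co n m) {f g : Fin m → VV n → ℝ} (h : ∀ q, ∀ z ∈ Un n, f q z = g q z)
    (p : Fin m) {z : VV n} (hz : z ∈ Un n) : Ry e f p z = Ry e g p z := by
  unfold Ry
  refine Finset.sum_congr rfl fun q _ => ?_
  rw [h q z hz]
  congr 1
  exact Finset.sum_congr rfl fun l _ => by rw [dy_congr (h q) hz]

lemma Rx_add (e : Co n m) {f g : Fin m → VV n → ℝ} (hf : ∀ q, Sm (f q)) (hg : ∀ q, Sm (g q))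
    (p : Fin m) {z : VV n} (hz : z ∈ Un n) :
    Rx e (fun q z => f q z + g q z) p z = Rx e f p z + Rx e g p z := by
  unfold Rx
  rw [← Finset.sum_add_distrib]
  refine Finset.sum_congr rfl fun q _ => ?_
  simp only [dx_add (hf q) (hg q) hz, mul_add, Finset.sum_add_distrib]
  ring

lemma Ry_add (e : Co n m) {f g : Fin m → VV n → ℝ} (hf : ∀ q, Sm (f q)) (hg : ∀ q, Sm (g q))
    (p : Fin m) {z : VV n} (hz : z ∈ Un n) :
    Ry e (fun q z => f q z + g q z) p z = Ry e f p z + Ry e g p z := by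
  unfold Ry
  rw [← Finset.sum_add_distrib]
  refine Finset.sum_congr rfl fun q _ => ?_
  simp only [dy_add (hf q) (hg q) hz, mul_add, Finset.sum_add_distrib]
  ring

/-- functions of `y` commute with `Rx` -/
lemma Rx_c2 (e : Co n m) {c : VV n → ℝ} (hc : Sm c) (hc0 : ∀ l, ∀ z ∈ Un n, HY.dx l c z = 0)
    {f : Fin m → VV n → ℝ} (hf : ∀ q, Sm (f q)) (p : Fin m) {z : VV n} (hz : z ∈ Un n) :
    Rx e (fun q z => c z * f q z) p z = c z * Rx e f p z := by
  unfold Rx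
  rw [Finset.mul_sum]
  refine Finset.sum_congr rfl fun q _ => ?_
  simp only [dx_mul hc (hf q) hz, hc0 _ z hz, zero_mul, zero_add, mul_add, Finset.mul_sum]
  congr 1
  · exact Finset.sum_congr rfl fun l _ => by ring
  · ring

/-- functions of `x` commute with `Ry` -/
lemma Ry_c1 (e : Co n m) {c : VV n → ℝ} (hc : Sm c) (hc0 : ∀ l, ∀ z ∈ Un n, HY.dy l c z = 0)
    {f : Fin m → VV n → ℝ} (hf : ∀ q, Sm (f q)) (p : Fin m) {z : VV n} (hz : z ∈ Un n) :
    Ry e (fun q z => c z * f q z) p z = c z * Ry e f p z := by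
  unfold Ry
  rw [Finset.mul_sum]
  refine Finset.sum_congr rfl fun q _ => ?_
  simp only [dy_mul hc (hf q) hz, hc0 _ z hz, zero_mul, zero_add, mul_add, Finset.mul_sum]
  congr 1
  · exact Finset.sum_congr rfl fun l _ => by ring
  · ring

lemma Rx_smul (e : Co n m) (c : ℝ) {f : Fin m → VV n → ℝ} (hf : ∀ q, Sm (f q)) (p : Fin m)
    {z : VV n} (hz : z ∈ Un n) : Rx e (fun q z => c * f q z) p z = c * Rx e f p z :=
  Rx_c2 e (sm_const c) (fun l z _ => by unfold HY.dx; simp) hf p hz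

lemma Ry_smul (e : Co n m) (c : ℝ) {f : Fin m → VV n → ℝ} (hf : ∀ q, Sm (f q)) (p : Fin m)
    {z : VV n} (hz : z ∈ Un n) : Ry e (fun q z => c * f q z) p z = c * Ry e f p z :=
  Ry_c1 e (sm_const c) (fun l z _ => by unfold HY.dy; simp) hf p hz

/-! ## The operators -/

lemma Sm.LxG {s : MF n} (hs : SmM s) {e : Co n m} (h : CoSm e) {f : Fin m → VV n → ℝ}
    (hf : ∀ q, Sm (f q)) (p : Fin m) : Sm (HY.LxG s e f p) := (Sm.Lx hs (hf p)).add (Sm.Rx h hf p)

lemma Sm.LyG {s : MF n} (hs : SmM s) {e : Co n m} (h : CoSm e) {f : Fin m → VV n → ℝ}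
    (hf : ∀ q, Sm (f q)) (p : Fin m) : Sm (HY.LyG s e f p) := (Sm.Ly hs (hf p)).add (Sm.Ry h hf p)

lemma Te.LxG {s : MF n} (hs : SmM s) {e : Co n m} (h : CoSm e) {f : Fin m → VV n → ℝ}
    (hf : ∀ q, Te (f q)) (p : Fin m) : Te (HY.LxG s e f p) := (Te.Lx hs (hf p)).add (Te.Rx h hf p)

lemma Te.LyG {s : MF n} (hs : SmM s) {e : Co n m} (h : CoSm e) {f : Fin m → VV n → ℝ}
    (hf : ∀ q, Te (f q)) (p : Fin m) : Te (HY.LyG s e f p) := (Te.Ly hs (hf p)).add (Te.Ry h hf p)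

lemma LxG_congr (s : MF n) (e : Co n m) {f g : Fin m → VV n → ℝ}
    (h : ∀ q, ∀ z ∈ Un n, f q z = g q z) (p : Fin m) {z : VV n} (hz : z ∈ Un n) :
    LxG s e f p z = LxG s e g p z := by
  rw [LxG_eq, LxG_eq, Lx_congr s (h p) hz, Rx_congr e h p hz]

lemma LyG_congr (s : MF n) (e : Co n m) {f g : Fin m → VV n → ℝ}
    (h : ∀ q, ∀ z ∈ Un n, f q z = g q z) (p : Fin m) {z : VV n} (hz : z ∈ Un n) :
    LyG s e f p z = LyG s e g p z := by
  rw [LyG_eq, LyG_eq, Ly_congr s (h p) hz, Ry_congr e h p hz]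

lemma LxG_add (s : MF n) (e : Co n m) {f g : Fin m → VV n → ℝ} (hf : ∀ q, Sm (f q))
    (hg : ∀ q, Sm (g q)) (p : Fin m) {z : VV n} (hz : z ∈ Un n) :
    LxG s e (fun q z => f q z + g q z) p z = LxG s e f p z + LxG s e g p z := by
  rw [LxG_eq, LxG_eq, LxG_eq, Lx_add s (hf p) (hg p) hz, Rx_add e hf hg p hz]
  ring

lemma LyG_add (s : MF n) (e : Co n m) {f g : Fin m → VV n → ℝ} (hf : ∀ q, Sm (f q))
    (hg : ∀ q, Sm (g q)) (p : Fin m) {z : VV n} (hz : z ∈ Un n) :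
    LyG s e (fun q z => f q z + g q z) p z = LyG s e f p z + LyG s e g p z := by
  rw [LyG_eq, LyG_eq, LyG_eq, Ly_add s (hf p) (hg p) hz, Ry_add e hf hg p hz]
  ring

lemma LxG_smul (s : MF n) (e : Co n m) (c : ℝ) {f : Fin m → VV n → ℝ} (hf : ∀ q, Sm (f q))
    (p : Fin m) {z : VV n} (hz : z ∈ Un n) :
    LxG s e (fun q z => c * f q z) p z = c * LxG s e f p z := by
  rw [LxG_eq, LxG_eq, Lx_smul s c (hf p) hz, Rx_smul e c hf p hz]
  ring

lemma LyG_smul (s : MF n) (e : Co n m) (c : ℝ) {f : Fin m → VV n → ℝ} (hf : ∀ q, Sm (f q))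
    (p : Fin m) {z : VV n} (hz : z ∈ Un n) :
    LyG s e (fun q z => c * f q z) p z = c * LyG s e f p z := by
  rw [LyG_eq, LyG_eq, Ly_smul s c (hf p) hz, Ry_smul e c hf p hz]
  ring

/-- smooth functions of `y` commute with `LxG` -/
lemma LxG_c2 (s : MF n) (e : Co n m) {c : V n → ℝ} (hc : ContDiff ℝ ∞ c)
    {f : Fin m → VV n → ℝ} (hf : ∀ q, Sm (f q)) (p : Fin m) {z : VV n} (hz : z ∈ Un n) :
    LxG s e (fun q z => c z.2 * f q z) p z = c z.2 * LxG s e f p z := by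
  rw [LxG_eq, LxG_eq, Lx_c2 s hc (hf p) hz, Rx_c2 e (c := fun z : VV n => c z.2)
    (sm_of (hc.comp contDiff_snd)) (fun l z _ => dx_snd (hc.differentiable (by simp) _) l) hf p hz]
  ring

/-- smooth functions of `x` commute with `LyG` -/
lemma LyG_c1 (s : MF n) (e : Co n m) {c : V n → ℝ} (hc : ContDiff ℝ ∞ c)
    {f : Fin m → VV n → ℝ} (hf : ∀ q, Sm (f q)) (p : Fin m) {z : VV n} (hz : z ∈ Un n) :
    LyG s e (fun q z => c z.1 * f q z) p z = c z.1 * LyG s e f p z := by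
  rw [LyG_eq, LyG_eq, Ly_c1 s hc (hf p) hz, Ry_c1 e (c := fun z : VV n => c z.1)
    (sm_of (hc.comp contDiff_fst)) (fun l z _ => dy_fst (hc.differentiable (by simp) _) l) hf p hz]
  ring

/-! ## The conjugated operators -/

/-- the conjugated operator in `x` -/
def PXG (s : MF n) (e : Co n m) (τ : ℝ) (f : Fin m → VV n → ℝ) (p : Fin m) (z : VV n) : ℝ :=
  gg τ z * (rr z.1 ^ 2 * LxG s e (fun q w => hh τ w * f q w) p z)

/-- the conjugated operator in `y` -/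
def PYG (s : MF n) (e : Co n m) (τ : ℝ) (f : Fin m → VV n → ℝ) (p : Fin m) (z : VV n) : ℝ :=
  gg τ z * (rr z.2 ^ 2 * LyG s e (fun q w => hh τ w * f q w) p z)

lemma Sm.PXG {s : MF n} (hs : SmM s) {e : Co n m} (h : CoSm e) (τ : ℝ) {f : Fin m → VV n → ℝ}
    (hf : ∀ q, Sm (f q)) (p : Fin m) : Sm (H820.PXG s e τ f p) :=
  (sm_gg τ).mul ((sm_r1.pow 2).mul (Sm.LxG hs h (fun q => (sm_hh τ).mul (hf q)) p))

lemma Sm.PYG {s : MF n} (hs : SmM s) {e : Co n m} (h : CoSm e) (τ : ℝ) {f : Fin m → VV n → ℝ}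
    (hf : ∀ q, Sm (f q)) (p : Fin m) : Sm (H820.PYG s e τ f p) :=
  (sm_gg τ).mul ((sm_r2.pow 2).mul (Sm.LyG hs h (fun q => (sm_hh τ).mul (hf q)) p))

lemma Te.PXG {s : MF n} (hs : SmM s) {e : Co n m} (h : CoSm e) (τ : ℝ) {f : Fin m → VV n → ℝ}
    (hf : ∀ q, Te (f q)) (p : Fin m) : Te (H820.PXG s e τ f p) :=
  Te.mul (sm_gg τ) (Te.mul (sm_r1.pow 2) (Te.LxG hs h (fun q => Te.mul (sm_hh τ) (hf q)) p))

lemma Te.PYG {s : MF n} (hs : SmM s) {e : Co n m} (h : CoSm e) (τ : ℝ) {f : Fin m → VV n → ℝ}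
    (hf : ∀ q, Te (f q)) (p : Fin m) : Te (H820.PYG s e τ f p) :=
  Te.mul (sm_gg τ) (Te.mul (sm_r2.pow 2) (Te.LyG hs h (fun q => Te.mul (sm_hh τ) (hf q)) p))

/-- conjugation of the lower order terms in `x` -/
lemma Rx_hh (e : Co n m) (τ : ℝ) {f : Fin m → VV n → ℝ} (hf : ∀ q, Sm (f q)) (p : Fin m)
    {z : VV n} (hz : z ∈ Un n) :
    gg τ z * (rr z.1 ^ 2 * Rx e (fun q w => hh τ w * f q w) p z)
      = ∑ q, (∑ l, rr z.1 * e.b l z.1 p q * (Ax l (f q) z + τ * al l z * f q z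
        + ga n * z.1 l * f q z) + rr z.1 ^ 2 * e.c z.1 p q * f q z) := by
  have hr := rr1_pos hz
  unfold Rx
  simp only [Finset.mul_sum]
  refine Finset.sum_congr rfl fun q _ => ?_
  rw [mul_add, mul_add, Finset.mul_sum, Finset.mul_sum]
  have hg := gg_mul_hh τ hz
  congr 1
  · refine Finset.sum_congr rfl fun l _ => ?_
    rw [dx_mul (sm_hh τ) (hf q) hz, dx_hh τ hz]
    unfold al Ax
    calc gg τ z * (rr z.1 ^ 2 * (e.b l z.1 p q *
          (hh τ z * (ga n * z.1 l / rr z.1 + τ * HY.dx l uu z) * f q z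
            + hh τ z * HY.dx l (f q) z)))
        = (gg τ z * hh τ z) * (rr z.1 ^ 2 * (e.b l z.1 p q *
          ((ga n * z.1 l / rr z.1 + τ * HY.dx l uu z) * f q z + HY.dx l (f q) z))) := by ring
      _ = _ := by
        rw [hg, one_mul]
        field_simp
        ring
  · calc gg τ z * (rr z.1 ^ 2 * (e.c z.1 p q * (hh τ z * f q z)))
        = (gg τ z * hh τ z) * (rr z.1 ^ 2 * (e.c z.1 p q * f q z)) := by ring
      _ = _ := by
        rw [hg, one_mul]
        ring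

/-- conjugation of the lower order terms in `y` -/
lemma Ry_hh (e : Co n m) (τ : ℝ) {f : Fin m → VV n → ℝ} (hf : ∀ q, Sm (f q)) (p : Fin m)
    {z : VV n} (hz : z ∈ Un n) :
    gg τ z * (rr z.2 ^ 2 * Ry e (fun q w => hh τ w * f q w) p z)
      = ∑ q, (∑ l, rr z.2 * e.b l z.2 p q * (By l (f q) z + τ * be l z * f q z
        + ga n * z.2 l * f q z) + rr z.2 ^ 2 * e.c z.2 p q * f q z) := by
  have hr := rr2_pos hz
  unfold Ry
  simp only [Finset.mul_sum]
  refine Finset.sum_congr rfl fun q _ => ?_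
  rw [mul_add, mul_add, Finset.mul_sum, Finset.mul_sum]
  have hg := gg_mul_hh τ hz
  congr 1
  · refine Finset.sum_congr rfl fun l _ => ?_
    rw [dy_mul (sm_hh τ) (hf q) hz, dy_hh τ hz]
    unfold be By
    calc gg τ z * (rr z.2 ^ 2 * (e.b l z.2 p q *
          (hh τ z * (ga n * z.2 l / rr z.2 + τ * HY.dy l uu z) * f q z
            + hh τ z * HY.dy l (f q) z)))
        = (gg τ z * hh τ z) * (rr z.2 ^ 2 * (e.b l z.2 p q *
          ((ga n * z.2 l / rr z.2 + τ * HY.dy l uu z) * f q z + HY.dy l (f q) z))) := by ring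
      _ = _ := by
        rw [hg, one_mul]
        field_simp
        ring
  · calc gg τ z * (rr z.2 ^ 2 * (e.c z.2 p q * (hh τ z * f q z)))
        = (gg τ z * hh τ z) * (rr z.2 ^ 2 * (e.c z.2 p q * f q z)) := by ring
      _ = _ := by
        rw [hg, one_mul]
        ring

lemma PxG_eq {s : MF n} (hs : ∀ x, (s x).IsSymm) (e : Co n m) (τ : ℝ) {f : Fin m → VV n → ℝ}
    (hf : ∀ q, Sm (f q)) (p : Fin m) {z : VV n} (hz : z ∈ Un n) :
    PxG s e τ f p z = PXG s e τ f p z := by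
  have h1 := conj_x hs τ (hf p) hz
  have h2 := Rx_hh e τ hf p hz
  unfold PxG PXG
  rw [LxG_eq, h1, ← h2]
  ring

lemma PyG_eq {s : MF n} (hs : ∀ x, (s x).IsSymm) (e : Co n m) (τ : ℝ) {f : Fin m → VV n → ℝ}
    (hf : ∀ q, Sm (f q)) (p : Fin m) {z : VV n} (hz : z ∈ Un n) :
    PyG s e τ f p z = PYG s e τ f p z := by
  have h1 := conj_y hs τ (hf p) hz
  have h2 := Ry_hh e τ hf p hz
  unfold PyG PYG
  rw [LyG_eq, h1, ← h2]
  ring

lemma PXG_congr (s : MF n) (e : Co n m) (τ : ℝ) {f g : Fin m → VV n → ℝ}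
    (h : ∀ q, ∀ z ∈ Un n, f q z = g q z) (p : Fin m) {z : VV n} (hz : z ∈ Un n) :
    PXG s e τ f p z = PXG s e τ g p z := by
  unfold PXG
  rw [LxG_congr s e (fun q w hw => by rw [h q w hw]) p hz]

lemma PYG_congr (s : MF n) (e : Co n m) (τ : ℝ) {f g : Fin m → VV n → ℝ}
    (h : ∀ q, ∀ z ∈ Un n, f q z = g q z) (p : Fin m) {z : VV n} (hz : z ∈ Un n) :
    PYG s e τ f p z = PYG s e τ g p z := by
  unfold PYG
  rw [LyG_congr s e (fun q w hw => by rw [h q w hw]) p hz]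

lemma PXG_add (s : MF n) (e : Co n m) (τ : ℝ) {f g : Fin m → VV n → ℝ} (hf : ∀ q, Sm (f q))
    (hg : ∀ q, Sm (g q)) (p : Fin m) {z : VV n} (hz : z ∈ Un n) :
    PXG s e τ (fun q z => f q z + g q z) p z = PXG s e τ f p z + PXG s e τ g p z := by
  unfold PXG
  have h := LxG_add s e (fun q => (sm_hh τ).mul (hf q)) (fun q => (sm_hh τ).mul (hg q)) p hz
  simp only [← mul_add] at h
  rw [h]
  ring

lemma PYG_add (s : MF n) (e : Co n m) (τ : ℝ) {f g : Fin m → VV n → ℝ} (hf : ∀ q, Sm (f q))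
    (hg : ∀ q, Sm (g q)) (p : Fin m) {z : VV n} (hz : z ∈ Un n) :
    PYG s e τ (fun q z => f q z + g q z) p z = PYG s e τ f p z + PYG s e τ g p z := by
  unfold PYG
  have h := LyG_add s e (fun q => (sm_hh τ).mul (hf q)) (fun q => (sm_hh τ).mul (hg q)) p hz
  simp only [← mul_add] at h
  rw [h]
  ring

lemma PXG_smul (s : MF n) (e : Co n m) (τ c : ℝ) {f : Fin m → VV n → ℝ} (hf : ∀ q, Sm (f q))
    (p : Fin m) {z : VV n} (hz : z ∈ Un n) :
    PXG s e τ (fun q z => c * f q z) p z = c * PXG s e τ f p z := by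
  unfold PXG
  have h := LxG_smul s e c (fun q => (sm_hh τ).mul (hf q)) p hz
  have h2 : (fun q w => hh τ w * (c * f q w)) = fun q w => c * (hh τ w * f q w) := by
    ext q w
    ring
  rw [h2, h]
  ring

lemma PYG_smul (s : MF n) (e : Co n m) (τ c : ℝ) {f : Fin m → VV n → ℝ} (hf : ∀ q, Sm (f q))
    (p : Fin m) {z : VV n} (hz : z ∈ Un n) :
    PYG s e τ (fun q z => c * f q z) p z = c * PYG s e τ f p z := by
  unfold PYG
  have h := LyG_smul s e c (fun q => (sm_hh τ).mul (hf q)) p hz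
  have h2 : (fun q w => hh τ w * (c * f q w)) = fun q w => c * (hh τ w * f q w) := by
    ext q w
    ring
  rw [h2, h]
  ring

lemma PXG_sub (s : MF n) (e : Co n m) (τ : ℝ) {f g : Fin m → VV n → ℝ} (hf : ∀ q, Sm (f q))
    (hg : ∀ q, Sm (g q)) (p : Fin m) {z : VV n} (hz : z ∈ Un n) :
    PXG s e τ (fun q z => f q z - g q z) p z = PXG s e τ f p z - PXG s e τ g p z := by
  have e1 : (fun q z => f q z - g q z) = fun q z => f q z + (-1) * g q z := by
    ext q z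
    ring
  rw [e1, PXG_add s e τ hf (fun q => (sm_const _).mul (hg q)) p hz, PXG_smul s e τ _ hg p hz]
  ring

lemma PYG_sub (s : MF n) (e : Co n m) (τ : ℝ) {f g : Fin m → VV n → ℝ} (hf : ∀ q, Sm (f q))
    (hg : ∀ q, Sm (g q)) (p : Fin m) {z : VV n} (hz : z ∈ Un n) :
    PYG s e τ (fun q z => f q z - g q z) p z = PYG s e τ f p z - PYG s e τ g p z := by
  have e1 : (fun q z => f q z - g q z) = fun q z => f q z + (-1) * g q z := by
    ext q z
    ring
  rw [e1, PYG_add s e τ hf (fun q => (sm_const _).mul (hg q)) p hz, PYG_smul s e τ _ hg p hz]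
  ring

end Vale.Agent.P088.R2.H820
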