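import Vale.Agent.P088.R2.H820.J1

/-!
# P088, row SOLG: adjoints and commutation
-/

open MeasureTheory Set Filter
open scoped ContDiff Matrix Topology RealInnerProductSpace

noncomputable section

namespace Vale.Agent.P088.R2.H820

open Vale.Agent.P088.LR Vale.Agent.P088.HY

variable {n m : ℕ}

/-! ## Adjoints -/

/-- first order terms, directions `e` -/
lemma ibp1 {e : Fin n → VV n} {β : Fin n → VV n → ℝ} (hβ : ∀ l, Sm (β l)) {γ : VV n → ℝ}
    (hγ : Sm γ) {f g : VV n → ℝ} (hf : Sm f) (hg : Te g) :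
    ∫ z, f z * (∑ l, β l z * fderiv ℝ g z (e l) + γ z * g z)
      = ∫ z, (∑ l, -β l z * fderiv ℝ f z (e l) + (γ z - ∑ l, fderiv ℝ (β l) z (e l)) * f z)
        * g z := by
  have i1 : ∀ l, Integrable (fun z => (f z * β l z) * fderiv ℝ g z (e l)) :=
    fun l => Te.int_mul (hf.mul (hβ l)) (hg.fd (e l))
  have i2 : ∀ l, Integrable (fun z => (fderiv ℝ f z (e l) * β l z + f z * fderiv ℝ (β l) z (e l))
      * g z) :=
    fun l => Te.int_mul (((hf.fd _).mul (hβ l)).add (hf.mul ((hβ l).fd _))) hg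
  have i3 : Integrable (fun z => (f z * γ z) * g z) := Te.int_mul (hf.mul hγ) hg
  have s1 : ∀ l, ∫ z, (f z * β l z) * fderiv ℝ g z (e l)
      = -∫ z, (fderiv ℝ f z (e l) * β l z + f z * fderiv ℝ (β l) z (e l)) * g z := by
    intro l
    rw [ibp (hf.mul (hβ l)) hg (e l)]
    congr 1
    refine integral_congr_ae (Eventually.of_forall fun z => ?_)
    by_cases hz : z ∈ Un n
    · simp only
      rw [fd_mul (hf.diff hz) ((hβ l).diff hz)]
    · have : g z = 0 := Te.zero_of fun h => hz (hg.2.2 h)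
      simp [this]
  have l1 : ∫ z, f z * (∑ l, β l z * fderiv ℝ g z (e l) + γ z * g z)
      = (∑ l, ∫ z, (f z * β l z) * fderiv ℝ g z (e l)) + ∫ z, (f z * γ z) * g z := by
    rw [← integral_finsetSum _ fun l _ => i1 l,
      ← integral_add (integrable_finsetSum _ fun l _ => i1 l) i3]
    congr 1
    ext z
    rw [mul_add, Finset.mul_sum]
    congr 1
    · exact Finset.sum_congr rfl fun l _ => by ring
    · ring
  have l2 : ∫ z, (∑ l, -β l z * fderiv ℝ f z (e l) + (γ z - ∑ l, fderiv ℝ (β l) z (e l)) * f z)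
        * g z = -(∑ l, ∫ z, (fderiv ℝ f z (e l) * β l z + f z * fderiv ℝ (β l) z (e l)) * g z)
          + ∫ z, (f z * γ z) * g z := by
    have i2n : ∀ l, Integrable (fun z => -((fderiv ℝ f z (e l) * β l z
        + f z * fderiv ℝ (β l) z (e l)) * g z)) := fun l => (i2 l).neg
    rw [← Finset.sum_neg_distrib]
    simp only [← integral_neg]
    rw [← integral_finsetSum _ fun l _ => i2n l,
      ← integral_add (integrable_finsetSum _ fun l _ => i2n l) i3]
    congr 1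
    ext z
    simp only [add_mul, sub_mul, Finset.sum_mul, Finset.sum_neg_distrib, Finset.sum_add_distrib,
      neg_add_rev, neg_mul]
    have a1 : ∑ l, β l z * fderiv ℝ f z (e l) * g z = ∑ l, fderiv ℝ f z (e l) * β l z * g z :=
      Finset.sum_congr rfl fun l _ => by ring
    have a2 : ∑ l, fderiv ℝ (β l) z (e l) * f z * g z
        = ∑ l, f z * fderiv ℝ (β l) z (e l) * g z :=
      Finset.sum_congr rfl fun l _ => by ring
    rw [a1, a2]
    ring
  rw [l1, l2]
  simp only [s1, Finset.sum_neg_distrib]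

lemma Rx_adj {e : Co n m} (h : CoSm e) {f g : Fin m → VV n → ℝ} (hf : ∀ q, Sm (f q))
    (hg : ∀ q, Te (g q)) :
    ∑ p, ∫ z, f p z * Rx e g p z = ∑ p, ∫ z, Rx (HY.adj e) f p z * g p z := by
  have key : ∀ p q, ∫ z, f p z * (∑ l, e.b l z.1 p q * HY.dx l (g q) z + e.c z.1 p q * g q z)
      = ∫ z, (∑ l, (HY.adj e).b l z.1 q p * HY.dx l (f p) z + (HY.adj e).c z.1 q p * f p z)
        * g q z := by
    intro p q
    have := ibp1 (e := fun l : Fin n => ((Pi.single l 1, 0) : VV n))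
      (β := fun l z => e.b l z.1 p q) (fun l => h.b1 l p q) (γ := fun z => e.c z.1 p q)
      (h.c1 p q) (hf p) (hg q)
    refine Eq.trans this ?_
    congr 1
    ext z
    have e1 : ∀ l, fderiv ℝ (fun z : VV n => e.b l z.1 p q) z (Pi.single l 1, 0)
        = pd l (fun y => e.b l y p q) z.1 := fun l =>
      dx_fst (F := fun y => e.b l y p q) ((h.b l p q).differentiable (by simp) _) l
    simp only [e1]
    rfl
  have t1 : ∀ p q, Te (fun z => ∑ l, e.b l z.1 p q * HY.dx l (g q) z + e.c z.1 p q * g q z) :=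
    fun p q => (Te.sum fun l _ => Te.mul (h.b1 l p q) ((hg q).dx l)).add (Te.mul (h.c1 p q) (hg q))
  have i1 : ∀ p q, Integrable (fun z => f p z *
      (∑ l, e.b l z.1 p q * HY.dx l (g q) z + e.c z.1 p q * g q z)) :=
    fun p q => Te.int_mul (hf p) (t1 p q)
  have i2 : ∀ p q, Integrable (fun z => (∑ l, (HY.adj e).b l z.1 q p * HY.dx l (f p) z
      + (HY.adj e).c z.1 q p * f p z) * g q z) :=
    fun p q => Te.int_mul ((Sm.sum fun l _ => (h.adj.b1 l q p).mul ((hf p).dx l)).add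
      ((h.adj.c1 q p).mul (hf p))) (hg q)
  calc ∑ p, ∫ z, f p z * Rx e g p z
      = ∑ p, ∑ q, ∫ z, f p z * (∑ l, e.b l z.1 p q * HY.dx l (g q) z + e.c z.1 p q * g q z) := by
        refine Finset.sum_congr rfl fun p _ => ?_
        rw [← integral_finsetSum _ fun q _ => i1 p q]
        congr 1
        ext z
        unfold Rx
        rw [Finset.mul_sum]
    _ = ∑ q, ∑ p, ∫ z, (∑ l, (HY.adj e).b l z.1 q p * HY.dx l (f p) z
        + (HY.adj e).c z.1 q p * f p z) * g q z := by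
        simp only [key]
        exact Finset.sum_comm
    _ = _ := by
        refine Finset.sum_congr rfl fun q _ => ?_
        rw [← integral_finsetSum _ fun p _ => i2 p q]
        congr 1
        ext z
        unfold Rx
        rw [Finset.sum_mul]

lemma Ry_adj {e : Co n m} (h : CoSm e) {f g : Fin m → VV n → ℝ} (hf : ∀ q, Sm (f q))
    (hg : ∀ q, Te (g q)) :
    ∑ p, ∫ z, f p z * Ry e g p z = ∑ p, ∫ z, Ry (HY.adj e) f p z * g p z := by
  have key : ∀ p q, ∫ z, f p z * (∑ l, e.b l z.2 p q * HY.dy l (g q) z + e.c z.2 p q * g q z)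
      = ∫ z, (∑ l, (HY.adj e).b l z.2 q p * HY.dy l (f p) z + (HY.adj e).c z.2 q p * f p z)
        * g q z := by
    intro p q
    have := ibp1 (e := fun l : Fin n => ((0, Pi.single l 1) : VV n))
      (β := fun l z => e.b l z.2 p q) (fun l => h.b2 l p q) (γ := fun z => e.c z.2 p q)
      (h.c2 p q) (hf p) (hg q)
    refine Eq.trans this ?_
    congr 1
    ext z
    have e1 : ∀ l, fderiv ℝ (fun z : VV n => e.b l z.2 p q) z (0, Pi.single l 1)
        = pd l (fun y => e.b l y p q) z.2 := fun l =>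
      dy_snd (F := fun y => e.b l y p q) ((h.b l p q).differentiable (by simp) _) l
    simp only [e1]
    rfl
  have t1 : ∀ p q, Te (fun z => ∑ l, e.b l z.2 p q * HY.dy l (g q) z + e.c z.2 p q * g q z) :=
    fun p q => (Te.sum fun l _ => Te.mul (h.b2 l p q) ((hg q).dy l)).add (Te.mul (h.c2 p q) (hg q))
  have i1 : ∀ p q, Integrable (fun z => f p z *
      (∑ l, e.b l z.2 p q * HY.dy l (g q) z + e.c z.2 p q * g q z)) :=
    fun p q => Te.int_mul (hf p) (t1 p q)
  have i2 : ∀ p q, Integrable (fun z => (∑ l, (HY.adj e).b l z.2 q p * HY.dy l (f p) z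
      + (HY.adj e).c z.2 q p * f p z) * g q z) :=
    fun p q => Te.int_mul ((Sm.sum fun l _ => (h.adj.b2 l q p).mul ((hf p).dy l)).add
      ((h.adj.c2 q p).mul (hf p))) (hg q)
  calc ∑ p, ∫ z, f p z * Ry e g p z
      = ∑ p, ∑ q, ∫ z, f p z * (∑ l, e.b l z.2 p q * HY.dy l (g q) z + e.c z.2 p q * g q z) := by
        refine Finset.sum_congr rfl fun p _ => ?_
        rw [← integral_finsetSum _ fun q _ => i1 p q]
        congr 1
        ext z
        unfold Ry
        rw [Finset.mul_sum]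
    _ = ∑ q, ∑ p, ∫ z, (∑ l, (HY.adj e).b l z.2 q p * HY.dy l (f p) z
        + (HY.adj e).c z.2 q p * f p z) * g q z := by
        simp only [key]
        exact Finset.sum_comm
    _ = _ := by
        refine Finset.sum_congr rfl fun q _ => ?_
        rw [← integral_finsetSum _ fun p _ => i2 p q]
        congr 1
        ext z
        unfold Ry
        rw [Finset.sum_mul]

lemma LxG_adj {s : MF n} (hs : Ok s) {e : Co n m} (h : CoSm e) {f g : Fin m → VV n → ℝ}
    (hf : ∀ q, Sm (f q)) (hg : ∀ q, Te (g q)) :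
    ∑ p, ∫ z, f p z * LxG s e g p z = ∑ p, ∫ z, LxG s (HY.adj e) f p z * g p z := by
  have a : ∀ p, ∫ z, f p z * LxG s e g p z
      = (∫ z, f p z * Lx s (g p) z) + ∫ z, f p z * Rx e g p z := by
    intro p
    rw [← integral_add (Te.int_mul (hf p) (Te.Lx hs.sm (hg p))) (Te.int_mul (hf p) (Te.Rx h hg p))]
    congr 1
    ext z
    rw [LxG_eq]
    ring
  have b : ∀ p, ∫ z, LxG s (HY.adj e) f p z * g p z
      = (∫ z, Lx s (f p) z * g p z) + ∫ z, Rx (HY.adj e) f p z * g p z := by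
    intro p
    rw [← integral_add (Te.int_mul (Sm.Lx hs.sm (hf p)) (hg p))
      (Te.int_mul (Sm.Rx h.adj hf p) (hg p))]
    congr 1
    ext z
    rw [LxG_eq]
    ring
  simp only [a, b, Finset.sum_add_distrib, Rx_adj h hf hg]
  congr 1
  exact Finset.sum_congr rfl fun p _ => Lx_symm hs.sm hs.sy hs.dv (hf p) (hg p)

lemma LyG_adj {s : MF n} (hs : Ok s) {e : Co n m} (h : CoSm e) {f g : Fin m → VV n → ℝ}
    (hf : ∀ q, Sm (f q)) (hg : ∀ q, Te (g q)) :
    ∑ p, ∫ z, f p z * LyG s e g p z = ∑ p, ∫ z, LyG s (HY.adj e) f p z * g p z := by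
  have a : ∀ p, ∫ z, f p z * LyG s e g p z
      = (∫ z, f p z * Ly s (g p) z) + ∫ z, f p z * Ry e g p z := by
    intro p
    rw [← integral_add (Te.int_mul (hf p) (Te.Ly hs.sm (hg p))) (Te.int_mul (hf p) (Te.Ry h hg p))]
    congr 1
    ext z
    rw [LyG_eq]
    ring
  have b : ∀ p, ∫ z, LyG s (HY.adj e) f p z * g p z
      = (∫ z, Ly s (f p) z * g p z) + ∫ z, Ry (HY.adj e) f p z * g p z := by
    intro p
    rw [← integral_add (Te.int_mul (Sm.Ly hs.sm (hf p)) (hg p))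
      (Te.int_mul (Sm.Ry h.adj hf p) (hg p))]
    congr 1
    ext z
    rw [LyG_eq]
    ring
  simp only [a, b, Finset.sum_add_distrib, Ry_adj h hf hg]
  congr 1
  exact Finset.sum_congr rfl fun p _ => Ly_symm hs.sm hs.sy hs.dv (hf p) (hg p)

/-- `r(y)^{-2}` commutes with `LxG` -/
lemma LxG_r2inv (s : MF n) (e : Co n m) {f : Fin m → VV n → ℝ} (hf : ∀ q, Sm (f q)) (p : Fin m)
    {z : VV n} (hz : z ∈ Un n) :
    LxG s e (fun q w => (rr w.2 ^ 2)⁻¹ * f q w) p z = (rr z.2 ^ 2)⁻¹ * LxG s e f p z := by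
  have h0 : ∀ l, ∀ z ∈ Un n, HY.dx l (fun w : VV n => (rr w.2 ^ 2)⁻¹) z = 0 := by
    intro l z hz
    have hd : DifferentiableAt ℝ (fun y : V n => (rr y ^ 2)⁻¹) z.2 := by
      have h1 : DifferentiableAt ℝ (fun y : V n => rr y ^ 2) z.2 :=
        (contDiff_rr.pow 2).differentiable (by simp) _
      exact h1.inv (pow_pos (rr2_pos hz) 2).ne'
    exact dx_snd hd l
  rw [LxG_eq, LxG_eq, Lx_r2inv s (hf p) hz, Rx_c2 e sm_r2inv h0 hf p hz]
  ring

lemma LyG_r1inv (s : MF n) (e : Co n m) {f : Fin m → VV n → ℝ} (hf : ∀ q, Sm (f q)) (p : Fin m)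
    {z : VV n} (hz : z ∈ Un n) :
    LyG s e (fun q w => (rr w.1 ^ 2)⁻¹ * f q w) p z = (rr z.1 ^ 2)⁻¹ * LyG s e f p z := by
  have h0 : ∀ l, ∀ z ∈ Un n, HY.dy l (fun w : VV n => (rr w.1 ^ 2)⁻¹) z = 0 := by
    intro l z hz
    have hd : DifferentiableAt ℝ (fun y : V n => (rr y ^ 2)⁻¹) z.1 := by
      have h1 : DifferentiableAt ℝ (fun y : V n => rr y ^ 2) z.1 :=
        (contDiff_rr.pow 2).differentiable (by simp) _
      exact h1.inv (pow_pos (rr1_pos hz) 2).ne'
    exact dy_fst hd l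
  rw [LyG_eq, LyG_eq, Ly_r1inv s (hf p) hz, Ry_c1 e sm_r1inv h0 hf p hz]
  ring

/-- the adjoint in the first variable -/
theorem adj_xG {s : MF n} (hs : Ok s) {e : Co n m} (h : CoSm e) (σ : ℝ)
    {w a : Fin m → VV n → ℝ} (hw : ∀ q, Sm (w q)) (ha : ∀ q, Te (a q)) :
    ∑ p, ∫ z, th z * (w p z * PXG s e σ a p z)
      = ∑ p, ∫ z, th z * (PXG s (HY.adj e) (-σ) w p z * a p z) := by
  have sW : ∀ q, Sm (fun z => (rr z.2 ^ 2)⁻¹ * (hh (-σ) z * w q z)) :=
    fun q => sm_r2inv.mul ((sm_hh _).mul (hw q))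
  have key := LxG_adj hs h sW (fun q => Te.mul (sm_hh σ) (ha q))
  have l : ∀ p, ∫ z, th z * (w p z * PXG s e σ a p z)
      = ∫ z, ((rr z.2 ^ 2)⁻¹ * (hh (-σ) z * w p z)) * LxG s e (fun q w => hh σ w * a q w) p z := by
    intro p
    refine Te.integral_congr (fun z hz => ?_) fun z hz => ?_
    · have h := th_gg σ hz
      unfold PXG
      calc th z * (w p z * (gg σ z * (rr z.1 ^ 2 * LxG s e (fun q w => hh σ w * a q w) p z)))
          = (th z * (gg σ z * rr z.1 ^ 2)) *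
            (w p z * LxG s e (fun q w => hh σ w * a q w) p z) := by ring
        _ = _ := by rw [h]; ring
    · have h1 : PXG s e σ a p z = 0 := Te.zero_of fun h' => hz ((Te.PXG hs.sm h σ ha p).2.2 h')
      have h2 : LxG s e (fun q w => hh σ w * a q w) p z = 0 :=
        Te.zero_of fun h' => hz ((Te.LxG hs.sm h (fun q => Te.mul (sm_hh σ) (ha q)) p).2.2 h')
      rw [h1, h2]
      ring
  have r : ∀ p, ∫ z, th z * (PXG s (HY.adj e) (-σ) w p z * a p z)
      = ∫ z, LxG s (HY.adj e) (fun q z => (rr z.2 ^ 2)⁻¹ * (hh (-σ) z * w q z)) p z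
        * (hh σ z * a p z) := by
    intro p
    refine Te.integral_congr (fun z hz => ?_) fun z hz => ?_
    · have h := th_gg (-σ) hz
      rw [neg_neg] at h
      rw [LxG_r2inv s (HY.adj e) (fun q => (sm_hh _).mul (hw q)) p hz]
      unfold PXG
      calc th z * (gg (-σ) z * (rr z.1 ^ 2 *
            LxG s (HY.adj e) (fun q w_1 => hh (-σ) w_1 * w q w_1) p z) * a p z)
          = (th z * (gg (-σ) z * rr z.1 ^ 2)) *
            (LxG s (HY.adj e) (fun q w_1 => hh (-σ) w_1 * w q w_1) p z * a p z) := by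
            ring
        _ = _ := by rw [h]; ring
    · have h1 : a p z = 0 := Te.zero_of fun h => hz ((ha p).2.2 h)
      rw [h1]
      ring
  simp only [l, r]
  exact key

/-- the adjoint in the second variable -/
theorem adj_yG {s : MF n} (hs : Ok s) {e : Co n m} (h : CoSm e) (σ : ℝ)
    {w a : Fin m → VV n → ℝ} (hw : ∀ q, Sm (w q)) (ha : ∀ q, Te (a q)) :
    ∑ p, ∫ z, th z * (w p z * PYG s e σ a p z)
      = ∑ p, ∫ z, th z * (PYG s (HY.adj e) (-σ) w p z * a p z) := by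
  have sW : ∀ q, Sm (fun z => (rr z.1 ^ 2)⁻¹ * (hh (-σ) z * w q z)) :=
    fun q => sm_r1inv.mul ((sm_hh _).mul (hw q))
  have key := LyG_adj hs h sW (fun q => Te.mul (sm_hh σ) (ha q))
  have l : ∀ p, ∫ z, th z * (w p z * PYG s e σ a p z)
      = ∫ z, ((rr z.1 ^ 2)⁻¹ * (hh (-σ) z * w p z)) * LyG s e (fun q w => hh σ w * a q w) p z := by
    intro p
    refine Te.integral_congr (fun z hz => ?_) fun z hz => ?_
    · have h := th_gg' σ hz
      unfold PYG
      calc th z * (w p z * (gg σ z * (rr z.2 ^ 2 * LyG s e (fun q w => hh σ w * a q w) p z)))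
          = (th z * (gg σ z * rr z.2 ^ 2)) *
            (w p z * LyG s e (fun q w => hh σ w * a q w) p z) := by ring
        _ = _ := by rw [h]; ring
    · have h1 : PYG s e σ a p z = 0 := Te.zero_of fun h' => hz ((Te.PYG hs.sm h σ ha p).2.2 h')
      have h2 : LyG s e (fun q w => hh σ w * a q w) p z = 0 :=
        Te.zero_of fun h' => hz ((Te.LyG hs.sm h (fun q => Te.mul (sm_hh σ) (ha q)) p).2.2 h')
      rw [h1, h2]
      ring
  have r : ∀ p, ∫ z, th z * (PYG s (HY.adj e) (-σ) w p z * a p z)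
      = ∫ z, LyG s (HY.adj e) (fun q z => (rr z.1 ^ 2)⁻¹ * (hh (-σ) z * w q z)) p z
        * (hh σ z * a p z) := by
    intro p
    refine Te.integral_congr (fun z hz => ?_) fun z hz => ?_
    · have h := th_gg' (-σ) hz
      rw [neg_neg] at h
      rw [LyG_r1inv s (HY.adj e) (fun q => (sm_hh _).mul (hw q)) p hz]
      unfold PYG
      calc th z * (gg (-σ) z * (rr z.2 ^ 2 *
            LyG s (HY.adj e) (fun q w_1 => hh (-σ) w_1 * w q w_1) p z) * a p z)
          = (th z * (gg (-σ) z * rr z.2 ^ 2)) *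
            (LyG s (HY.adj e) (fun q w_1 => hh (-σ) w_1 * w q w_1) p z * a p z) := by
            ring
        _ = _ := by rw [h]; ring
    · have h1 : a p z = 0 := Te.zero_of fun h => hz ((ha p).2.2 h)
      rw [h1]
      ring
  simp only [l, r]
  exact key

/-! ## Commutation -/

lemma Ly_dx {s : MF n} (hs : SmM s) {f : VV n → ℝ} (hf : Sm f) (l : Fin n) {z : VV n}
    (hz : z ∈ Un n) : Ly s (HY.dx l f) z = HY.dx l (Ly s f) z := by
  have a1 : ∀ k, ∀ w ∈ Un n, HY.dy k (HY.dx l f) w = HY.dx l (HY.dy k f) w :=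
    fun k w hw => (dx_dy hf hw l k).symm
  have e2 : HY.dx l (Ly s f) z = ∑ i, ∑ j, s z.2 i j * HY.dx l (HY.dy i (HY.dy j f)) z := by
    have : HY.dx l (Ly s f) z = HY.dx l (fun z => ∑ i, ∑ j, s z.2 i j * HY.dy i (HY.dy j f) z) z :=
      rfl
    rw [this, dx_sum (fun i _ => Sm.sum fun j _ => (sm_s2 hs i j).mul ((hf.dy j).dy i)) hz]
    refine Finset.sum_congr rfl fun i _ => ?_
    rw [dx_sum (fun j _ => (sm_s2 hs i j).mul ((hf.dy j).dy i)) hz]
    exact Finset.sum_congr rfl fun j _ => dx_c2 (hs i j) ((hf.dy j).dy i) hz l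
  rw [e2]
  unfold Ly
  refine Finset.sum_congr rfl fun i _ => Finset.sum_congr rfl fun j _ => ?_
  rw [dy_congr (a1 j) hz, ← dx_dy (hf.dy j) hz l i]

lemma Lx_dy {s : MF n} (hs : SmM s) {f : VV n → ℝ} (hf : Sm f) (l : Fin n) {z : VV n}
    (hz : z ∈ Un n) : Lx s (HY.dy l f) z = HY.dy l (Lx s f) z := by
  have a1 : ∀ k, ∀ w ∈ Un n, HY.dx k (HY.dy l f) w = HY.dy l (HY.dx k f) w :=
    fun k w hw => dx_dy hf hw k l
  have e2 : HY.dy l (Lx s f) z = ∑ i, ∑ j, s z.1 i j * HY.dy l (HY.dx i (HY.dx j f)) z := by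
    have : HY.dy l (Lx s f) z = HY.dy l (fun z => ∑ i, ∑ j, s z.1 i j * HY.dx i (HY.dx j f) z) z :=
      rfl
    rw [this, dy_sum (fun i _ => Sm.sum fun j _ => (sm_s1 hs i j).mul ((hf.dx j).dx i)) hz]
    refine Finset.sum_congr rfl fun i _ => ?_
    rw [dy_sum (fun j _ => (sm_s1 hs i j).mul ((hf.dx j).dx i)) hz]
    exact Finset.sum_congr rfl fun j _ => dy_c1 (hs i j) ((hf.dx j).dx i) hz l
  rw [e2]
  unfold Lx
  refine Finset.sum_congr rfl fun i _ => Finset.sum_congr rfl fun j _ => ?_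
  rw [dx_congr (a1 j) hz, dx_dy (hf.dx j) hz i l]

lemma Ly_sum (s : MF n) {ι : Type*} {t : Finset ι} {g : ι → VV n → ℝ} (hg : ∀ a ∈ t, Sm (g a))
    {z : VV n} (hz : z ∈ Un n) : Ly s (fun z => ∑ a ∈ t, g a z) z = ∑ a ∈ t, Ly s (g a) z := by
  classical
  induction t using Finset.induction_on with
  | empty =>
    simp only [Finset.sum_empty]
    unfold Ly HY.dy
    simp
  | insert a t ha ih =>
    simp only [Finset.sum_insert ha]
    rw [Ly_add s (hg a (Finset.mem_insert_self a t))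
      (Sm.sum fun i hi => hg i (Finset.mem_insert_of_mem hi)) hz,
      ih fun i hi => hg i (Finset.mem_insert_of_mem hi)]

lemma Lx_sum (s : MF n) {ι : Type*} {t : Finset ι} {g : ι → VV n → ℝ} (hg : ∀ a ∈ t, Sm (g a))
    {z : VV n} (hz : z ∈ Un n) : Lx s (fun z => ∑ a ∈ t, g a z) z = ∑ a ∈ t, Lx s (g a) z := by
  classical
  induction t using Finset.induction_on with
  | empty =>
    simp only [Finset.sum_empty]
    unfold Lx HY.dx
    simp
  | insert a t ha ih =>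
    simp only [Finset.sum_insert ha]
    rw [Lx_add s (hg a (Finset.mem_insert_self a t))
      (Sm.sum fun i hi => hg i (Finset.mem_insert_of_mem hi)) hz,
      ih fun i hi => hg i (Finset.mem_insert_of_mem hi)]

/-- `Ly` commutes with `Rx` -/
lemma Ly_Rx {s : MF n} (hs : SmM s) {e : Co n m} (h : CoSm e) {f : Fin m → VV n → ℝ}
    (hf : ∀ q, Sm (f q)) (p : Fin m) {z : VV n} (hz : z ∈ Un n) :
    Ly s (Rx e f p) z = Rx e (fun q => Ly s (f q)) p z := by
  have e1 : Rx e f p = fun z => ∑ q, (∑ l, e.b l z.1 p q * HY.dx l (f q) z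
    + e.c z.1 p q * f q z) := rfl
  rw [e1, Ly_sum s (fun q _ => (Sm.sum fun l _ => (h.b1 l p q).mul ((hf q).dx l)).add
    ((h.c1 p q).mul (hf q))) hz]
  unfold Rx
  refine Finset.sum_congr rfl fun q _ => ?_
  rw [Ly_add s (Sm.sum fun l _ => (h.b1 l p q).mul ((hf q).dx l)) ((h.c1 p q).mul (hf q)) hz,
    Ly_sum s (fun l _ => (h.b1 l p q).mul ((hf q).dx l)) hz,
    Ly_c1 s (h.c p q) (hf q) hz]
  congr 1
  refine Finset.sum_congr rfl fun l _ => ?_
  rw [Ly_c1 s (h.b l p q) ((hf q).dx l) hz, Ly_dx hs (hf q) l hz]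

/-- `Lx` commutes with `Ry` -/
lemma Lx_Ry {s : MF n} (hs : SmM s) {e : Co n m} (h : CoSm e) {f : Fin m → VV n → ℝ}
    (hf : ∀ q, Sm (f q)) (p : Fin m) {z : VV n} (hz : z ∈ Un n) :
    Lx s (Ry e f p) z = Ry e (fun q => Lx s (f q)) p z := by
  have e1 : Ry e f p = fun z => ∑ q, (∑ l, e.b l z.2 p q * HY.dy l (f q) z
    + e.c z.2 p q * f q z) := rfl
  rw [e1, Lx_sum s (fun q _ => (Sm.sum fun l _ => (h.b2 l p q).mul ((hf q).dy l)).add
    ((h.c2 p q).mul (hf q))) hz]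
  unfold Ry
  refine Finset.sum_congr rfl fun q _ => ?_
  rw [Lx_add s (Sm.sum fun l _ => (h.b2 l p q).mul ((hf q).dy l)) ((h.c2 p q).mul (hf q)) hz,
    Lx_sum s (fun l _ => (h.b2 l p q).mul ((hf q).dy l)) hz,
    Lx_c2 s (h.c p q) (hf q) hz]
  congr 1
  refine Finset.sum_congr rfl fun l _ => ?_
  rw [Lx_c2 s (h.b l p q) ((hf q).dy l) hz, Lx_dy hs (hf q) l hz]

lemma dy_Rx {e : Co n m} (h : CoSm e) {f : Fin m → VV n → ℝ} (hf : ∀ q, Sm (f q)) (p : Fin m)
    (k : Fin n) {z : VV n} (hz : z ∈ Un n) :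
    HY.dy k (Rx e f p) z = Rx e (fun q => HY.dy k (f q)) p z := by
  have e1 : Rx e f p = fun z => ∑ q, (∑ l, e.b l z.1 p q * HY.dx l (f q) z
    + e.c z.1 p q * f q z) := rfl
  rw [e1, dy_sum (fun q _ => (Sm.sum fun l _ => (h.b1 l p q).mul ((hf q).dx l)).add
    ((h.c1 p q).mul (hf q))) hz]
  unfold Rx
  refine Finset.sum_congr rfl fun q _ => ?_
  rw [dy_add (Sm.sum fun l _ => (h.b1 l p q).mul ((hf q).dx l)) ((h.c1 p q).mul (hf q)) hz,
    dy_sum (fun l _ => (h.b1 l p q).mul ((hf q).dx l)) hz,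
    dy_c1 (h.c p q) (hf q) hz]
  congr 1
  refine Finset.sum_congr rfl fun l _ => ?_
  rw [dy_c1 (h.b l p q) ((hf q).dx l) hz, dx_dy (hf q) hz l k]

lemma dx_Ry {e : Co n m} (h : CoSm e) {f : Fin m → VV n → ℝ} (hf : ∀ q, Sm (f q)) (p : Fin m)
    (k : Fin n) {z : VV n} (hz : z ∈ Un n) :
    HY.dx k (Ry e f p) z = Ry e (fun q => HY.dx k (f q)) p z := by
  have e1 : Ry e f p = fun z => ∑ q, (∑ l, e.b l z.2 p q * HY.dy l (f q) z
    + e.c z.2 p q * f q z) := rfl
  rw [e1, dx_sum (fun q _ => (Sm.sum fun l _ => (h.b2 l p q).mul ((hf q).dy l)).add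
    ((h.c2 p q).mul (hf q))) hz]
  unfold Ry
  refine Finset.sum_congr rfl fun q _ => ?_
  rw [dx_add (Sm.sum fun l _ => (h.b2 l p q).mul ((hf q).dy l)) ((h.c2 p q).mul (hf q)) hz,
    dx_sum (fun l _ => (h.b2 l p q).mul ((hf q).dy l)) hz,
    dx_c2 (h.c p q) (hf q) hz]
  congr 1
  refine Finset.sum_congr rfl fun l _ => ?_
  rw [dx_c2 (h.b l p q) ((hf q).dy l) hz, ← dx_dy (hf q) hz k l]

end Vale.Agent.P088.R2.H820
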