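import Vale.Agent.P088.R2.H820.J2

/-!
# P088, row SOLG: the two operators commute; weak solutions
-/

open MeasureTheory Set Filter
open scoped ContDiff Matrix Topology RealInnerProductSpace

noncomputable section

namespace Vale.Agent.P088.R2.H820

open Vale.Agent.P088.LR Vale.Agent.P088.HY

variable {n m : ℕ}

lemma Ry_Rx_expand {e₁ e₂ : Co n m} (h₁ : CoSm e₁) {f : Fin m → VV n → ℝ} (hf : ∀ q, Sm (f q))
    (p : Fin m) {z : VV n} (hz : z ∈ Un n) :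
    Ry e₂ (Rx e₁ f) p z = ∑ r, ((∑ k, ∑ l, (e₂.b k z.2 * e₁.b l z.1) p r * HY.dy k (HY.dx l (f r)) z)
      + (∑ k, (e₂.b k z.2 * e₁.c z.1) p r * HY.dy k (f r) z)
      + (∑ l, (e₂.c z.2 * e₁.b l z.1) p r * HY.dx l (f r) z)
      + (e₂.c z.2 * e₁.c z.1) p r * f r z) := by
  have a : ∀ k q, HY.dy k (Rx e₁ f q) z = ∑ r, (∑ l, e₁.b l z.1 q r * HY.dy k (HY.dx l (f r)) z
      + e₁.c z.1 q r * HY.dy k (f r) z) := by
    intro k q
    rw [dy_Rx h₁ hf q k hz]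
    unfold Rx
    refine Finset.sum_congr rfl fun r _ => ?_
    congr 1
    exact Finset.sum_congr rfl fun l _ => by rw [dx_dy (hf r) hz l k]
  have b : ∀ q, Rx e₁ f q z = ∑ r, (∑ l, e₁.b l z.1 q r * HY.dx l (f r) z
      + e₁.c z.1 q r * f r z) := fun q => rfl
  unfold Ry
  simp only [a, b, Matrix.mul_apply]
  simp only [Finset.mul_sum, Finset.sum_mul, mul_add, Finset.sum_add_distrib]
  have s1 : ∑ q, ∑ k, ∑ r, ∑ l, e₂.b k z.2 p q * (e₁.b l z.1 q r * HY.dy k (HY.dx l (f r)) z)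
      = ∑ r, ∑ k, ∑ l, ∑ q, e₂.b k z.2 p q * e₁.b l z.1 q r * HY.dy k (HY.dx l (f r)) z := by
    rw [Finset.sum_congr rfl fun q _ => Finset.sum_comm]
    rw [Finset.sum_comm]
    refine Finset.sum_congr rfl fun r _ => ?_
    rw [Finset.sum_comm]
    refine Finset.sum_congr rfl fun k _ => ?_
    rw [Finset.sum_comm]
    refine Finset.sum_congr rfl fun l _ => Finset.sum_congr rfl fun q _ => ?_
    ring
  have s2 : ∑ q, ∑ k, ∑ r, e₂.b k z.2 p q * (e₁.c z.1 q r * HY.dy k (f r) z)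
      = ∑ r, ∑ k, ∑ q, e₂.b k z.2 p q * e₁.c z.1 q r * HY.dy k (f r) z := by
    rw [Finset.sum_congr rfl fun q _ => Finset.sum_comm]
    rw [Finset.sum_comm]
    refine Finset.sum_congr rfl fun r _ => ?_
    rw [Finset.sum_comm]
    refine Finset.sum_congr rfl fun k _ => Finset.sum_congr rfl fun q _ => ?_
    ring
  have s3 : ∑ q, ∑ r, ∑ l, e₂.c z.2 p q * (e₁.b l z.1 q r * HY.dx l (f r) z)
      = ∑ r, ∑ l, ∑ q, e₂.c z.2 p q * e₁.b l z.1 q r * HY.dx l (f r) z := by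
    rw [Finset.sum_comm]
    refine Finset.sum_congr rfl fun r _ => ?_
    rw [Finset.sum_comm]
    refine Finset.sum_congr rfl fun l _ => Finset.sum_congr rfl fun q _ => ?_
    ring
  have s4 : ∑ q, ∑ r, e₂.c z.2 p q * (e₁.c z.1 q r * f r z)
      = ∑ r, ∑ q, e₂.c z.2 p q * e₁.c z.1 q r * f r z := by
    rw [Finset.sum_comm]
    refine Finset.sum_congr rfl fun r _ => Finset.sum_congr rfl fun q _ => ?_
    ring
  rw [s1, s2, s3, s4]
  ring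

lemma Rx_Ry_expand {e₁ e₂ : Co n m} (h₂ : CoSm e₂) {f : Fin m → VV n → ℝ} (hf : ∀ q, Sm (f q))
    (p : Fin m) {z : VV n} (hz : z ∈ Un n) :
    Rx e₁ (Ry e₂ f) p z = ∑ r, ((∑ k, ∑ l, (e₁.b l z.1 * e₂.b k z.2) p r * HY.dy k (HY.dx l (f r)) z)
      + (∑ k, (e₁.c z.1 * e₂.b k z.2) p r * HY.dy k (f r) z)
      + (∑ l, (e₁.b l z.1 * e₂.c z.2) p r * HY.dx l (f r) z)
      + (e₁.c z.1 * e₂.c z.2) p r * f r z) := by
  have a : ∀ l q, HY.dx l (Ry e₂ f q) z = ∑ r, (∑ k, e₂.b k z.2 q r * HY.dy k (HY.dx l (f r)) z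
      + e₂.c z.2 q r * HY.dx l (f r) z) := by
    intro l q
    rw [dx_Ry h₂ hf q l hz]
    rfl
  have b : ∀ q, Ry e₂ f q z = ∑ r, (∑ k, e₂.b k z.2 q r * HY.dy k (f r) z
      + e₂.c z.2 q r * f r z) := fun q => rfl
  unfold Rx
  simp only [a, b, Matrix.mul_apply]
  simp only [Finset.mul_sum, Finset.sum_mul, mul_add, Finset.sum_add_distrib]
  have s1 : ∑ q, ∑ l, ∑ r, ∑ k, e₁.b l z.1 p q * (e₂.b k z.2 q r * HY.dy k (HY.dx l (f r)) z)
      = ∑ r, ∑ k, ∑ l, ∑ q, e₁.b l z.1 p q * e₂.b k z.2 q r * HY.dy k (HY.dx l (f r)) z := by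
    rw [Finset.sum_congr rfl fun q _ => Finset.sum_comm]
    rw [Finset.sum_comm]
    refine Finset.sum_congr rfl fun r _ => ?_
    rw [Finset.sum_congr rfl fun q _ => Finset.sum_comm]
    rw [Finset.sum_comm]
    refine Finset.sum_congr rfl fun k _ => ?_
    rw [Finset.sum_comm]
    refine Finset.sum_congr rfl fun l _ => Finset.sum_congr rfl fun q _ => ?_
    ring
  have s2 : ∑ q, ∑ l, ∑ r, e₁.b l z.1 p q * (e₂.c z.2 q r * HY.dx l (f r) z)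
      = ∑ r, ∑ l, ∑ q, e₁.b l z.1 p q * e₂.c z.2 q r * HY.dx l (f r) z := by
    rw [Finset.sum_congr rfl fun q _ => Finset.sum_comm]
    rw [Finset.sum_comm]
    refine Finset.sum_congr rfl fun r _ => ?_
    rw [Finset.sum_comm]
    refine Finset.sum_congr rfl fun k _ => Finset.sum_congr rfl fun q _ => ?_
    ring
  have s3 : ∑ q, ∑ r, ∑ k, e₁.c z.1 p q * (e₂.b k z.2 q r * HY.dy k (f r) z)
      = ∑ r, ∑ k, ∑ q, e₁.c z.1 p q * e₂.b k z.2 q r * HY.dy k (f r) z := by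
    rw [Finset.sum_comm]
    refine Finset.sum_congr rfl fun r _ => ?_
    rw [Finset.sum_comm]
    refine Finset.sum_congr rfl fun l _ => Finset.sum_congr rfl fun q _ => ?_
    ring
  have s4 : ∑ q, ∑ r, e₁.c z.1 p q * (e₂.c z.2 q r * f r z)
      = ∑ r, ∑ q, e₁.c z.1 p q * e₂.c z.2 q r * f r z := by
    rw [Finset.sum_comm]
    refine Finset.sum_congr rfl fun r _ => Finset.sum_congr rfl fun q _ => ?_
    ring
  rw [s1, s2, s3, s4]
  ring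

lemma Ry_Rx {e₁ e₂ : Co n m} (h₁ : CoSm e₁) (h₂ : CoSm e₂) (hc : Com e₁ e₂)
    {f : Fin m → VV n → ℝ} (hf : ∀ q, Sm (f q)) (p : Fin m) {z : VV n} (hz : z ∈ Un n) :
    Ry e₂ (Rx e₁ f) p z = Rx e₁ (Ry e₂ f) p z := by
  rw [Ry_Rx_expand h₁ hf p hz, Rx_Ry_expand h₂ hf p hz]
  simp only [hc.bb, hc.bc, hc.cb, hc.cc]

/-- the operators in the two variables commute -/
theorem LyG_LxG {s₁ s₂ : MF n} (k₁ : SmM s₁) (k₂ : SmM s₂) {e₁ e₂ : Co n m} (h₁ : CoSm e₁)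
    (h₂ : CoSm e₂) (hc : Com e₁ e₂) {f : Fin m → VV n → ℝ} (hf : ∀ q, Sm (f q)) (p : Fin m)
    {z : VV n} (hz : z ∈ Un n) :
    LyG s₂ e₂ (LxG s₁ e₁ f) p z = LxG s₁ e₁ (LyG s₂ e₂ f) p z := by
  have a1 : Ly s₂ (LxG s₁ e₁ f p) z = Ly s₂ (Lx s₁ (f p)) z + Ly s₂ (Rx e₁ f p) z :=
    Ly_add s₂ (Sm.Lx k₁ (hf p)) (Sm.Rx h₁ hf p) hz
  have a2 : Ry e₂ (LxG s₁ e₁ f) p z = Ry e₂ (fun q => Lx s₁ (f q)) p z + Ry e₂ (Rx e₁ f) p z :=
    Ry_add e₂ (fun q => Sm.Lx k₁ (hf q)) (fun q => Sm.Rx h₁ hf q) p hz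
  have b1 : Lx s₁ (LyG s₂ e₂ f p) z = Lx s₁ (Ly s₂ (f p)) z + Lx s₁ (Ry e₂ f p) z :=
    Lx_add s₁ (Sm.Ly k₂ (hf p)) (Sm.Ry h₂ hf p) hz
  have b2 : Rx e₁ (LyG s₂ e₂ f) p z = Rx e₁ (fun q => Ly s₂ (f q)) p z + Rx e₁ (Ry e₂ f) p z :=
    Rx_add e₁ (fun q => Sm.Ly k₂ (hf q)) (fun q => Sm.Ry h₂ hf q) p hz
  rw [LyG_eq, LxG_eq, a1, a2, b1, b2, Ly_Lx k₁ k₂ (hf p) hz, Ly_Rx k₂ h₁ hf p hz,
    Lx_Ry k₁ h₂ hf p hz, Ry_Rx h₁ h₂ hc hf p hz]
  ring

theorem PYG_PXG {s₁ s₂ : MF n} (k₁ : SmM s₁) (k₂ : SmM s₂) {e₁ e₂ : Co n m} (h₁ : CoSm e₁)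
    (h₂ : CoSm e₂) (hc : Com e₁ e₂) (τ : ℝ) {f : Fin m → VV n → ℝ} (hf : ∀ q, Sm (f q)) (p : Fin m)
    {z : VV n} (hz : z ∈ Un n) :
    PYG s₂ e₂ τ (PXG s₁ e₁ τ f) p z = PXG s₁ e₁ τ (PYG s₂ e₂ τ f) p z := by
  have sf : ∀ q, Sm (fun w => hh τ w * f q w) := fun q => (sm_hh τ).mul (hf q)
  have a : LyG s₂ e₂ (fun q w => hh τ w * PXG s₁ e₁ τ f q w) p z
      = rr z.1 ^ 2 * LyG s₂ e₂ (LxG s₁ e₁ (fun q w => hh τ w * f q w)) p z := by
    rw [← LyG_c1 s₂ e₂ (c := fun x => rr x ^ 2) (contDiff_rr.pow 2) (fun q => Sm.LxG k₁ h₁ sf q) p hz]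
    refine LyG_congr s₂ e₂ (fun q w hw => ?_) p hz
    have := gg_mul_hh τ hw
    unfold PXG
    calc hh τ w * (gg τ w * (rr w.1 ^ 2 * LxG s₁ e₁ (fun q w => hh τ w * f q w) q w))
        = (gg τ w * hh τ w) * (rr w.1 ^ 2 * LxG s₁ e₁ (fun q w => hh τ w * f q w) q w) := by ring
      _ = _ := by rw [this, one_mul]
  have b : LxG s₁ e₁ (fun q w => hh τ w * PYG s₂ e₂ τ f q w) p z
      = rr z.2 ^ 2 * LxG s₁ e₁ (LyG s₂ e₂ (fun q w => hh τ w * f q w)) p z := by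
    rw [← LxG_c2 s₁ e₁ (c := fun x => rr x ^ 2) (contDiff_rr.pow 2) (fun q => Sm.LyG k₂ h₂ sf q) p hz]
    refine LxG_congr s₁ e₁ (fun q w hw => ?_) p hz
    have := gg_mul_hh τ hw
    unfold PYG
    calc hh τ w * (gg τ w * (rr w.2 ^ 2 * LyG s₂ e₂ (fun q w => hh τ w * f q w) q w))
        = (gg τ w * hh τ w) * (rr w.2 ^ 2 * LyG s₂ e₂ (fun q w => hh τ w * f q w) q w) := by ring
      _ = _ := by rw [this, one_mul]
  have c := LyG_LxG k₁ k₂ h₁ h₂ hc sf p hz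
  change gg τ z * (rr z.2 ^ 2 * LyG s₂ e₂ (fun q w => hh τ w * PXG s₁ e₁ τ f q w) p z)
    = gg τ z * (rr z.1 ^ 2 * LxG s₁ e₁ (fun q w => hh τ w * PYG s₂ e₂ τ f q w) p z)
  rw [a, b, c]
  ring

/-! ## Weak solutions, general -/

/-- linear maps to `L²`, general -/
def mkLg {A : Type*} [AddCommGroup A] [Module ℝ A] (Q : A → VV n → ℝ)
    (hQ : ∀ a, MemLp (Q a) 2 (mu n))
    (hadd : ∀ a b, ∀ z ∈ Un n, Q (a + b) z = Q a z + Q b z)
    (hsmul : ∀ (c : ℝ) a, ∀ z ∈ Un n, Q (c • a) z = c * Q a z) : A →ₗ[ℝ] Lp ℝ 2 (mu n) where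
  toFun a := (hQ a).toLp (Q a)
  map_add' a b := by
    rw [← MemLp.toLp_add]
    refine MemLp.toLp_congr _ _ ?_
    filter_upwards [ae_restrict_mem measurableSet_Un] with z hz
    exact hadd a b z hz
  map_smul' c a := by
    rw [RingHom.id_apply, ← MemLp.toLp_const_smul]
    refine MemLp.toLp_congr _ _ ?_
    filter_upwards [ae_restrict_mem measurableSet_Un] with z hz
    exact hsmul c a z hz

/-- vectors of linear maps -/
def mkV {ι A : Type*} [Fintype ι] [AddCommGroup A] [Module ℝ A]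
    (L : ι → A →ₗ[ℝ] Lp ℝ 2 (mu n)) : A →ₗ[ℝ] PiLp 2 (fun _ : ι => Lp ℝ 2 (mu n)) :=
  (WithLp.linearEquiv 2 ℝ (ι → Lp ℝ 2 (mu n))).symm.toLinearMap.comp (LinearMap.pi L)

lemma mkV_apply {ι A : Type*} [Fintype ι] [AddCommGroup A] [Module ℝ A]
    (L : ι → A →ₗ[ℝ] Lp ℝ 2 (mu n)) (a : A) (i : ι) : mkV L a i = L i a := rfl

/-- the weak solution -/
theorem weak_gen {ι A : Type*} [Fintype ι] [AddCommGroup A] [Module ℝ A]
    (S Q : A → ι → VV n → ℝ) (hS : ∀ a i, Te (S a i)) (hQ : ∀ a i, Te (Q a i))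
    (sadd : ∀ a b i, ∀ z ∈ Un n, S (a + b) i z = S a i z + S b i z)
    (ssm : ∀ (c : ℝ) a i, ∀ z ∈ Un n, S (c • a) i z = c * S a i z)
    (qadd : ∀ a b i, ∀ z ∈ Un n, Q (a + b) i z = Q a i z + Q b i z)
    (qsm : ∀ (c : ℝ) a i, ∀ z ∈ Un n, Q (c • a) i z = c * Q a i z) {B : ℝ} (hB : 0 ≤ B)
    (est : ∀ a, ∑ i, ∫ z in Un n, th z * S a i z ^ 2 ≤ B * ∑ i, ∫ z in Un n, th z * Q a i z ^ 2)
    {G : ι → VV n → ℝ} (hG : ∀ i, Sm (G i))
    (iG : ∀ i, IntegrableOn (fun z => th z * G i z ^ 2) (Un n)) :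
    ∃ w : ι → VV n → ℝ, (∀ i, AEStronglyMeasurable (w i) volume) ∧
      (∀ i, IntegrableOn (fun z => th z * w i z ^ 2) (Un n)) ∧
      ∑ i, ∫ z in Un n, th z * w i z ^ 2 ≤ B * ∑ i, ∫ z in Un n, th z * G i z ^ 2 ∧
      ∀ a, ∑ i, ∫ z in Un n, th z * (G i z * S a i z)
        = ∑ i, ∫ z in Un n, th z * (w i z * Q a i z) := by
  have tQ : ∀ a i, Te (fun z => sth z * Q a i z) := fun a i => Te.mul sm_sth (hQ a i)
  have tS : ∀ a i, Te (fun z => sth z * S a i z) := fun a i => Te.mul sm_sth (hS a i)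
  set LQ : ι → A →ₗ[ℝ] Lp ℝ 2 (mu n) := fun i => mkLg (fun a z => sth z * Q a i z)
    (fun a => (tQ a i).memLp) (fun a b z hz => by rw [qadd a b i z hz]; ring)
    (fun c a z hz => by rw [qsm c a i z hz]; ring) with hLQ
  set LS : ι → A →ₗ[ℝ] Lp ℝ 2 (mu n) := fun i => mkLg (fun a z => sth z * S a i z)
    (fun a => (tS a i).memLp) (fun a b z hz => by rw [sadd a b i z hz]; ring)
    (fun c a z hz => by rw [ssm c a i z hz]; ring) with hLS
  have mG : ∀ i, MemLp (fun z => sth z * G i z) 2 (mu n) := by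
    intro i
    have c1 : AEStronglyMeasurable (fun z => sth z * G i z) (mu n) :=
      (sm_sth.mul (hG i)).continuousOn.aestronglyMeasurable measurableSet_Un
    rw [memLp_two_iff_integrable_sq c1]
    refine (iG i).congr ?_
    filter_upwards [ae_restrict_mem measurableSet_Un] with z hz
    rw [mul_pow, sth_sq hz]
  set GG : PiLp 2 (fun _ : ι => Lp ℝ 2 (mu n)) := WithLp.toLp 2 (fun i => (mG i).toLp _) with hGG
  have gi : ∀ i, GG i = (mG i).toLp _ := fun i => rfl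
  have sqc : ∀ f : VV n → ℝ, ∫ z in Un n, (sth z * f z) ^ 2 = ∫ z in Un n, th z * f z ^ 2 := by
    intro f
    refine setIntegral_congr_fun measurableSet_Un fun z hz => ?_
    rw [mul_pow, sth_sq hz]
  have nG : ‖GG‖ ^ 2 = ∑ i, ∫ z in Un n, th z * G i z ^ 2 := by
    rw [PiLp.norm_sq_eq_of_L2]
    refine Finset.sum_congr rfl fun i _ => ?_
    rw [gi, L2sq, sqc]
  have bound : ∀ a : A, ‖mkV LS a‖ ^ 2 ≤ B * ‖mkV LQ a‖ ^ 2 := by
    intro a
    have e1 : ‖mkV LS a‖ ^ 2 = ∑ i, ∫ z in Un n, th z * S a i z ^ 2 := by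
      rw [PiLp.norm_sq_eq_of_L2]
      refine Finset.sum_congr rfl fun i _ => ?_
      have : ‖mkV LS a i‖ ^ 2 = _ := L2sq (tS a i).memLp
      rw [this, sqc]
    have e2 : ‖mkV LQ a‖ ^ 2 = ∑ i, ∫ z in Un n, th z * Q a i z ^ 2 := by
      rw [PiLp.norm_sq_eq_of_L2]
      refine Finset.sum_congr rfl fun i _ => ?_
      have : ‖mkV LQ a i‖ ^ 2 = _ := L2sq (tQ a i).memLp
      rw [this, sqc]
    rw [e1, e2]
    exact est a
  obtain ⟨W, hW1, hW2⟩ := riesz_pair (mkV LQ) (mkV LS) GG hB bound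
  have key : ∀ h : Lp ℝ 2 (mu n), ∃ w : VV n → ℝ, AEStronglyMeasurable w volume ∧
      (∀ z ∈ Un n, w z * sth z = h z) := by
    intro h
    refine ⟨(Un n).indicator fun z => h z / sth z, ?_, fun z hz => ?_⟩
    · rw [aestronglyMeasurable_indicator_iff measurableSet_Un]
      have h1 : AEStronglyMeasurable (fun z => (sth z)⁻¹) (mu n) :=
        ((ContDiffOn.inv sm_sth fun z hz => (sth_pos hz).ne').continuousOn).aestronglyMeasurable
          measurableSet_Un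
      have h2 := (Lp.aestronglyMeasurable h).mul h1
      refine h2.congr (Eventually.of_forall fun z => ?_)
      simp [div_eq_mul_inv]
    · rw [indicator_of_mem hz]
      exact div_mul_cancel₀ _ (sth_pos hz).ne'
  choose w hw1 hw2 using fun i => key (W i)
  have sqw : ∀ i, ∀ z ∈ Un n, th z * w i z ^ 2 = W i z ^ 2 := by
    intro i z hz
    rw [← hw2 i z hz, mul_pow, sth_sq hz]
    ring
  refine ⟨w, hw1, fun i => (L2int (W i)).congr_fun (fun z hz => (sqw i z hz).symm) measurableSet_Un,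
    ?_, fun a => ?_⟩
  · rw [← nG]
    have e1 : ∑ i, ∫ z in Un n, th z * w i z ^ 2 = ‖W‖ ^ 2 := by
      rw [PiLp.norm_sq_eq_of_L2]
      refine Finset.sum_congr rfl fun i _ => ?_
      rw [setIntegral_congr_fun measurableSet_Un (sqw i), ← L2nn]
    rw [e1]
    exact hW1
  · have h := hW2 a
    rw [PiLp.inner_apply, PiLp.inner_apply] at h
    have e1 : ∀ i, ⟪GG i, mkV LS a i⟫ = ∫ z in Un n, th z * (G i z * S a i z) := by
      intro i
      have e2 : ⟪GG i, mkV LS a i⟫ = ∫ z in Un n, (mG i).toLp _ z * (sth z * S a i z) :=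
        L2in _ (tS a i).memLp
      rw [e2]
      refine integral_congr_ae ?_
      filter_upwards [ae_restrict_mem measurableSet_Un, (mG i).coeFn_toLp] with z hz h1
      rw [h1, ← sth_sq hz]
      ring
    have e3 : ∀ i, ⟪W i, mkV LQ a i⟫ = ∫ z in Un n, th z * (w i z * Q a i z) := by
      intro i
      have e2 : ⟪W i, mkV LQ a i⟫ = ∫ z in Un n, W i z * (sth z * Q a i z) :=
        L2in _ (tQ a i).memLp
      rw [e2]
      refine integral_congr_ae ?_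
      filter_upwards [ae_restrict_mem measurableSet_Un] with z hz
      rw [← hw2 i z hz, ← sth_sq hz]
      ring
    simp only [e1, e3] at h
    exact h

end Vale.Agent.P088.R2.H820
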