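import Vale.Agent.P088.R2.H820.J3

/-!
# P088, row SOLG: regularity of the weak solution
-/

open MeasureTheory Set Filter
open scoped ContDiff Matrix Topology RealInnerProductSpace

noncomputable section

namespace Vale.Agent.P088.R2.H820

open Vale.Agent.P088.LR Vale.Agent.P088.HY

variable {n m : ℕ}

/-- (HYP) on the set of pairs, any finite index type -/
theorem hyp_gen (hyp : RowHYP) {ι : Type} [Fintype ι] [DecidableEq ι]
    {c : ι → ι → Fin n ⊕ Fin n → Fin n ⊕ Fin n → VV n → ℝ}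
    {d : ι → ι → Fin n ⊕ Fin n → VV n → ℝ} {e : ι → ι → VV n → ℝ}
    (sc : ∀ p q i j, Sm (c p q i j)) (sd : ∀ p q i, Sm (d p q i)) (se : ∀ p q, Sm (e p q))
    (ell : ∀ z ∈ Un n, ∀ ξ : Fin n ⊕ Fin n → ℝ, ξ ≠ 0 →
      (Matrix.of fun p q => ∑ i, ∑ j, c p q i j z * ξ i * ξ j).det ≠ 0)
    {w G : ι → VV n → ℝ} (mw : ∀ i, AEStronglyMeasurable (w i) volume)
    (iw : ∀ i, IntegrableOn (fun z => th z * w i z ^ 2) (Un n)) (hG : ∀ i, Sm (G i))
    (weak : ∀ φ : ι → VV n → ℝ, (∀ i, Te (φ i)) →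
      ∫ z, ∑ q, w q z * ∑ p, op2 (bb n) (c p q) (d p q) (e p q) (φ p) z
        = ∫ z, ∑ p, G p z * φ p z) :
    ∃ w' : ι → VV n → ℝ, (∀ i, Sm (w' i)) ∧ ∀ i, ∀ᵐ z, z ∈ Un n → w' i z = w i z := by
  have loc : ∀ f : VV n → ℝ, IntegrableOn (fun z => th z * f z ^ 2) (Un n) →
      ∀ k : Set (VV n), IsCompact k → k ⊆ Un n → IntegrableOn (fun z => f z ^ 2) k := by
    intro f hi k hk hkU
    have h1 : IntegrableOn (fun z => th z * f z ^ 2) k := hi.mono_set hkU
    have h2 : ContinuousOn (fun z : VV n => (th z)⁻¹) k :=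
      (ContDiffOn.inv sm_th fun z hz => (th_pos hz).ne').continuousOn.mono hkU
    have h3 := h1.continuousOn_mul h2 hk
    refine h3.congr_fun (fun z hz => ?_) hk.measurableSet
    exact inv_mul_cancel_left₀ (th_pos (hkU hz)).ne' _
  set E := Fintype.equivFin ι with hE
  obtain ⟨W, hW1, hW2⟩ := hyp (Fin n ⊕ Fin n) (VV n) volume (bb n) (Fintype.card ι) (Un n) isOpen_Un
    (fun p q => c (E.symm p) (E.symm q)) (fun p q => d (E.symm p) (E.symm q))
    (fun p q => e (E.symm p) (E.symm q)) (fun p q i j => sc _ _ i j) (fun p q i => sd _ _ i)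
    (fun p q => se _ _) (fun z hz ξ hξ => by
      have h := ell z hz ξ hξ
      have e1 : (Matrix.of fun p q : Fin (Fintype.card ι) =>
          ∑ i, ∑ j, c (E.symm p) (E.symm q) i j z * ξ i * ξ j)
          = (Matrix.of fun p q => ∑ i, ∑ j, c p q i j z * ξ i * ξ j).submatrix E.symm E.symm := rfl
      rw [e1, Matrix.det_submatrix_equiv_self]
      exact h)
    (fun q => w (E.symm q)) (fun q => G (E.symm q)) (fun q => mw _)
    (fun q => loc _ (iw _)) (fun q => hG _) (fun φ hφ => by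
      have h := weak (fun i => φ (E i)) fun i => hφ (E i)
      have e1 : ∀ z, ∑ q, w q z * ∑ p, op2 (bb n) (c p q) (d p q) (e p q) (φ (E p)) z
          = ∑ q, w (E.symm q) z * ∑ p, op2 (bb n) (c (E.symm p) (E.symm q))
            (d (E.symm p) (E.symm q)) (e (E.symm p) (E.symm q)) (φ p) z := by
        intro z
        rw [← Equiv.sum_comp E]
        refine Finset.sum_congr rfl fun q _ => ?_
        rw [← Equiv.sum_comp E]
        simp only [Equiv.symm_apply_apply]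
      have e2 : ∀ z, ∑ p, G p z * φ (E p) z = ∑ p, G (E.symm p) z * φ p z := by
        intro z
        rw [← Equiv.sum_comp E]
        simp only [Equiv.symm_apply_apply]
      simp only [e1, e2] at h
      exact h)
  refine ⟨fun i => W (E i), fun i => hW1 (E i), fun i => ?_⟩
  have := hW2 (E i)
  simpa only [Equiv.symm_apply_apply] using this

/-! ## Coefficients -/

/-- first order coefficients of the lower order part in `x` -/
def bX (e : Co n m) (p q : Fin m) : Fin n ⊕ Fin n → VV n → ℝ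
  | .inl l => fun z => th z * (rr z.1 ^ 2 * e.b l z.1 p q)
  | .inr _ => fun _ => 0

/-- zeroth order coefficient of the lower order part in `x` -/
def gX (e : Co n m) (σ : ℝ) (p q : Fin m) (z : VV n) : ℝ :=
  th z * (∑ l, rr z.1 * e.b l z.1 p q * (σ * al l z + ga n * z.1 l) + rr z.1 ^ 2 * e.c z.1 p q)

/-- first order coefficients of the lower order part in `y` -/
def bY (e : Co n m) (p q : Fin m) : Fin n ⊕ Fin n → VV n → ℝ
  | .inr l => fun z => th z * (rr z.2 ^ 2 * e.b l z.2 p q)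
  | .inl _ => fun _ => 0

/-- zeroth order coefficient of the lower order part in `y` -/
def gY (e : Co n m) (σ : ℝ) (p q : Fin m) (z : VV n) : ℝ :=
  th z * (∑ l, rr z.2 * e.b l z.2 p q * (σ * be l z + ga n * z.2 l) + rr z.2 ^ 2 * e.c z.2 p q)

/-- second order coefficients of `θ PXG` -/
def cXG (s : MF n) (p q : Fin m) (i j : Fin n ⊕ Fin n) (z : VV n) : ℝ :=
  (if p = q then 1 else 0) * cX s i j z

/-- second order coefficients of `θ PYG` -/
def cYG (s : MF n) (p q : Fin m) (i j : Fin n ⊕ Fin n) (z : VV n) : ℝ :=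
  (if p = q then 1 else 0) * cY s i j z

/-- first order coefficients of `θ PXG` -/
def dXG (s : MF n) (e : Co n m) (σ : ℝ) (p q : Fin m) (i : Fin n ⊕ Fin n) (z : VV n) : ℝ :=
  (if p = q then 1 else 0) * dX s σ i z + bX e p q i z

/-- first order coefficients of `θ PYG` -/
def dYG (s : MF n) (e : Co n m) (σ : ℝ) (p q : Fin m) (i : Fin n ⊕ Fin n) (z : VV n) : ℝ :=
  (if p = q then 1 else 0) * dY s σ i z + bY e p q i z

/-- zeroth order coefficients of `θ PXG` -/
def eXG (s : MF n) (e : Co n m) (σ : ℝ) (p q : Fin m) (z : VV n) : ℝ :=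
  (if p = q then 1 else 0) * eX s σ z + gX e σ p q z

/-- zeroth order coefficients of `θ PYG` -/
def eYG (s : MF n) (e : Co n m) (σ : ℝ) (p q : Fin m) (z : VV n) : ℝ :=
  (if p = q then 1 else 0) * eY s σ z + gY e σ p q z

lemma sm_bX {e : Co n m} (h : CoSm e) (p q : Fin m) (i : Fin n ⊕ Fin n) : Sm (bX e p q i) := by
  rcases i with i | i
  · exact sm_th.mul ((sm_r1.pow 2).mul (h.b1 i p q))
  · exact sm_const 0

lemma sm_bY {e : Co n m} (h : CoSm e) (p q : Fin m) (i : Fin n ⊕ Fin n) : Sm (bY e p q i) := by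
  rcases i with i | i
  · exact sm_const 0
  · exact sm_th.mul ((sm_r2.pow 2).mul (h.b2 i p q))

lemma sm_gX {e : Co n m} (h : CoSm e) (σ : ℝ) (p q : Fin m) : Sm (gX e σ p q) :=
  sm_th.mul ((Sm.sum fun l _ => (sm_r1.mul (h.b1 l p q)).mul (((sm_const σ).mul (sm_al l)).add
    ((sm_const _).mul (sm_x l)))).add ((sm_r1.pow 2).mul (h.c1 p q)))

lemma sm_gY {e : Co n m} (h : CoSm e) (σ : ℝ) (p q : Fin m) : Sm (gY e σ p q) :=
  sm_th.mul ((Sm.sum fun l _ => (sm_r2.mul (h.b2 l p q)).mul (((sm_const σ).mul (sm_be l)).add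
    ((sm_const _).mul (sm_y l)))).add ((sm_r2.pow 2).mul (h.c2 p q)))

lemma sm_cXG {s : MF n} (hs : SmM s) (p q : Fin m) (i j : Fin n ⊕ Fin n) : Sm (cXG s p q i j) :=
  (sm_const _).mul (sm_cX hs i j)

lemma sm_cYG {s : MF n} (hs : SmM s) (p q : Fin m) (i j : Fin n ⊕ Fin n) : Sm (cYG s p q i j) :=
  (sm_const _).mul (sm_cY hs i j)

lemma sm_dXG {s : MF n} (hs : SmM s) {e : Co n m} (h : CoSm e) (σ : ℝ) (p q : Fin m)
    (i : Fin n ⊕ Fin n) : Sm (dXG s e σ p q i) :=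
  ((sm_const _).mul (sm_dX hs σ i)).add (sm_bX h p q i)

lemma sm_dYG {s : MF n} (hs : SmM s) {e : Co n m} (h : CoSm e) (σ : ℝ) (p q : Fin m)
    (i : Fin n ⊕ Fin n) : Sm (dYG s e σ p q i) :=
  ((sm_const _).mul (sm_dY hs σ i)).add (sm_bY h p q i)

lemma sm_eXG {s : MF n} (hs : SmM s) {e : Co n m} (h : CoSm e) (σ : ℝ) (p q : Fin m) :
    Sm (eXG s e σ p q) := ((sm_const _).mul (sm_eX hs σ)).add (sm_gX h σ p q)

lemma sm_eYG {s : MF n} (hs : SmM s) {e : Co n m} (h : CoSm e) (σ : ℝ) (p q : Fin m) :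
    Sm (eYG s e σ p q) := ((sm_const _).mul (sm_eY hs σ)).add (sm_gY h σ p q)

/-- expansion of `θ PXG` -/
lemma op2_XG {s : MF n} (hs : Ok s) {e : Co n m} (h : CoSm e) (σ : ℝ) {f : Fin m → VV n → ℝ}
    (hf : ∀ q, Te (f q)) (p : Fin m) (z : VV n) :
    ∑ q, op2 (bb n) (cXG s p q) (dXG s e σ p q) (eXG s e σ p q) (f q) z
      = th z * PXG s e σ f p z := by
  have a : ∀ q, op2 (bb n) (cXG s p q) (dXG s e σ p q) (eXG s e σ p q) (f q) z
      = (if p = q then 1 else 0) * op2 (bb n) (cX s) (dX s σ) (eX s σ) (f q) z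
        + (∑ l, th z * (rr z.1 ^ 2 * e.b l z.1 p q) * HY.dx l (f q) z + gX e σ p q z * f q z) := by
    intro q
    have b : ∑ i, bX e p q i z * db (bb n) i (f q) z
        = ∑ l, th z * (rr z.1 ^ 2 * e.b l z.1 p q) * HY.dx l (f q) z := by
      simp only [Fintype.sum_sum_type, db_inl, bX, zero_mul, Finset.sum_const_zero, add_zero]
    rw [← b]
    unfold op2 cXG dXG eXG
    simp only [add_mul, Finset.sum_add_distrib, mul_add, Finset.mul_sum]
    simp only [mul_assoc]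
    ring
  simp only [a, Finset.sum_add_distrib]
  have c : ∑ q, (if p = q then (1 : ℝ) else 0) * op2 (bb n) (cX s) (dX s σ) (eX s σ) (f q) z
      = th z * PX s σ (f p) z := by
    simp only [op2_X hs σ (hf _) z]
    simp
  rw [c]
  by_cases hz : z ∈ Un n
  · have h1 := Rx_hh e σ (fun q => (hf q).sm) p hz
    have h2 : PXG s e σ f p z = PX s σ (f p) z
        + gg σ z * (rr z.1 ^ 2 * Rx e (fun q w => hh σ w * f q w) p z) := by
      unfold PXG PX
      rw [LxG_eq]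
      ring
    rw [h2, h1, mul_add, Finset.mul_sum, ← Finset.sum_add_distrib]
    congr 1
    refine Finset.sum_congr rfl fun q _ => ?_
    unfold gX Ax
    rw [mul_add (th z), mul_add (th z), add_mul, Finset.mul_sum, Finset.mul_sum, Finset.sum_mul,
      ← add_assoc, ← Finset.sum_add_distrib]
    congr 1
    · refine Finset.sum_congr rfl fun l _ => ?_
      ring
    · ring
  · have h0 : ∀ q, f q z = 0 := fun q => Te.zero_of fun h' => hz ((hf q).2.2 h')
    have h1 : ∀ q l, HY.dx l (f q) z = 0 :=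
      fun q l => Te.zero_of fun h' => hz (((hf q).dx l).2.2 h')
    have h2 : PX s σ (f p) z = 0 := Te.zero_of fun h' => hz ((Te.PX hs.sm σ (hf p)).2.2 h')
    have h3 : PXG s e σ f p z = 0 := Te.zero_of fun h' => hz ((Te.PXG hs.sm h σ hf p).2.2 h')
    rw [h2, h3]
    simp [h0, h1]

/-- expansion of `θ PYG` -/
lemma op2_YG {s : MF n} (hs : Ok s) {e : Co n m} (h : CoSm e) (σ : ℝ) {f : Fin m → VV n → ℝ}
    (hf : ∀ q, Te (f q)) (p : Fin m) (z : VV n) :
    ∑ q, op2 (bb n) (cYG s p q) (dYG s e σ p q) (eYG s e σ p q) (f q) z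
      = th z * PYG s e σ f p z := by
  have a : ∀ q, op2 (bb n) (cYG s p q) (dYG s e σ p q) (eYG s e σ p q) (f q) z
      = (if p = q then 1 else 0) * op2 (bb n) (cY s) (dY s σ) (eY s σ) (f q) z
        + (∑ l, th z * (rr z.2 ^ 2 * e.b l z.2 p q) * HY.dy l (f q) z + gY e σ p q z * f q z) := by
    intro q
    have b : ∑ i, bY e p q i z * db (bb n) i (f q) z
        = ∑ l, th z * (rr z.2 ^ 2 * e.b l z.2 p q) * HY.dy l (f q) z := by
      simp only [Fintype.sum_sum_type, db_inr, bY, zero_mul, Finset.sum_const_zero, zero_add]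
    rw [← b]
    unfold op2 cYG dYG eYG
    simp only [add_mul, Finset.sum_add_distrib, mul_add, Finset.mul_sum]
    simp only [mul_assoc]
    ring
  simp only [a, Finset.sum_add_distrib]
  have c : ∑ q, (if p = q then (1 : ℝ) else 0) * op2 (bb n) (cY s) (dY s σ) (eY s σ) (f q) z
      = th z * PY s σ (f p) z := by
    simp only [op2_Y hs σ (hf _) z]
    simp
  rw [c]
  by_cases hz : z ∈ Un n
  · have h1 := Ry_hh e σ (fun q => (hf q).sm) p hz
    have h2 : PYG s e σ f p z = PY s σ (f p) z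
        + gg σ z * (rr z.2 ^ 2 * Ry e (fun q w => hh σ w * f q w) p z) := by
      unfold PYG PY
      rw [LyG_eq]
      ring
    rw [h2, h1, mul_add, Finset.mul_sum, ← Finset.sum_add_distrib]
    congr 1
    refine Finset.sum_congr rfl fun q _ => ?_
    unfold gY By
    rw [mul_add (th z), mul_add (th z), add_mul, Finset.mul_sum, Finset.mul_sum, Finset.sum_mul,
      ← add_assoc, ← Finset.sum_add_distrib]
    congr 1
    · refine Finset.sum_congr rfl fun l _ => ?_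
      ring
    · ring
  · have h0 : ∀ q, f q z = 0 := fun q => Te.zero_of fun h' => hz ((hf q).2.2 h')
    have h1 : ∀ q l, HY.dy l (f q) z = 0 :=
      fun q l => Te.zero_of fun h' => hz (((hf q).dy l).2.2 h')
    have h2 : PY s σ (f p) z = 0 := Te.zero_of fun h' => hz ((Te.PY hs.sm σ (hf p)).2.2 h')
    have h3 : PYG s e σ f p z = 0 := Te.zero_of fun h' => hz ((Te.PYG hs.sm h σ hf p).2.2 h')
    rw [h2, h3]
    simp [h0, h1]

/-! ## The system -/

/-- the operators of the system applied to a pair of vectors -/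
def QQ (s₁ s₂ : MF n) (e₁ e₂ : Co n m) (τ : ℝ) (a : Fin m ⊕ Fin m → VV n → ℝ) :
    Fin m ⊕ Fin m → VV n → ℝ
  | .inl p => fun z => PXG s₁ (HY.adj e₁) (-τ) (fun q => a (.inl q)) p z
      + PYG s₂ (HY.adj e₂) (-τ) (fun q => a (.inr q)) p z
  | .inr p => fun z => PYG s₂ e₂ τ (fun q => a (.inl q)) p z
      - PXG s₁ e₁ τ (fun q => a (.inr q)) p z

/-- second order coefficients of the system -/
def cS (s₁ s₂ : MF n) : Fin m ⊕ Fin m → Fin m ⊕ Fin m → Fin n ⊕ Fin n → Fin n ⊕ Fin n → VV n → ℝ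
  | .inl p, .inl q => cXG s₁ q p
  | .inr p, .inl q => cYG s₂ q p
  | .inl p, .inr q => cYG s₂ q p
  | .inr p, .inr q => fun i j z => -cXG s₁ q p i j z

/-- first order coefficients of the system -/
def dS (s₁ s₂ : MF n) (e₁ e₂ : Co n m) (τ : ℝ) :
    Fin m ⊕ Fin m → Fin m ⊕ Fin m → Fin n ⊕ Fin n → VV n → ℝ
  | .inl p, .inl q => dXG s₁ (HY.adj e₁) (-τ) q p
  | .inr p, .inl q => dYG s₂ (HY.adj e₂) (-τ) q p
  | .inl p, .inr q => dYG s₂ e₂ τ q p
  | .inr p, .inr q => fun i z => -dXG s₁ e₁ τ q p i z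

/-- zeroth order coefficients of the system -/
def eS (s₁ s₂ : MF n) (e₁ e₂ : Co n m) (τ : ℝ) : Fin m ⊕ Fin m → Fin m ⊕ Fin m → VV n → ℝ
  | .inl p, .inl q => eXG s₁ (HY.adj e₁) (-τ) q p
  | .inr p, .inl q => eYG s₂ (HY.adj e₂) (-τ) q p
  | .inl p, .inr q => eYG s₂ e₂ τ q p
  | .inr p, .inr q => fun z => -eXG s₁ e₁ τ q p z

lemma sum_S {s₁ s₂ : MF n} (h₁ : Ok s₁) (h₂ : Ok s₂) {e₁ e₂ : Co n m} (k₁ : CoSm e₁)
    (k₂ : CoSm e₂) (τ : ℝ) {φ : Fin m ⊕ Fin m → VV n → ℝ} (hφ : ∀ i, Te (φ i))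
    (q : Fin m ⊕ Fin m) (z : VV n) :
    ∑ p, op2 (bb n) (cS s₁ s₂ p q) (dS s₁ s₂ e₁ e₂ τ p q) (eS s₁ s₂ e₁ e₂ τ p q) (φ p) z
      = th z * QQ s₁ s₂ e₁ e₂ τ φ q z := by
  rcases q with q | q
  · rw [Fintype.sum_sum_type]
    simp only [cS, dS, eS, QQ]
    rw [op2_XG h₁ k₁.adj (-τ) (f := fun q => φ (.inl q)) (fun q => hφ _) q z,
      op2_YG h₂ k₂.adj (-τ) (f := fun q => φ (.inr q)) (fun q => hφ _) q z]
    ring
  · rw [Fintype.sum_sum_type]
    simp only [cS, dS, eS, QQ]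
    have neg : ∀ p, op2 (bb n) (fun i j z => -cXG s₁ q p i j z) (fun i z => -dXG s₁ e₁ τ q p i z)
        (fun z => -eXG s₁ e₁ τ q p z) (φ (.inr p)) z
        = -op2 (bb n) (cXG s₁ q p) (dXG s₁ e₁ τ q p) (eXG s₁ e₁ τ q p) (φ (.inr p)) z := by
      intro p
      unfold op2
      simp only [neg_mul, Finset.sum_neg_distrib]
      ring
    simp only [neg, Finset.sum_neg_distrib]
    rw [op2_XG h₁ k₁ τ (f := fun q => φ (.inr q)) (fun q => hφ _) q z,
      op2_YG h₂ k₂ τ (f := fun q => φ (.inl q)) (fun q => hφ _) q z]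
    ring

/-- the system is elliptic -/
lemma ell_S {s₁ s₂ : MF n} {ε : ℝ} (hε : n * ε < 1)
    (c₁ : ∀ x i j, |s₁ x i j - (1 : Matrix (Fin n) (Fin n) ℝ) i j| ≤ ε)
    (c₂ : ∀ x i j, |s₂ x i j - (1 : Matrix (Fin n) (Fin n) ℝ) i j| ≤ ε) {z : VV n}
    (hz : z ∈ Un n) {ξ : Fin n ⊕ Fin n → ℝ} (hξ : ξ ≠ 0) :
    (Matrix.of fun p q : Fin m ⊕ Fin m => ∑ i, ∑ j, cS s₁ s₂ p q i j z * ξ i * ξ j).det ≠ 0 := by
  set X := ∑ i, ∑ j, cX s₁ i j z * ξ i * ξ j with hX
  set Y := ∑ i, ∑ j, cY s₂ i j z * ξ i * ξ j with hY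
  have key : 0 < X ^ 2 + Y ^ 2 := by
    rw [hX, hY, symX, symY]
    have ht := th_pos hz
    have hr1 := rr1_pos hz
    have hr2 := rr2_pos hz
    set a := ∑ i, ∑ j, s₁ z.1 i j * ξ (Sum.inl i) * ξ (Sum.inl j) with ha
    set b := ∑ i, ∑ j, s₂ z.2 i j * ξ (Sum.inr i) * ξ (Sum.inr j) with hb
    have hab : a ≠ 0 ∨ b ≠ 0 := by
      by_cases h0 : (fun i => ξ (Sum.inl i)) = 0
      · right
        have h3 : (fun i => ξ (Sum.inr i)) ≠ 0 := by
          intro h4
          apply hξ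
          ext i
          rcases i with i | i
          · exact congrFun h0 i
          · exact congrFun h4 i
        exact (quad_pos hε (c₂ z.2) h3).ne'
      · left
        exact (quad_pos hε (c₁ z.1) h0).ne'
    rcases hab with h | h
    · have : th z * (rr z.1 ^ 2 * a) ≠ 0 := by positivity
      positivity
    · have : th z * (rr z.2 ^ 2 * b) ≠ 0 := by positivity
      positivity
  have eX' : ∀ p q : Fin m, ∑ i, ∑ j, cXG s₁ p q i j z * ξ i * ξ j = (if p = q then 1 else 0) * X := by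
    intro p q
    rw [hX]
    unfold cXG
    simp only [mul_assoc, Finset.mul_sum]
  have eY' : ∀ p q : Fin m, ∑ i, ∑ j, cYG s₂ p q i j z * ξ i * ξ j = (if p = q then 1 else 0) * Y := by
    intro p q
    rw [hY]
    unfold cYG
    simp only [mul_assoc, Finset.mul_sum]
  intro hdet
  obtain ⟨v, hv, hMv⟩ := Matrix.exists_mulVec_eq_zero_iff.2 hdet
  have r1 : ∀ p, X * v (.inl p) + Y * v (.inr p) = 0 := by
    intro p
    have h := congrFun hMv (.inl p)
    rw [Matrix.mulVec, dotProduct, Fintype.sum_sum_type] at h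
    simp only [Matrix.of_apply, cS, eX', eY', Pi.zero_apply] at h
    simpa using h
  have r2 : ∀ p, Y * v (.inl p) - X * v (.inr p) = 0 := by
    intro p
    have h := congrFun hMv (.inr p)
    rw [Matrix.mulVec, dotProduct, Fintype.sum_sum_type] at h
    simp only [Matrix.of_apply, cS, neg_mul, Finset.sum_neg_distrib, eX', eY', Pi.zero_apply] at h
    simp at h
    linarith
  apply hv
  ext i
  rcases i with p | p
  · have h : (X ^ 2 + Y ^ 2) * v (.inl p) = 0 := by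
      linear_combination X * r1 p + Y * r2 p
    rcases mul_eq_zero.1 h with h | h
    · exact absurd h key.ne'
    · exact h
  · have h : (X ^ 2 + Y ^ 2) * v (.inr p) = 0 := by
      linear_combination Y * r1 p - X * r2 p
    rcases mul_eq_zero.1 h with h | h
    · exact absurd h key.ne'
    · exact h

lemma Te.sub {f g : VV n → ℝ} (hf : Te f) (hg : Te g) : Te (fun z => f z - g z) := by
  have := hf.add (hg.smul (-1))
  convert this using 2
  ring

lemma te_QQ {s₁ s₂ : MF n} (h₁ : Ok s₁) (h₂ : Ok s₂) {e₁ e₂ : Co n m} (k₁ : CoSm e₁)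
    (k₂ : CoSm e₂) (τ : ℝ) {a : Fin m ⊕ Fin m → VV n → ℝ} (ha : ∀ i, Te (a i))
    (i : Fin m ⊕ Fin m) : Te (QQ s₁ s₂ e₁ e₂ τ a i) := by
  rcases i with p | p
  · exact (Te.PXG h₁.sm k₁.adj _ (fun q => ha _) p).add (Te.PYG h₂.sm k₂.adj _ (fun q => ha _) p)
  · exact (Te.PYG h₂.sm k₂ _ (fun q => ha _) p).sub (Te.PXG h₁.sm k₁ _ (fun q => ha _) p)

lemma int_th_mul {w Q : VV n → ℝ} (mw : AEStronglyMeasurable w volume)
    (iw : IntegrableOn (fun z => th z * w z ^ 2) (Un n)) (hQ : Te Q) :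
    IntegrableOn (fun z => th z * (w z * Q z)) (Un n) := by
  have c1 : AEStronglyMeasurable (fun z => sth z * w z) (mu n) :=
    (sm_sth.continuousOn.aestronglyMeasurable measurableSet_Un).mul mw.restrict
  have m1 : MemLp (fun z => sth z * w z) 2 (mu n) := by
    rw [memLp_two_iff_integrable_sq c1]
    refine iw.congr ?_
    filter_upwards [ae_restrict_mem measurableSet_Un] with z hz
    rw [mul_pow, sth_sq hz]
  have h := m1.integrable_mul (Te.mul sm_sth hQ).memLp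
  refine h.congr ?_
  filter_upwards [ae_restrict_mem measurableSet_Un] with z hz
  simp only [Pi.mul_apply]
  rw [← sth_sq hz]
  ring

/-- regularity of weak solutions -/
theorem reg_solG (hyp : RowHYP) {s₁ s₂ : MF n} (h₁ : Ok s₁) (h₂ : Ok s₂) {ε : ℝ} (hε : n * ε < 1)
    (c₁ : ∀ x i j, |s₁ x i j - (1 : Matrix (Fin n) (Fin n) ℝ) i j| ≤ ε)
    (c₂ : ∀ x i j, |s₂ x i j - (1 : Matrix (Fin n) (Fin n) ℝ) i j| ≤ ε) {e₁ e₂ : Co n m}
    (k₁ : CoSm e₁) (k₂ : CoSm e₂) {τ : ℝ}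
    {G w : Fin m ⊕ Fin m → VV n → ℝ} (hG : ∀ i, Sm (G i))
    (mw : ∀ i, AEStronglyMeasurable (w i) volume)
    (iw : ∀ i, IntegrableOn (fun z => th z * w i z ^ 2) (Un n))
    (weak : ∀ a : Fin m ⊕ Fin m → VV n → ℝ, (∀ i, Te (a i)) →
      ∑ i, ∫ z in Un n, th z * (G i z * a i z)
        = ∑ i, ∫ z in Un n, th z * (w i z * QQ s₁ s₂ e₁ e₂ τ a i z)) :
    ∃ w' : Fin m ⊕ Fin m → VV n → ℝ, (∀ i, Sm (w' i)) ∧
      ∀ i, ∀ᵐ z, z ∈ Un n → w' i z = w i z := by
  refine hyp_gen hyp (c := cS s₁ s₂) (d := dS s₁ s₂ e₁ e₂ τ) (e := eS s₁ s₂ e₁ e₂ τ)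
    (fun p q i j => ?_) (fun p q i => ?_) (fun p q => ?_)
    (fun z hz ξ hξ => ell_S hε c₁ c₂ hz hξ) mw iw (G := fun i z => th z * G i z)
    (fun i => sm_th.mul (hG i)) (fun φ hφ => ?_)
  · rcases p with p | p <;> rcases q with q | q
    · exact sm_cXG h₁.sm _ _ _ _
    · exact sm_cYG h₂.sm _ _ _ _
    · exact sm_cYG h₂.sm _ _ _ _
    · exact (sm_cXG h₁.sm _ _ _ _).neg
  · rcases p with p | p <;> rcases q with q | q
    · exact sm_dXG h₁.sm k₁.adj _ _ _ _
    · exact sm_dYG h₂.sm k₂ _ _ _ _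
    · exact sm_dYG h₂.sm k₂.adj _ _ _ _
    · exact (sm_dXG h₁.sm k₁ _ _ _ _).neg
  · rcases p with p | p <;> rcases q with q | q
    · exact sm_eXG h₁.sm k₁.adj _ _ _
    · exact sm_eYG h₂.sm k₂ _ _ _
    · exact sm_eYG h₂.sm k₂.adj _ _ _
    · exact (sm_eXG h₁.sm k₁ _ _ _).neg
  · simp only [sum_S h₁ h₂ k₁ k₂ τ hφ]
    have tq := te_QQ h₁ h₂ k₁ k₂ τ hφ
    have l1 : ∫ z, ∑ q, w q z * (th z * QQ s₁ s₂ e₁ e₂ τ φ q z)
        = ∑ q, ∫ z in Un n, th z * (w q z * QQ s₁ s₂ e₁ e₂ τ φ q z) := by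
      rw [← integral_finsetSum _ fun q _ => int_th_mul (mw q) (iw q) (tq q),
        ← setIntegral_eq_integral_of_forall_compl_eq_zero (s := Un n)]
      · congr 1
        ext z
        exact Finset.sum_congr rfl fun q _ => by ring
      · intro z hz
        refine Finset.sum_eq_zero fun q _ => ?_
        have : QQ s₁ s₂ e₁ e₂ τ φ q z = 0 := Te.zero_of fun h => hz ((tq q).2.2 h)
        rw [this]
        ring
    have l2 : ∫ z, ∑ p, th z * G p z * φ p z
        = ∑ p, ∫ z in Un n, th z * (G p z * φ p z) := by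
      have i1 : ∀ p, IntegrableOn (fun z => th z * (G p z * φ p z)) (Un n) :=
        fun p => (Te.mul sm_th (Te.mul (hG p) (hφ p))).integrable.integrableOn
      rw [← integral_finsetSum _ fun p _ => i1 p,
        ← setIntegral_eq_integral_of_forall_compl_eq_zero (s := Un n)]
      · congr 1
        ext z
        exact Finset.sum_congr rfl fun q _ => by ring
      · intro z hz
        refine Finset.sum_eq_zero fun q _ => ?_
        have : φ q z = 0 := Te.zero_of fun h => hz ((hφ q).2.2 h)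
        rw [this]
        ring
    rw [l1, l2, weak φ hφ]

end Vale.Agent.P088.R2.H820
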