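import Vale.Agent.P088.R2.H820.Sol3

/-!
# P088, row SOL
-/

open MeasureTheory Set Filter
open scoped ContDiff Matrix Topology RealInnerProductSpace

noncomputable section

namespace Vale.Agent.P088.R2.H820

open Vale.Agent.P088.LR Vale.Agent.P088.HY

variable {n : ℕ}

lemma TS.ok {K : ℕ} {ε : ℝ} {s : MF n} (h : TS n K ε s) : Ok s := ⟨h.sm, h.sy, h.dv⟩

lemma TS.mono {K : ℕ} {ε ε' : ℝ} (hle : ε ≤ ε') {s : MF n} (h : TS n K ε s) : TS n K ε' s :=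
  ⟨h.sm, h.sy, fun i j l hl x => (h.cl i j l hl x).trans hle, h.dv⟩

lemma TS.near {K : ℕ} {ε : ℝ} {s : MF n} (h : TS n K ε s) (x : V n) (i j : Fin n) :
    |s x i j - (1 : Matrix (Fin n) (Fin n) ℝ) i j| ≤ ε := by
  have := h.cl i j 0 (Nat.zero_le _) x
  rwa [norm_iteratedFDeriv_zero, Real.norm_eq_abs] at this

/-- the strong equations -/
theorem strong {s₁ s₂ : MF n} (h₁ : Ok s₁) (h₂ : Ok s₂) {τ : ℝ} {G₁ G₂ w v : VV n → ℝ}
    (hG₁ : Sm G₁) (hG₂ : Sm G₂) (hw : Sm w) (hv : Sm v)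
    (weak : ∀ a₁ a₂ : VV n → ℝ, Te a₁ → Te a₂ → ∫ z, th z * (G₁ z * a₁ z + G₂ z * a₂ z)
        = ∫ z, th z * (w z * (PX s₁ (-τ) a₁ z + PY s₂ (-τ) a₂ z)
          + v z * (PY s₂ τ a₁ z - PX s₁ τ a₂ z))) :
    (∀ z ∈ Un n, PX s₁ τ w z + PY s₂ (-τ) v z = G₁ z) ∧
    (∀ z ∈ Un n, PY s₂ τ w z - PX s₁ (-τ) v z = G₂ z) := by
  have zx : ∀ σ : ℝ, ∀ z, PX s₁ σ (fun _ => 0) z = 0 := by
    intro σ z
    unfold PX Lx HY.dx
    simp
  have zy : ∀ σ : ℝ, ∀ z, PY s₂ σ (fun _ => 0) z = 0 := by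
    intro σ z
    unfold PY Ly HY.dy
    simp
  constructor
  · have hR : Sm (fun z => th z * ((PX s₁ τ w z + PY s₂ (-τ) v z) - G₁ z)) :=
      sm_th.mul (((Sm.PX h₁.sm τ hw).add (Sm.PY h₂.sm (-τ) hv)).sub hG₁)
    have h0 := zero_of_weak hR (fun a ha => by
      have k := weak a (fun _ => 0) ha te_zero
      simp only [zx, zy, mul_zero, add_zero, sub_zero] at k
      have i1 : Integrable (fun z => th z * (w z * PX s₁ (-τ) a z)) :=
        (Te.mul sm_th (Te.mul hw (Te.PX h₁.sm _ ha))).integrable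
      have i2 : Integrable (fun z => th z * (v z * PY s₂ τ a z)) :=
        (Te.mul sm_th (Te.mul hv (Te.PY h₂.sm _ ha))).integrable
      have i3 : Integrable (fun z => th z * (PX s₁ τ w z * a z)) :=
        (Te.mul sm_th (Te.mul (Sm.PX h₁.sm τ hw) ha)).integrable
      have i4 : Integrable (fun z => th z * (PY s₂ (-τ) v z * a z)) :=
        (Te.mul sm_th (Te.mul (Sm.PY h₂.sm (-τ) hv) ha)).integrable
      have i5 : Integrable (fun z => th z * (G₁ z * a z)) := (Te.mul sm_th (Te.mul hG₁ ha)).integrable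
      have i34 : Integrable (fun z => th z * (PX s₁ τ w z * a z) + th z * (PY s₂ (-τ) v z * a z)) :=
        i3.add i4
      have e1 := adj_x h₁ (-τ) hw ha
      have e2 := adj_y h₂ τ hv ha
      rw [neg_neg] at e1
      have e3 : ∫ z, th z * (w z * PX s₁ (-τ) a z + v z * PY s₂ τ a z)
          = (∫ z, th z * (w z * PX s₁ (-τ) a z)) + ∫ z, th z * (v z * PY s₂ τ a z) := by
        rw [← integral_add i1 i2]
        congr 1
        ext z
        ring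
      rw [e3, e1, e2] at k
      have e4 : ∫ z, th z * ((PX s₁ τ w z + PY s₂ (-τ) v z) - G₁ z) * a z
          = ((∫ z, th z * (PX s₁ τ w z * a z)) + ∫ z, th z * (PY s₂ (-τ) v z * a z))
            - ∫ z, th z * (G₁ z * a z) := by
        rw [← integral_add i3 i4, ← integral_sub i34 i5]
        congr 1
        ext z
        ring
      rw [e4]
      linarith)
    intro z hz
    have := h0 z hz
    rcases mul_eq_zero.1 this with h | h
    · exact absurd h (th_pos hz).ne'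
    · linarith
  · have hR : Sm (fun z => th z * ((PY s₂ τ w z - PX s₁ (-τ) v z) - G₂ z)) :=
      sm_th.mul (((Sm.PY h₂.sm τ hw).sub (Sm.PX h₁.sm (-τ) hv)).sub hG₂)
    have h0 := zero_of_weak hR (fun a ha => by
      have k := weak (fun _ => 0) a te_zero ha
      simp only [zx, zy, mul_zero, zero_add, zero_sub] at k
      have i1 : Integrable (fun z => th z * (w z * PY s₂ (-τ) a z)) :=
        (Te.mul sm_th (Te.mul hw (Te.PY h₂.sm _ ha))).integrable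
      have i2 : Integrable (fun z => th z * (v z * PX s₁ τ a z)) :=
        (Te.mul sm_th (Te.mul hv (Te.PX h₁.sm _ ha))).integrable
      have i3 : Integrable (fun z => th z * (PY s₂ τ w z * a z)) :=
        (Te.mul sm_th (Te.mul (Sm.PY h₂.sm τ hw) ha)).integrable
      have i4 : Integrable (fun z => th z * (PX s₁ (-τ) v z * a z)) :=
        (Te.mul sm_th (Te.mul (Sm.PX h₁.sm (-τ) hv) ha)).integrable
      have i5 : Integrable (fun z => th z * (G₂ z * a z)) := (Te.mul sm_th (Te.mul hG₂ ha)).integrable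
      have i34 : Integrable (fun z => th z * (PY s₂ τ w z * a z) - th z * (PX s₁ (-τ) v z * a z)) :=
        i3.sub i4
      have e1 := adj_y h₂ (-τ) hw ha
      have e2 := adj_x h₁ τ hv ha
      rw [neg_neg] at e1
      have e3 : ∫ z, th z * (w z * PY s₂ (-τ) a z + v z * -PX s₁ τ a z)
          = (∫ z, th z * (w z * PY s₂ (-τ) a z)) - ∫ z, th z * (v z * PX s₁ τ a z) := by
        rw [← integral_sub i1 i2]
        congr 1
        ext z
        ring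
      rw [e3, e1, e2] at k
      have e4 : ∫ z, th z * ((PY s₂ τ w z - PX s₁ (-τ) v z) - G₂ z) * a z
          = ((∫ z, th z * (PY s₂ τ w z * a z)) - ∫ z, th z * (PX s₁ (-τ) v z * a z))
            - ∫ z, th z * (G₂ z * a z) := by
        rw [← integral_sub i3 i4, ← integral_sub i34 i5]
        congr 1
        ext z
        ring
      rw [e4]
      linarith)
    intro z hz
    have := h0 z hz
    rcases mul_eq_zero.1 this with h | h
    · exact absurd h (th_pos hz).ne'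
    · linarith

lemma sm_Px {s : MF n} (hs : Ok s) (τ : ℝ) {f : VV n → ℝ} (hf : Sm f) : Sm (Px s τ f) :=
  (Sm.PX hs.sm τ hf).congr fun _ hz => Px_eq hs τ hf hz

lemma sm_Py {s : MF n} (hs : Ok s) (τ : ℝ) {f : VV n → ℝ} (hf : Sm f) : Sm (Py s τ f) :=
  (Sm.PY hs.sm τ hf).congr fun _ hz => Py_eq hs τ hf hz

lemma Px_Px {s : MF n} (hs : Ok s) (τ σ : ℝ) {f : VV n → ℝ} (hf : Sm f) {z : VV n}
    (hz : z ∈ Un n) : Px s τ (Px s σ f) z = PX s τ (PX s σ f) z := by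
  rw [Px_eq hs τ (sm_Px hs σ hf) hz]
  exact PX_congr s τ (fun w hw => Px_eq hs σ hf hw) hz

lemma Py_Py {s : MF n} (hs : Ok s) (τ σ : ℝ) {f : VV n → ℝ} (hf : Sm f) {z : VV n}
    (hz : z ∈ Un n) : Py s τ (Py s σ f) z = PY s τ (PY s σ f) z := by
  rw [Py_eq hs τ (sm_Py hs σ hf) hz]
  exact PY_congr s τ (fun w hw => Py_eq hs σ hf hw) hz

/-- pointwise identity of the weights -/
lemma weight_w (τ : ℝ) (w : VV n → ℝ) {z : VV n} (hz : z ∈ Un n) :
    (Real.exp (-τ) * (hh τ z * w z)) ^ 2 * Real.exp (-(2 * τ * (uu z - 1))) / (rr z.1 * rr z.2) ^ 2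
      = th z * w z ^ 2 := by
  have hm := mul_pos (rr1_pos hz) (rr2_pos hz)
  have h1 : th z = rp (-(ga n)) z ^ 2 / (rr z.1 * rr z.2) ^ 2 := by
    have e1 := th_eq hz
    have e2 := rp_neg_mul (ga n) hz
    have e3 : (rp (ga n) z) ≠ 0 := (rp_pos _ hz).ne'
    rw [eq_div_iff (by positivity)]
    have e4 : th z * (rr z.1 * rr z.2) ^ 2 * rp (ga n) z = rp (-(ga n)) z ^ 2 * rp (ga n) z := by
      calc th z * (rr z.1 * rr z.2) ^ 2 * rp (ga n) z
          = th z * rp (ga n) z * (rr z.1 * rr z.2) ^ 2 := by ring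
        _ = rp (-(ga n)) z := e1
        _ = (rp (ga n) z * rp (-(ga n)) z) * rp (-(ga n)) z := by rw [e2, one_mul]
        _ = _ := by ring
    exact mul_right_cancel₀ e3 e4
  have h2 : Real.exp (-τ) ^ 2 * (Real.exp (τ * uu z)) ^ 2 * Real.exp (-(2 * τ * (uu z - 1))) = 1 := by
    rw [← Real.exp_nat_mul, ← Real.exp_nat_mul, ← Real.exp_add, ← Real.exp_add]
    have : ((2 : ℕ) : ℝ) * -τ + ((2 : ℕ) : ℝ) * (τ * uu z) + -(2 * τ * (uu z - 1)) = 0 := by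
      push_cast
      ring
    rw [this, Real.exp_zero]
  rw [h1]
  unfold hh
  calc (Real.exp (-τ) * (rp (-(ga n)) z * Real.exp (τ * uu z) * w z)) ^ 2
        * Real.exp (-(2 * τ * (uu z - 1))) / (rr z.1 * rr z.2) ^ 2
      = (Real.exp (-τ) ^ 2 * (Real.exp (τ * uu z)) ^ 2 * Real.exp (-(2 * τ * (uu z - 1))))
        * (rp (-(ga n)) z ^ 2 / (rr z.1 * rr z.2) ^ 2 * w z ^ 2) := by ring
    _ = _ := by rw [h2, one_mul]

lemma weight_G (τ : ℝ) (a b : ℝ) {z : VV n} (hz : z ∈ Un n) :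
    (a ^ 2 + b ^ 2) * Real.exp (-(2 * τ * (uu z - 1))) / (rr z.1 * rr z.2) ^ 2
      = th z * ((Real.exp τ * (gg τ z * a)) ^ 2 + (Real.exp τ * (gg τ z * b)) ^ 2) := by
  have hm := mul_pos (rr1_pos hz) (rr2_pos hz)
  have h1 : th z * rp (ga n) z ^ 2 = 1 / (rr z.1 * rr z.2) ^ 2 := by
    have e1 := th_eq hz
    have e2 := rp_neg_mul (ga n) hz
    rw [eq_div_iff (by positivity)]
    calc th z * rp (ga n) z ^ 2 * (rr z.1 * rr z.2) ^ 2
        = rp (ga n) z * (th z * rp (ga n) z * (rr z.1 * rr z.2) ^ 2) := by ring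
      _ = 1 := by rw [e1, e2]
  have h2 : Real.exp τ ^ 2 * (Real.exp (-(τ * uu z))) ^ 2 = Real.exp (-(2 * τ * (uu z - 1))) := by
    rw [← Real.exp_nat_mul, ← Real.exp_nat_mul, ← Real.exp_add]
    congr 1
    push_cast
    ring
  unfold gg
  calc (a ^ 2 + b ^ 2) * Real.exp (-(2 * τ * (uu z - 1))) / (rr z.1 * rr z.2) ^ 2
      = (1 / (rr z.1 * rr z.2) ^ 2) * (Real.exp (-(2 * τ * (uu z - 1))) * (a ^ 2 + b ^ 2)) := by ring
    _ = (th z * rp (ga n) z ^ 2) * ((Real.exp τ ^ 2 * (Real.exp (-(τ * uu z))) ^ 2)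
        * (a ^ 2 + b ^ 2)) := by rw [h1, h2]
    _ = _ := by ring

theorem rowSOL (hest : HY.RowEST) (htop : RowTOP) (hyp : RowHYP) : RowSOL := by
  intro n hn
  obtain ⟨C, ε₁, τ₁, hC, hε₁, hτ₁, est⟩ := hest n hn
  obtain ⟨ε₂, τ₂, hε₂, hτ₂, top⟩ := htop n hn
  have hn0 : (0 : ℝ) < n := by
    have : 0 < n := by omega
    exact_mod_cast this
  refine ⟨C, min (min ε₁ ε₂) (1 / (2 * n)), max (max τ₁ τ₂) 1, hC, by positivity, by positivity, ?_⟩
  intro s₁ s₂ hs₁ hs₂ η τ hη hDB hτ hτη F₁ F₂ hF₁ hF₂ comp hint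
  have le1 : min (min ε₁ ε₂) (1 / (2 * (n : ℝ))) ≤ ε₁ := (min_le_left _ _).trans (min_le_left _ _)
  have le2 : min (min ε₁ ε₂) (1 / (2 * (n : ℝ))) ≤ ε₂ := (min_le_left _ _).trans (min_le_right _ _)
  have le3 : min (min ε₁ ε₂) (1 / (2 * (n : ℝ))) ≤ 1 / (2 * n) := min_le_right _ _
  have t1 : τ₁ ≤ τ := ((le_max_left _ _).trans (le_max_left _ _)).trans hτ
  have t2 : τ₂ ≤ τ := ((le_max_right _ _).trans (le_max_left _ _)).trans hτ
  have t3 : 1 ≤ τ := (le_max_right _ _).trans hτ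
  have hτ0 : 0 < τ := by linarith
  have o₁ := TS.ok hs₁
  have o₂ := TS.ok hs₂
  have sF₁ : Sm F₁ := hF₁
  have sF₂ : Sm F₂ := hF₂
  set G₁ : VV n → ℝ := fun z => Real.exp τ * (gg τ z * (rr z.1 ^ 2 * F₁ z)) with hG₁
  set G₂ : VV n → ℝ := fun z => Real.exp τ * (gg τ z * (rr z.2 ^ 2 * F₂ z)) with hG₂
  have sG₁ : Sm G₁ := (sm_const _).mul ((sm_gg τ).mul ((sm_r1.pow 2).mul sF₁))
  have sG₂ : Sm G₂ := (sm_const _).mul ((sm_gg τ).mul ((sm_r2.pow 2).mul sF₂))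
  have wG : ∀ z ∈ Un n, (rr z.1 ^ 4 * F₁ z ^ 2 + rr z.2 ^ 4 * F₂ z ^ 2) *
      Real.exp (-(2 * τ * (uu z - 1))) / (rr z.1 * rr z.2) ^ 2 = th z * (G₁ z ^ 2 + G₂ z ^ 2) := by
    intro z hz
    have := weight_G τ (rr z.1 ^ 2 * F₁ z) (rr z.2 ^ 2 * F₂ z) hz
    rw [hG₁, hG₂]
    rw [← this]
    ring
  have iG : IntegrableOn (fun z => th z * (G₁ z ^ 2 + G₂ z ^ 2)) (Un n) :=
    hint.congr_fun wG measurableSet_Un
  -- the estimate
  have est' : ∀ a₁ a₂ : VV n → ℝ, Te a₁ → Te a₂ → ∫ z in Un n, th z * (a₁ z ^ 2 + a₂ z ^ 2)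
      ≤ (C / (2 * τ)) * ∫ z in Un n, th z * ((PX s₁ (-τ) a₁ z + PY s₂ (-τ) a₂ z) ^ 2
      + (PY s₂ τ a₁ z - PX s₁ τ a₂ z) ^ 2) := by
    intro a₁ a₂ ha₁ ha₂
    have h := est s₁ s₂ (TS.mono le1 hs₁) (TS.mono le1 hs₂) η τ hη hDB t1 (hτη.trans le1)
      a₁ a₂ ha₁ ha₂
    have e1 : ∫ z in Un n, th z * ((Px s₁ (-τ) a₁ z + Py s₂ (-τ) a₂ z) ^ 2
        + (Py s₂ τ a₁ z - Px s₁ τ a₂ z) ^ 2)
        = ∫ z in Un n, th z * ((PX s₁ (-τ) a₁ z + PY s₂ (-τ) a₂ z) ^ 2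
      + (PY s₂ τ a₁ z - PX s₁ τ a₂ z) ^ 2) := by
      refine setIntegral_congr_fun measurableSet_Un fun z hz => ?_
      rw [Px_eq o₁ _ ha₁.sm hz, Py_eq o₂ _ ha₂.sm hz, Py_eq o₂ _ ha₁.sm hz, Px_eq o₁ _ ha₂.sm hz]
    rw [e1] at h
    have T1 : Te (fun z => th z * (a₁ z ^ 2 + a₂ z ^ 2)) := by
      have := Te.mul sm_th ((Te.mul ha₁.sm ha₁).add (Te.mul ha₂.sm ha₂))
      simpa only [pow_two] using this
    have T2 : Te (fun z => th z * (τ ^ 2 * (a₁ z + a₂ z) ^ 2 + τ * (a₁ z - a₂ z) ^ 2)) := by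
      have s1 : Te (fun z => a₁ z + a₂ z) := ha₁.add ha₂
      have s2 : Te (fun z => a₁ z + (-1) * a₂ z) := ha₁.add (ha₂.smul _)
      have s3 := Te.mul sm_th (((Te.mul s1.sm s1).smul (τ ^ 2)).add ((Te.mul s2.sm s2).smul τ))
      convert s3 using 2
      ring
    have h2 : 2 * τ * ∫ z in Un n, th z * (a₁ z ^ 2 + a₂ z ^ 2)
        ≤ ∫ z in Un n, th z * (τ ^ 2 * (a₁ z + a₂ z) ^ 2 + τ * (a₁ z - a₂ z) ^ 2) := by
      rw [← integral_const_mul]
      refine setIntegral_mono_on (T1.integrable.integrableOn.const_mul _) T2.integrable.integrableOn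
        measurableSet_Un fun z hz => ?_
      have ht := th_pos hz
      have h3 : 2 * τ * (a₁ z ^ 2 + a₂ z ^ 2) ≤ τ ^ 2 * (a₁ z + a₂ z) ^ 2 + τ * (a₁ z - a₂ z) ^ 2 := by
        have h4 : τ * (a₁ z + a₂ z) ^ 2 ≤ τ ^ 2 * (a₁ z + a₂ z) ^ 2 := by
          apply mul_le_mul_of_nonneg_right _ (sq_nonneg _)
          nlinarith
        nlinarith
      calc 2 * τ * (th z * (a₁ z ^ 2 + a₂ z ^ 2)) = th z * (2 * τ * (a₁ z ^ 2 + a₂ z ^ 2)) := by ring
        _ ≤ _ := mul_le_mul_of_nonneg_left h3 ht.le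
    have h5 := h2.trans h
    rw [div_mul_eq_mul_div, le_div_iff₀ (by positivity)]
    linarith
  have hB : 0 ≤ C / (2 * τ) := by positivity
  obtain ⟨w, v, mw, mv, iw, iv, bd, weak⟩ := weak_sol o₁ o₂ hB est' sG₁ sG₂ iG
  have hnε : (n : ℝ) * (1 / (2 * n)) < 1 := by
    field_simp
    norm_num
  obtain ⟨w', v', sw, sv, aw, av⟩ := reg_sol hyp o₁ o₂ hnε
    (fun x i j => (TS.near hs₁ x i j).trans le3) (fun x i j => (TS.near hs₂ x i j).trans le3)
    sG₁ sG₂ mw mv iw iv weak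
  -- the weak equations for the smooth functions
  have weak' : ∀ a₁ a₂ : VV n → ℝ, Te a₁ → Te a₂ → ∫ z, th z * (G₁ z * a₁ z + G₂ z * a₂ z)
        = ∫ z, th z * (w' z * (PX s₁ (-τ) a₁ z + PY s₂ (-τ) a₂ z)
          + v' z * (PY s₂ τ a₁ z - PX s₁ τ a₂ z)) := by
    intro a₁ a₂ ha₁ ha₂
    have offn : ∀ z ∉ Un n, th z * (w' z * (PX s₁ (-τ) a₁ z + PY s₂ (-τ) a₂ z)
          + v' z * (PY s₂ τ a₁ z - PX s₁ τ a₂ z)) = 0 := by
      intro z hz
      have e1 : PX s₁ (-τ) a₁ z = 0 := Te.zero_of fun h => hz ((Te.PX o₁.sm _ ha₁).2.2 h)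
      have e2 : PY s₂ (-τ) a₂ z = 0 := Te.zero_of fun h => hz ((Te.PY o₂.sm _ ha₂).2.2 h)
      have e3 : PY s₂ τ a₁ z = 0 := Te.zero_of fun h => hz ((Te.PY o₂.sm _ ha₁).2.2 h)
      have e4 : PX s₁ τ a₂ z = 0 := Te.zero_of fun h => hz ((Te.PX o₁.sm _ ha₂).2.2 h)
      rw [e1, e2, e3, e4]
      ring
    have offg : ∀ z ∉ Un n, th z * (G₁ z * a₁ z + G₂ z * a₂ z) = 0 := by
      intro z hz
      have e1 : a₁ z = 0 := Te.zero_of fun h => hz (ha₁.2.2 h)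
      have e2 : a₂ z = 0 := Te.zero_of fun h => hz (ha₂.2.2 h)
      rw [e1, e2]
      ring
    rw [← setIntegral_eq_integral_of_forall_compl_eq_zero offn,
      ← setIntegral_eq_integral_of_forall_compl_eq_zero offg, weak a₁ a₂ ha₁ ha₂]
    refine setIntegral_congr_ae measurableSet_Un ?_
    filter_upwards [aw, av] with z h1 h2 hz
    rw [h1 hz, h2 hz]
  obtain ⟨eq1, eq2⟩ := strong o₁ o₂ sG₁ sG₂ sw sv weak'
  -- compatibility
  have hG1 : ∀ z ∈ Un n, hh τ z * G₁ z = Real.exp τ * (rr z.1 ^ 2 * F₁ z) := by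
    intro z hz
    have := gg_mul_hh τ hz
    rw [hG₁]
    calc hh τ z * (Real.exp τ * (gg τ z * (rr z.1 ^ 2 * F₁ z)))
        = (gg τ z * hh τ z) * (Real.exp τ * (rr z.1 ^ 2 * F₁ z)) := by ring
      _ = _ := by rw [this, one_mul]
  have hG2 : ∀ z ∈ Un n, hh τ z * G₂ z = Real.exp τ * (rr z.2 ^ 2 * F₂ z) := by
    intro z hz
    have := gg_mul_hh τ hz
    rw [hG₂]
    calc hh τ z * (Real.exp τ * (gg τ z * (rr z.2 ^ 2 * F₂ z)))
        = (gg τ z * hh τ z) * (Real.exp τ * (rr z.2 ^ 2 * F₂ z)) := by ring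
      _ = _ := by rw [this, one_mul]
  have cmp : ∀ z ∈ Un n, PY s₂ τ G₁ z = PX s₁ τ G₂ z := by
    intro z hz
    unfold PY PX
    rw [Ly_congr s₂ hG1 hz, Lx_congr s₁ hG2 hz,
      Ly_smul s₂ _ ((sm_r1.pow 2).mul sF₁) hz, Lx_smul s₁ _ ((sm_r2.pow 2).mul sF₂) hz,
      Ly_c1 s₂ (c := fun x => rr x ^ 2) (contDiff_rr.pow 2) sF₁ hz,
      Lx_c2 s₁ (c := fun x => rr x ^ 2) (contDiff_rr.pow 2) sF₂ hz, comp z hz]
    ring
  -- the second function vanishes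
  have sq' : ∀ f f' : VV n → ℝ, (∀ᵐ z, z ∈ Un n → f' z = f z) →
      IntegrableOn (fun z => th z * f z ^ 2) (Un n) →
      IntegrableOn (fun z => th z * f' z ^ 2) (Un n) := by
    intro f f' hff hi
    refine hi.congr_fun_ae ?_
    filter_upwards [ae_restrict_of_ae hff, ae_restrict_mem measurableSet_Un] with z h1 h2
    rw [h1 h2]
  have v0 : ∀ z ∈ Un n, v' z = 0 := by
    refine top s₁ s₂ (TS.mono le2 hs₁) (TS.mono le2 hs₂) τ t2 v' sv (sq' v v' av iv) fun z hz => ?_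
    rw [Px_Px o₁ τ (-τ) sv hz, Py_Py o₂ τ (-τ) sv hz]
    have a1 : PX s₁ τ (PX s₁ (-τ) v') z = PX s₁ τ (fun z => PY s₂ τ w' z - G₂ z) z :=
      PX_congr s₁ τ (fun z hz => by have := eq2 z hz; linarith) hz
    have a2 : PY s₂ τ (PY s₂ (-τ) v') z = PY s₂ τ (fun z => G₁ z - PX s₁ τ w' z) z :=
      PY_congr s₂ τ (fun z hz => by have := eq1 z hz; linarith) hz
    rw [a1, a2, PX_sub s₁ τ (Sm.PY o₂.sm τ sw) sG₂ hz, PY_sub s₂ τ sG₁ (Sm.PX o₁.sm τ sw) hz,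
      cmp z hz, PY_PX o₁.sm o₂.sm τ sw hz]
    ring
  have zx : ∀ z ∈ Un n, PX s₁ (-τ) v' z = 0 := by
    intro z hz
    rw [PX_congr s₁ (-τ) (g := fun _ => 0) v0 hz]
    unfold PX Lx HY.dx
    simp
  have zy : ∀ z ∈ Un n, PY s₂ (-τ) v' z = 0 := by
    intro z hz
    rw [PY_congr s₂ (-τ) (g := fun _ => 0) v0 hz]
    unfold PY Ly HY.dy
    simp
  have E1 : ∀ z ∈ Un n, Lx s₁ (fun z => hh τ z * w' z) z = Real.exp τ * F₁ z := by
    intro z hz
    have h1 := eq1 z hz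
    rw [zy z hz, add_zero, hG₁] at h1
    unfold PX at h1
    have hg := (gg_pos τ hz).ne'
    have hr := (pow_pos (rr1_pos hz) 2).ne'
    have h2 : gg τ z * (rr z.1 ^ 2 * Lx s₁ (fun z => hh τ z * w' z) z)
        = gg τ z * (rr z.1 ^ 2 * (Real.exp τ * F₁ z)) := by
      rw [h1]
      ring
    exact mul_left_cancel₀ hr (mul_left_cancel₀ hg h2)
  have E2 : ∀ z ∈ Un n, Ly s₂ (fun z => hh τ z * w' z) z = Real.exp τ * F₂ z := by
    intro z hz
    have h1 := eq2 z hz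
    rw [zx z hz, sub_zero, hG₂] at h1
    unfold PY at h1
    have hg := (gg_pos τ hz).ne'
    have hr := (pow_pos (rr2_pos hz) 2).ne'
    have h2 : gg τ z * (rr z.2 ^ 2 * Ly s₂ (fun z => hh τ z * w' z) z)
        = gg τ z * (rr z.2 ^ 2 * (Real.exp τ * F₂ z)) := by
      rw [h1]
      ring
    exact mul_left_cancel₀ hr (mul_left_cancel₀ hg h2)
  have sh : Sm (fun z => hh τ z * w' z) := (sm_hh τ).mul sw
  have ee : Real.exp (-τ) * Real.exp τ = 1 := by rw [← Real.exp_add]; simp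
  have ww : ∀ z ∈ Un n, th z * w' z ^ 2 = (Real.exp (-τ) * (hh τ z * w' z)) ^ 2 *
      Real.exp (-(2 * τ * (uu z - 1))) / (rr z.1 * rr z.2) ^ 2 := fun z hz => (weight_w τ w' hz).symm
  refine ⟨fun z => Real.exp (-τ) * (hh τ z * w' z), (sm_const _).mul sh, ?_, ?_, ?_, ?_⟩
  · intro z hz
    rw [Lx_smul s₁ _ sh hz, E1 z hz, ← mul_assoc, ee, one_mul]
  · intro z hz
    rw [Ly_smul s₂ _ sh hz, E2 z hz, ← mul_assoc, ee, one_mul]
  · exact (sq' w w' aw iw).congr_fun ww measurableSet_Un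
  · rw [← setIntegral_congr_fun measurableSet_Un ww, setIntegral_congr_fun measurableSet_Un wG]
    have e1 : ∫ z in Un n, th z * w' z ^ 2 = ∫ z in Un n, th z * w z ^ 2 := by
      refine setIntegral_congr_ae measurableSet_Un ?_
      filter_upwards [aw] with z h1 hz
      rw [h1 hz]
    have e2 : 0 ≤ ∫ z in Un n, th z * v z ^ 2 :=
      setIntegral_nonneg measurableSet_Un fun z hz => mul_nonneg (th_pos hz).le (sq_nonneg _)
    have e3 : 0 ≤ ∫ z in Un n, th z * (G₁ z ^ 2 + G₂ z ^ 2) :=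
      setIntegral_nonneg measurableSet_Un fun z hz => mul_nonneg (th_pos hz).le (by positivity)
    rw [e1]
    have e4 : C / (2 * τ) * ∫ z in Un n, th z * (G₁ z ^ 2 + G₂ z ^ 2)
        ≤ C / τ * ∫ z in Un n, th z * (G₁ z ^ 2 + G₂ z ^ 2) := by
      apply mul_le_mul_of_nonneg_right _ e3
      apply div_le_div_of_nonneg_left hC.le hτ0
      linarith
    linarith

end Vale.Agent.P088.R2.H820
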