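import Vale.Agent.P088.R2.H820.Ibp

/-!
# P088, row SOL: adjoints, linearity, strong equations from weak ones
-/

open MeasureTheory Set Filter
open scoped ContDiff Matrix Topology RealInnerProductSpace

noncomputable section

namespace Vale.Agent.P088.R2.H820

open Vale.Agent.P088.LR Vale.Agent.P088.HY

variable {n : ℕ}

lemma sm_gg (τ : ℝ) : Sm (gg τ : VV n → ℝ) := by
  unfold gg
  have h : Sm (fun z : VV n => Real.exp (-(τ * uu z))) :=
    ContDiffOn.exp (((sm_const τ).mul sm_uu).neg)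
  exact (sm_rp _).mul h

lemma gg_pos (τ : ℝ) {z : VV n} (hz : z ∈ Un n) : 0 < gg τ z :=
  mul_pos (rp_pos _ hz) (Real.exp_pos _)

lemma th_pos {z : VV n} (hz : z ∈ Un n) : 0 < th z := by
  unfold th
  exact inv_pos.2 (pow_pos (mul_pos (rr1_pos hz) (rr2_pos hz)) n)

lemma sm_th : Sm (th : VV n → ℝ) := by
  unfold th
  exact ContDiffOn.inv ((sm_r1.mul sm_r2).pow n)
    fun z hz => (pow_pos (mul_pos (rr1_pos hz) (rr2_pos hz)) n).ne'

lemma rp_add (a b : ℝ) {z : VV n} (hz : z ∈ Un n) : rp (a + b) z = rp a z * rp b z :=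
  Real.rpow_add (mul_pos (rr1_pos hz) (rr2_pos hz)) a b

lemma th_eq {z : VV n} (hz : z ∈ Un n) : th z * rp (ga n) z * (rr z.1 * rr z.2) ^ 2
    = rp (-(ga n)) z := by
  have hm := mul_pos (rr1_pos hz) (rr2_pos hz)
  have h1 : th z = rp (-(n : ℝ)) z := by
    unfold th rp
    rw [Real.rpow_neg hm.le, Real.rpow_natCast]
  have h2 : (rr z.1 * rr z.2) ^ 2 = rp 2 z := by
    unfold rp
    rw [← Real.rpow_natCast]
    norm_num
  rw [h1, h2, ← rp_add _ _ hz, ← rp_add _ _ hz]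
  congr 1
  unfold ga
  ring

lemma th_gg (σ : ℝ) {z : VV n} (hz : z ∈ Un n) :
    th z * (gg σ z * rr z.1 ^ 2) = (rr z.2 ^ 2)⁻¹ * hh (-σ) z := by
  have h := th_eq hz
  have h1 := rr1_pos hz
  have h2 := rr2_pos hz
  unfold gg hh
  rw [← h, neg_mul]
  field_simp

lemma th_gg' (σ : ℝ) {z : VV n} (hz : z ∈ Un n) :
    th z * (gg σ z * rr z.2 ^ 2) = (rr z.1 ^ 2)⁻¹ * hh (-σ) z := by
  have h := th_eq hz
  have h1 := rr1_pos hz
  have h2 := rr2_pos hz
  unfold gg hh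
  rw [← h, neg_mul]
  field_simp

/-- the hypotheses on a tensor which are used here -/
structure Ok (s : MF n) : Prop where
  sm : SmM s
  sy : ∀ x, (s x).IsSymm
  dv : ∀ x ∈ Bn n, ∀ j, ∑ i, pd i (fun y => s y i j) x = 0

/-- the operator in conjugated form -/
def PX (s : MF n) (τ : ℝ) (f : VV n → ℝ) (z : VV n) : ℝ :=
  gg τ z * (rr z.1 ^ 2 * Lx s (fun w => hh τ w * f w) z)

def PY (s : MF n) (τ : ℝ) (f : VV n → ℝ) (z : VV n) : ℝ :=
  gg τ z * (rr z.2 ^ 2 * Ly s (fun w => hh τ w * f w) z)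

lemma Te.Lx {s : MF n} (hs : SmM s) {f : VV n → ℝ} (hf : Te f) : Te (HY.Lx s f) := by
  have h : ∀ t : Finset (Fin n), Te (fun z => ∑ i ∈ t, ∑ j, s z.1 i j * HY.dx i (HY.dx j f) z) := by
    intro t
    induction t using Finset.induction_on with
    | empty => simpa using te_zero
    | insert a t ha ih =>
      simp only [Finset.sum_insert ha]
      refine Te.add ?_ ih
      have h2 : ∀ t : Finset (Fin n), Te (fun z => ∑ j ∈ t, s z.1 a j * HY.dx a (HY.dx j f) z) := by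
        intro t
        induction t using Finset.induction_on with
        | empty => simpa using te_zero
        | insert b t hb ih =>
          simp only [Finset.sum_insert hb]
          exact Te.add (Te.mul (sm_s1 hs a b) ((hf.dx b).dx a)) ih
      exact h2 _
  exact h _

lemma Te.Ly {s : MF n} (hs : SmM s) {f : VV n → ℝ} (hf : Te f) : Te (HY.Ly s f) := by
  have h : ∀ t : Finset (Fin n), Te (fun z => ∑ i ∈ t, ∑ j, s z.2 i j * HY.dy i (HY.dy j f) z) := by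
    intro t
    induction t using Finset.induction_on with
    | empty => simpa using te_zero
    | insert a t ha ih =>
      simp only [Finset.sum_insert ha]
      refine Te.add ?_ ih
      have h2 : ∀ t : Finset (Fin n), Te (fun z => ∑ j ∈ t, s z.2 a j * HY.dy a (HY.dy j f) z) := by
        intro t
        induction t using Finset.induction_on with
        | empty => simpa using te_zero
        | insert b t hb ih =>
          simp only [Finset.sum_insert hb]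
          exact Te.add (Te.mul (sm_s2 hs a b) ((hf.dy b).dy a)) ih
      exact h2 _
  exact h _

lemma Te.PX {s : MF n} (hs : SmM s) (τ : ℝ) {f : VV n → ℝ} (hf : Te f) : Te (PX s τ f) :=
  Te.mul (sm_gg τ) (Te.mul (sm_r1.pow 2) (Te.Lx hs (Te.mul (sm_hh τ) hf)))

lemma Te.PY {s : MF n} (hs : SmM s) (τ : ℝ) {f : VV n → ℝ} (hf : Te f) : Te (PY s τ f) :=
  Te.mul (sm_gg τ) (Te.mul (sm_r2.pow 2) (Te.Ly hs (Te.mul (sm_hh τ) hf)))

lemma Sm.PX {s : MF n} (hs : SmM s) (τ : ℝ) {f : VV n → ℝ} (hf : Sm f) : Sm (PX s τ f) :=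
  (sm_gg τ).mul ((sm_r1.pow 2).mul (Sm.Lx hs ((sm_hh τ).mul hf)))

lemma Sm.PY {s : MF n} (hs : SmM s) (τ : ℝ) {f : VV n → ℝ} (hf : Sm f) : Sm (PY s τ f) :=
  (sm_gg τ).mul ((sm_r2.pow 2).mul (Sm.Ly hs ((sm_hh τ).mul hf)))

lemma Px_eq {s : MF n} (hs : Ok s) (τ : ℝ) {f : VV n → ℝ} (hf : Sm f) {z : VV n}
    (hz : z ∈ Un n) : Px s τ f z = PX s τ f z := conj_x hs.sy τ hf hz

lemma Py_eq {s : MF n} (hs : Ok s) (τ : ℝ) {f : VV n → ℝ} (hf : Sm f) {z : VV n}
    (hz : z ∈ Un n) : Py s τ f z = PY s τ f z := conj_y hs.sy τ hf hz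

lemma PX_congr (s : MF n) (τ : ℝ) {f g : VV n → ℝ} (h : ∀ z ∈ Un n, f z = g z) {z : VV n}
    (hz : z ∈ Un n) : PX s τ f z = PX s τ g z := by
  unfold PX
  rw [Lx_congr s (fun w hw => by rw [h w hw]) hz]

lemma PY_congr (s : MF n) (τ : ℝ) {f g : VV n → ℝ} (h : ∀ z ∈ Un n, f z = g z) {z : VV n}
    (hz : z ∈ Un n) : PY s τ f z = PY s τ g z := by
  unfold PY
  rw [Ly_congr s (fun w hw => by rw [h w hw]) hz]

/-! ## Linearity -/

lemma Lx_add (s : MF n) {f g : VV n → ℝ} (hf : Sm f) (hg : Sm g) {z : VV n} (hz : z ∈ Un n) :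
    Lx s (fun z => f z + g z) z = Lx s f z + Lx s g z := by
  unfold Lx
  simp only [← Finset.sum_add_distrib]
  refine Finset.sum_congr rfl fun i _ => Finset.sum_congr rfl fun j _ => ?_
  rw [dx_congr (fun w hw => dx_add hf hg hw j) hz, dx_add (hf.dx j) (hg.dx j) hz]
  ring

lemma Ly_add (s : MF n) {f g : VV n → ℝ} (hf : Sm f) (hg : Sm g) {z : VV n} (hz : z ∈ Un n) :
    Ly s (fun z => f z + g z) z = Ly s f z + Ly s g z := by
  unfold Ly
  simp only [← Finset.sum_add_distrib]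
  refine Finset.sum_congr rfl fun i _ => Finset.sum_congr rfl fun j _ => ?_
  rw [dy_congr (fun w hw => dy_add hf hg hw j) hz, dy_add (hf.dy j) (hg.dy j) hz]
  ring

lemma Lx_smul (s : MF n) (c : ℝ) {f : VV n → ℝ} (hf : Sm f) {z : VV n} (hz : z ∈ Un n) :
    Lx s (fun z => c * f z) z = c * Lx s f z :=
  Lx_c2 s (c := fun _ => c) contDiff_const hf hz

lemma Ly_smul (s : MF n) (c : ℝ) {f : VV n → ℝ} (hf : Sm f) {z : VV n} (hz : z ∈ Un n) :
    Ly s (fun z => c * f z) z = c * Ly s f z :=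
  Ly_c1 s (c := fun _ => c) contDiff_const hf hz

lemma PX_add (s : MF n) (τ : ℝ) {f g : VV n → ℝ} (hf : Sm f) (hg : Sm g) {z : VV n}
    (hz : z ∈ Un n) : PX s τ (fun z => f z + g z) z = PX s τ f z + PX s τ g z := by
  unfold PX
  have h : Lx s (fun w => hh τ w * (f w + g w)) z
      = Lx s (fun w => hh τ w * f w) z + Lx s (fun w => hh τ w * g w) z := by
    rw [← Lx_add s ((sm_hh τ).mul hf) ((sm_hh τ).mul hg) hz]
    congr 1
    ext w
    ring
  rw [h]
  ring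

lemma PY_add (s : MF n) (τ : ℝ) {f g : VV n → ℝ} (hf : Sm f) (hg : Sm g) {z : VV n}
    (hz : z ∈ Un n) : PY s τ (fun z => f z + g z) z = PY s τ f z + PY s τ g z := by
  unfold PY
  have h : Ly s (fun w => hh τ w * (f w + g w)) z
      = Ly s (fun w => hh τ w * f w) z + Ly s (fun w => hh τ w * g w) z := by
    rw [← Ly_add s ((sm_hh τ).mul hf) ((sm_hh τ).mul hg) hz]
    congr 1
    ext w
    ring
  rw [h]
  ring

lemma PX_smul (s : MF n) (τ c : ℝ) {f : VV n → ℝ} (hf : Sm f) {z : VV n}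
    (hz : z ∈ Un n) : PX s τ (fun z => c * f z) z = c * PX s τ f z := by
  unfold PX
  have h : Lx s (fun w => hh τ w * (c * f w)) z = c * Lx s (fun w => hh τ w * f w) z := by
    rw [← Lx_smul s c ((sm_hh τ).mul hf) hz]
    congr 1
    ext w
    ring
  rw [h]
  ring

lemma PY_smul (s : MF n) (τ c : ℝ) {f : VV n → ℝ} (hf : Sm f) {z : VV n}
    (hz : z ∈ Un n) : PY s τ (fun z => c * f z) z = c * PY s τ f z := by
  unfold PY
  have h : Ly s (fun w => hh τ w * (c * f w)) z = c * Ly s (fun w => hh τ w * f w) z := by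
    rw [← Ly_smul s c ((sm_hh τ).mul hf) hz]
    congr 1
    ext w
    ring
  rw [h]
  ring

lemma PX_sub (s : MF n) (τ : ℝ) {f g : VV n → ℝ} (hf : Sm f) (hg : Sm g) {z : VV n}
    (hz : z ∈ Un n) : PX s τ (fun z => f z - g z) z = PX s τ f z - PX s τ g z := by
  have e : (fun z => f z - g z) = fun z => f z + (-1) * g z := by
    ext z
    ring
  rw [e, PX_add s τ hf ((sm_const _).mul hg) hz, PX_smul s τ _ hg hz]
  ring

lemma PY_sub (s : MF n) (τ : ℝ) {f g : VV n → ℝ} (hf : Sm f) (hg : Sm g) {z : VV n}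
    (hz : z ∈ Un n) : PY s τ (fun z => f z - g z) z = PY s τ f z - PY s τ g z := by
  have e : (fun z => f z - g z) = fun z => f z + (-1) * g z := by
    ext z
    ring
  rw [e, PY_add s τ hf ((sm_const _).mul hg) hz, PY_smul s τ _ hg hz]
  ring

/-! ## Adjoints -/

lemma Te.integral_congr {f g : VV n → ℝ} (h : ∀ z ∈ Un n, f z = g z)
    (h2 : ∀ z ∉ Un n, f z = g z) : ∫ z, f z = ∫ z, g z := by
  refine integral_congr_ae (Eventually.of_forall fun z => ?_)
  by_cases hz : z ∈ Un n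
  · exact h z hz
  · exact h2 z hz

lemma sm_r2inv : Sm (fun z : VV n => (rr z.2 ^ 2)⁻¹) :=
  ContDiffOn.inv (sm_r2.pow 2) fun _ hz => (pow_pos (rr2_pos hz) 2).ne'

lemma sm_r1inv : Sm (fun z : VV n => (rr z.1 ^ 2)⁻¹) :=
  ContDiffOn.inv (sm_r1.pow 2) fun _ hz => (pow_pos (rr1_pos hz) 2).ne'

lemma Lx_r2inv (s : MF n) {f : VV n → ℝ} (hf : Sm f) {z : VV n} (hz : z ∈ Un n) :
    Lx s (fun w => (rr w.2 ^ 2)⁻¹ * f w) z = (rr z.2 ^ 2)⁻¹ * Lx s f z := by
  have h1 := Lx_c2 s (c := fun x => rr x ^ 2) (contDiff_rr.pow 2) (sm_r2inv.mul hf) hz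
  have h2 : Lx s (fun z : VV n => rr z.2 ^ 2 * ((rr z.2 ^ 2)⁻¹ * f z)) z = Lx s f z := by
    refine Lx_congr s (fun w hw => ?_) hz
    exact mul_inv_cancel_left₀ (pow_pos (rr2_pos hw) 2).ne' _
  have h3 : Lx s f z = rr z.2 ^ 2 * Lx s (fun w => (rr w.2 ^ 2)⁻¹ * f w) z := by
    rw [← h2]
    exact h1
  have h4 := (pow_pos (rr2_pos hz) 2).ne'
  rw [h3, inv_mul_cancel_left₀ h4]

lemma Ly_r1inv (s : MF n) {f : VV n → ℝ} (hf : Sm f) {z : VV n} (hz : z ∈ Un n) :
    Ly s (fun w => (rr w.1 ^ 2)⁻¹ * f w) z = (rr z.1 ^ 2)⁻¹ * Ly s f z := by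
  have h1 := Ly_c1 s (c := fun x => rr x ^ 2) (contDiff_rr.pow 2) (sm_r1inv.mul hf) hz
  have h2 : Ly s (fun z : VV n => rr z.1 ^ 2 * ((rr z.1 ^ 2)⁻¹ * f z)) z = Ly s f z := by
    refine Ly_congr s (fun w hw => ?_) hz
    exact mul_inv_cancel_left₀ (pow_pos (rr1_pos hw) 2).ne' _
  have h3 : Ly s f z = rr z.1 ^ 2 * Ly s (fun w => (rr w.1 ^ 2)⁻¹ * f w) z := by
    rw [← h2]
    exact h1
  have h4 := (pow_pos (rr1_pos hz) 2).ne'
  rw [h3, inv_mul_cancel_left₀ h4]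

/-- the adjoint in the first variable -/
theorem adj_x {s : MF n} (hs : Ok s) (σ : ℝ) {w a : VV n → ℝ} (hw : Sm w) (ha : Te a) :
    ∫ z, th z * (w z * PX s σ a z) = ∫ z, th z * (PX s (-σ) w z * a z) := by
  have sW : Sm (fun z => (rr z.2 ^ 2)⁻¹ * (hh (-σ) z * w z)) := sm_r2inv.mul ((sm_hh _).mul hw)
  have key := Lx_symm hs.sm hs.sy hs.dv sW (Te.mul (sm_hh σ) ha)
  have l : ∫ z, th z * (w z * PX s σ a z)
      = ∫ z, ((rr z.2 ^ 2)⁻¹ * (hh (-σ) z * w z)) * Lx s (fun w => hh σ w * a w) z := by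
    refine Te.integral_congr (fun z hz => ?_) fun z hz => ?_
    · have h := th_gg σ hz
      unfold PX
      calc th z * (w z * (gg σ z * (rr z.1 ^ 2 * Lx s (fun w => hh σ w * a w) z)))
          = (th z * (gg σ z * rr z.1 ^ 2)) * (w z * Lx s (fun w => hh σ w * a w) z) := by ring
        _ = _ := by rw [h]; ring
    · have h1 : PX s σ a z = 0 := Te.zero_of fun h => hz ((Te.PX hs.sm σ ha).2.2 h)
      have h2 : Lx s (fun w => hh σ w * a w) z = 0 :=
        Te.zero_of fun h => hz ((Te.Lx hs.sm (Te.mul (sm_hh σ) ha)).2.2 h)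
      rw [h1, h2]
      ring
  have r : ∫ z, th z * (PX s (-σ) w z * a z)
      = ∫ z, Lx s (fun z => (rr z.2 ^ 2)⁻¹ * (hh (-σ) z * w z)) z * (hh σ z * a z) := by
    refine Te.integral_congr (fun z hz => ?_) fun z hz => ?_
    · have h := th_gg (-σ) hz
      rw [neg_neg] at h
      rw [Lx_r2inv s ((sm_hh _).mul hw) hz]
      unfold PX
      calc th z * (gg (-σ) z * (rr z.1 ^ 2 * Lx s (fun w_1 => hh (-σ) w_1 * w w_1) z) * a z)
          = (th z * (gg (-σ) z * rr z.1 ^ 2)) * (Lx s (fun w_1 => hh (-σ) w_1 * w w_1) z * a z) := by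
            ring
        _ = _ := by rw [h]; ring
    · have h1 : a z = 0 := Te.zero_of fun h => hz (ha.2.2 h)
      rw [h1]
      ring
  rw [l, r]
  exact key

/-- the adjoint in the second variable -/
theorem adj_y {s : MF n} (hs : Ok s) (σ : ℝ) {w a : VV n → ℝ} (hw : Sm w) (ha : Te a) :
    ∫ z, th z * (w z * PY s σ a z) = ∫ z, th z * (PY s (-σ) w z * a z) := by
  have sW : Sm (fun z => (rr z.1 ^ 2)⁻¹ * (hh (-σ) z * w z)) := sm_r1inv.mul ((sm_hh _).mul hw)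
  have key := Ly_symm hs.sm hs.sy hs.dv sW (Te.mul (sm_hh σ) ha)
  have l : ∫ z, th z * (w z * PY s σ a z)
      = ∫ z, ((rr z.1 ^ 2)⁻¹ * (hh (-σ) z * w z)) * Ly s (fun w => hh σ w * a w) z := by
    refine Te.integral_congr (fun z hz => ?_) fun z hz => ?_
    · have h := th_gg' σ hz
      unfold PY
      calc th z * (w z * (gg σ z * (rr z.2 ^ 2 * Ly s (fun w => hh σ w * a w) z)))
          = (th z * (gg σ z * rr z.2 ^ 2)) * (w z * Ly s (fun w => hh σ w * a w) z) := by ring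
        _ = _ := by rw [h]; ring
    · have h1 : PY s σ a z = 0 := Te.zero_of fun h => hz ((Te.PY hs.sm σ ha).2.2 h)
      have h2 : Ly s (fun w => hh σ w * a w) z = 0 :=
        Te.zero_of fun h => hz ((Te.Ly hs.sm (Te.mul (sm_hh σ) ha)).2.2 h)
      rw [h1, h2]
      ring
  have r : ∫ z, th z * (PY s (-σ) w z * a z)
      = ∫ z, Ly s (fun z => (rr z.1 ^ 2)⁻¹ * (hh (-σ) z * w z)) z * (hh σ z * a z) := by
    refine Te.integral_congr (fun z hz => ?_) fun z hz => ?_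
    · have h := th_gg' (-σ) hz
      rw [neg_neg] at h
      rw [Ly_r1inv s ((sm_hh _).mul hw) hz]
      unfold PY
      calc th z * (gg (-σ) z * (rr z.2 ^ 2 * Ly s (fun w_1 => hh (-σ) w_1 * w w_1) z) * a z)
          = (th z * (gg (-σ) z * rr z.2 ^ 2)) * (Ly s (fun w_1 => hh (-σ) w_1 * w w_1) z * a z) := by
            ring
        _ = _ := by rw [h]; ring
    · have h1 : a z = 0 := Te.zero_of fun h => hz (ha.2.2 h)
      rw [h1]
      ring
  rw [l, r]
  exact key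

/-! ## The operators in the two variables commute -/

theorem PY_PX {s₁ s₂ : MF n} (h₁ : SmM s₁) (h₂ : SmM s₂) (τ : ℝ) {f : VV n → ℝ} (hf : Sm f)
    {z : VV n} (hz : z ∈ Un n) : PY s₂ τ (PX s₁ τ f) z = PX s₁ τ (PY s₂ τ f) z := by
  have sf : Sm (fun w => hh τ w * f w) := (sm_hh τ).mul hf
  have a : Ly s₂ (fun w => hh τ w * PX s₁ τ f w) z
      = rr z.1 ^ 2 * Ly s₂ (Lx s₁ (fun w => hh τ w * f w)) z := by
    rw [← Ly_c1 s₂ (c := fun x => rr x ^ 2) (contDiff_rr.pow 2) (sf.Lx h₁) hz]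
    refine Ly_congr s₂ (fun w hw => ?_) hz
    have := gg_mul_hh τ hw
    unfold PX
    calc hh τ w * (gg τ w * (rr w.1 ^ 2 * Lx s₁ (fun w => hh τ w * f w) w))
        = (gg τ w * hh τ w) * (rr w.1 ^ 2 * Lx s₁ (fun w => hh τ w * f w) w) := by ring
      _ = _ := by rw [this, one_mul]
  have b : Lx s₁ (fun w => hh τ w * PY s₂ τ f w) z
      = rr z.2 ^ 2 * Lx s₁ (Ly s₂ (fun w => hh τ w * f w)) z := by
    rw [← Lx_c2 s₁ (c := fun x => rr x ^ 2) (contDiff_rr.pow 2) (sf.Ly h₂) hz]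
    refine Lx_congr s₁ (fun w hw => ?_) hz
    have := gg_mul_hh τ hw
    unfold PY
    calc hh τ w * (gg τ w * (rr w.2 ^ 2 * Ly s₂ (fun w => hh τ w * f w) w))
        = (gg τ w * hh τ w) * (rr w.2 ^ 2 * Ly s₂ (fun w => hh τ w * f w) w) := by ring
      _ = _ := by rw [this, one_mul]
  have c := Ly_Lx h₁ h₂ sf hz
  change gg τ z * (rr z.2 ^ 2 * Ly s₂ (fun w => hh τ w * PX s₁ τ f w) z)
    = gg τ z * (rr z.1 ^ 2 * Lx s₁ (fun w => hh τ w * PY s₂ τ f w) z)
  rw [a, b, c]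
  ring

/-! ## From weak to strong -/

/-- a smooth function orthogonal to all test functions vanishes -/
theorem zero_of_weak {R : VV n → ℝ} (hR : Sm R) (h : ∀ a, Te a → ∫ z, R z * a z = 0) :
    ∀ z ∈ Un n, R z = 0 := by
  intro z₀ hz₀
  obtain ⟨χ, hχs, hχc, hχd, hχr, hχ1⟩ :=
    exists_contDiff_tsupport_subset (n := (⊤ : ℕ∞)) (isOpen_Un.mem_nhds hz₀)
  have tχ : Te χ := ⟨hχd, hχc, hχs⟩
  have h1 := h (fun z => R z * χ z) (Te.mul hR tχ)
  have tt : Te (fun z => R z * (R z * χ z)) := Te.mul hR (Te.mul hR tχ)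
  by_contra hne
  have h2 : 0 < ∫ z, R z * (R z * χ z) := by
    refine tt.1.continuous.integral_pos_of_hasCompactSupport_nonneg_nonzero tt.2.1 (fun z => ?_)
      (x := z₀) ?_
    · have := (hχr ⟨z, rfl⟩).1
      have h3 : R z * (R z * χ z) = R z ^ 2 * χ z := by ring
      rw [h3]
      positivity
    · have h3 : R z₀ * (R z₀ * χ z₀) = R z₀ ^ 2 * χ z₀ := by ring
      rw [h3, hχ1]
      positivity
  linarith

end Vale.Agent.P088.R2.H820
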