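import Vale.Agent.P088.R2.H820.Sol1

/-!
# P088, row SOL: the functional analysis
-/

open MeasureTheory Set Filter
open scoped ContDiff Matrix Topology RealInnerProductSpace

noncomputable section

namespace Vale.Agent.P088.R2.H820

open Vale.Agent.P088.LR Vale.Agent.P088.HY

variable {n : ℕ}

theorem riesz_pair {A H : Type*} [AddCommGroup A] [Module ℝ A] [NormedAddCommGroup H]
    [InnerProductSpace ℝ H] [CompleteSpace H] (T S : A →ₗ[ℝ] H) (G : H) {B : ℝ} (hB : 0 ≤ B)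
    (h : ∀ a, ‖S a‖ ^ 2 ≤ B * ‖T a‖ ^ 2) :
    ∃ w : H, ‖w‖ ^ 2 ≤ B * ‖G‖ ^ 2 ∧ ∀ a, ⟪G, S a⟫ = ⟪w, T a⟫ := by
  have hS : ∀ a, ‖S a‖ ≤ √B * ‖T a‖ := by
    intro a
    have h1 := Real.sqrt_le_sqrt (h a)
    rwa [Real.sqrt_sq (norm_nonneg _), Real.sqrt_mul hB, Real.sqrt_sq (norm_nonneg _)] at h1
  set ℓ : A →ₗ[ℝ] ℝ := (innerₛₗ ℝ G).comp S with hℓ
  have hℓa : ∀ a, ℓ a = ⟪G, S a⟫ := fun a => rfl
  have hb : ∀ a, |ℓ a| ≤ (√B * ‖G‖) * ‖T a‖ := by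
    intro a
    rw [hℓa]
    calc |⟪G, S a⟫| ≤ ‖G‖ * ‖S a‖ := abs_real_inner_le_norm _ _
      _ ≤ ‖G‖ * (√B * ‖T a‖) := mul_le_mul_of_nonneg_left (hS a) (norm_nonneg _)
      _ = _ := by ring
  have hker : LinearMap.ker T ≤ LinearMap.ker ℓ := by
    intro a ha
    rw [LinearMap.mem_ker] at ha ⊢
    have := hb a
    rw [ha, norm_zero, mul_zero] at this
    exact abs_eq_zero.1 (le_antisymm this (abs_nonneg _))
  set g : LinearMap.range T →ₗ[ℝ] ℝ :=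
    ((LinearMap.ker T).liftQ ℓ hker).comp T.quotKerEquivRange.symm.toLinearMap with hg
  have hgT : ∀ a, g ⟨T a, LinearMap.mem_range_self T a⟩ = ℓ a := by
    intro a
    simp only [hg, LinearMap.comp_apply, LinearEquiv.coe_coe]
    have h1 : T.quotKerEquivRange.symm ⟨T a, LinearMap.mem_range_self T a⟩
        = (LinearMap.ker T).mkQ a := by
      rw [LinearEquiv.symm_apply_eq]
      rfl
    rw [h1]
    simp
  have hgb : ∀ y : LinearMap.range T, ‖g y‖ ≤ (√B * ‖G‖) * ‖y‖ := by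
    rintro ⟨y, a, rfl⟩
    rw [hgT a]
    exact hb a
  set gc : LinearMap.range T →L[ℝ] ℝ := g.mkContinuous (√B * ‖G‖) hgb with hgc
  obtain ⟨f, hf1, hf2⟩ := exists_extension_norm_eq (LinearMap.range T) gc
  refine ⟨(InnerProductSpace.toDual ℝ H).symm f, ?_, fun a => ?_⟩
  · rw [LinearIsometryEquiv.norm_map, hf2]
    have h1 : ‖gc‖ ≤ √B * ‖G‖ := g.mkContinuous_norm_le (by positivity) hgb
    have h0 : 0 ≤ ‖gc‖ := ContinuousLinearMap.opNorm_nonneg gc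
    calc ‖gc‖ ^ 2 ≤ (√B * ‖G‖) ^ 2 := by gcongr
      _ = B * ‖G‖ ^ 2 := by rw [mul_pow, Real.sq_sqrt hB]
  · rw [InnerProductSpace.toDual_symm_apply]
    have h1 := hf1 ⟨T a, LinearMap.mem_range_self T a⟩
    rw [h1]
    change ℓ a = g ⟨T a, _⟩
    rw [hgT a]

/-! ## The Hilbert space -/

/-- the measure on the set of pairs -/
abbrev mu (n : ℕ) : Measure (VV n) := (volume : Measure (VV n)).restrict (Un n)

lemma L2sq {f : VV n → ℝ} (hf : MemLp f 2 (mu n)) : ‖hf.toLp f‖ ^ 2 = ∫ z in Un n, f z ^ 2 := by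
  rw [← real_inner_self_eq_norm_sq, L2.inner_def]
  refine integral_congr_ae ?_
  filter_upwards [hf.coeFn_toLp] with z hz
  rw [hz, real_inner_self_eq_norm_sq, Real.norm_eq_abs, sq_abs]

lemma L2in (h : Lp ℝ 2 (mu n)) {f : VV n → ℝ} (hf : MemLp f 2 (mu n)) :
    ⟪h, hf.toLp f⟫ = ∫ z in Un n, h z * f z := by
  rw [L2.inner_def]
  refine integral_congr_ae ?_
  filter_upwards [hf.coeFn_toLp] with z hz
  rw [hz]
  simp [mul_comm]

lemma L2nn (h : Lp ℝ 2 (mu n)) : ‖h‖ ^ 2 = ∫ z in Un n, h z ^ 2 := by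
  rw [← real_inner_self_eq_norm_sq, L2.inner_def]
  refine integral_congr_ae (Eventually.of_forall fun z => ?_)
  simp only
  rw [real_inner_self_eq_norm_sq, Real.norm_eq_abs, sq_abs]

lemma L2int (h : Lp ℝ 2 (mu n)) : IntegrableOn (fun z => h z ^ 2) (Un n) := by
  have := (Lp.memLp h).integrable_sq
  exact this

lemma Te.memLp {f : VV n → ℝ} (hf : Te f) : MemLp f 2 (mu n) :=
  (hf.1.continuous.memLp_of_hasCompactSupport hf.2.1).restrict _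

/-- pairs of test functions -/
def AA (n : ℕ) : Submodule ℝ ((VV n → ℝ) × (VV n → ℝ)) where
  carrier := {a | Te a.1 ∧ Te a.2}
  add_mem' ha hb := ⟨ha.1.add hb.1, ha.2.add hb.2⟩
  zero_mem' := ⟨te_zero, te_zero⟩
  smul_mem' c _ ha := ⟨ha.1.smul c, ha.2.smul c⟩

/-- linear maps to `L²` -/
def mkL (Q : AA n → VV n → ℝ) (hQ : ∀ a, MemLp (Q a) 2 (mu n))
    (hadd : ∀ a b, ∀ z ∈ Un n, Q (a + b) z = Q a z + Q b z)
    (hsmul : ∀ (c : ℝ) a, ∀ z ∈ Un n, Q (c • a) z = c * Q a z) : AA n →ₗ[ℝ] Lp ℝ 2 (mu n) where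
  toFun a := (hQ a).toLp (Q a)
  map_add' a b := by
    rw [← MemLp.toLp_add]
    refine MemLp.toLp_congr _ _ ?_
    filter_upwards [ae_restrict_mem measurableSet_Un] with z hz
    exact hadd a b z hz
  map_smul' c a := by
    rw [RingHom.id_apply, ← MemLp.toLp_const_smul]
    refine MemLp.toLp_congr _ _ ?_
    filter_upwards [ae_restrict_mem measurableSet_Un] with z hz
    exact hsmul c a z hz

/-- the Hilbert space -/
abbrev HH (n : ℕ) := WithLp 2 (Lp ℝ 2 (mu n) × Lp ℝ 2 (mu n))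

/-- pairs of linear maps -/
def mkP (L M : AA n →ₗ[ℝ] Lp ℝ 2 (mu n)) : AA n →ₗ[ℝ] HH n :=
  (WithLp.linearEquiv 2 ℝ (Lp ℝ 2 (mu n) × Lp ℝ 2 (mu n))).symm.toLinearMap.comp (L.prod M)

lemma mkP_fst (L M : AA n →ₗ[ℝ] Lp ℝ 2 (mu n)) (a : AA n) : (mkP L M a).fst = L a := rfl

lemma mkP_snd (L M : AA n →ₗ[ℝ] Lp ℝ 2 (mu n)) (a : AA n) : (mkP L M a).snd = M a := rfl

lemma mkP_norm (L M : AA n →ₗ[ℝ] Lp ℝ 2 (mu n)) (a : AA n) :
    ‖mkP L M a‖ ^ 2 = ‖L a‖ ^ 2 + ‖M a‖ ^ 2 := by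
  rw [WithLp.prod_norm_sq_eq_of_L2, mkP_fst, mkP_snd]

lemma inner_mkP (w : HH n) (L M : AA n →ₗ[ℝ] Lp ℝ 2 (mu n)) (a : AA n) :
    ⟪w, mkP L M a⟫ = ⟪w.fst, L a⟫ + ⟪w.snd, M a⟫ := by
  rw [WithLp.prod_inner_apply]
  rfl

/-- `√θ` -/
def sth (z : VV n) : ℝ := √(th z)

lemma sm_sth : Sm (sth : VV n → ℝ) := ContDiffOn.sqrt sm_th fun _ hz => (th_pos hz).ne'

lemma sth_pos {z : VV n} (hz : z ∈ Un n) : 0 < sth z := Real.sqrt_pos.2 (th_pos hz)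

lemma sth_sq {z : VV n} (hz : z ∈ Un n) : sth z ^ 2 = th z := Real.sq_sqrt (th_pos hz).le

/-- the weak solution -/
theorem weak_sol {s₁ s₂ : MF n} (h₁ : Ok s₁) (h₂ : Ok s₂) {τ B : ℝ} (hB : 0 ≤ B)
    (est : ∀ a₁ a₂ : VV n → ℝ, Te a₁ → Te a₂ → ∫ z in Un n, th z * (a₁ z ^ 2 + a₂ z ^ 2)
      ≤ B * ∫ z in Un n, th z * ((PX s₁ (-τ) a₁ z + PY s₂ (-τ) a₂ z) ^ 2
      + (PY s₂ τ a₁ z - PX s₁ τ a₂ z) ^ 2)) {G₁ G₂ : VV n → ℝ}
    (hG₁ : Sm G₁) (hG₂ : Sm G₂) (hG : IntegrableOn (fun z => th z * (G₁ z ^ 2 + G₂ z ^ 2)) (Un n)) :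
    ∃ w v : VV n → ℝ, AEStronglyMeasurable w volume ∧ AEStronglyMeasurable v volume ∧
      IntegrableOn (fun z => th z * w z ^ 2) (Un n) ∧ IntegrableOn (fun z => th z * v z ^ 2) (Un n) ∧
      (∫ z in Un n, th z * w z ^ 2) + (∫ z in Un n, th z * v z ^ 2)
        ≤ B * ∫ z in Un n, th z * (G₁ z ^ 2 + G₂ z ^ 2) ∧
      ∀ a₁ a₂ : VV n → ℝ, Te a₁ → Te a₂ → ∫ z in Un n, th z * (G₁ z * a₁ z + G₂ z * a₂ z)
        = ∫ z in Un n, th z * (w z * (PX s₁ (-τ) a₁ z + PY s₂ (-τ) a₂ z)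
          + v z * (PY s₂ τ a₁ z - PX s₁ τ a₂ z)) := by
  -- the linear maps
  have Q1 : ∀ a : AA n, Te (fun z => sth z * (PX s₁ (-τ) a.1.1 z + PY s₂ (-τ) a.1.2 z)) :=
    fun a => Te.mul sm_sth ((Te.PX h₁.sm _ a.2.1).add (Te.PY h₂.sm _ a.2.2))
  have Q2 : ∀ a : AA n, Te (fun z => sth z * (PY s₂ τ a.1.1 z + (-1) * PX s₁ τ a.1.2 z)) :=
    fun a => Te.mul sm_sth ((Te.PY h₂.sm _ a.2.1).add ((Te.PX h₁.sm _ a.2.2).smul (-1)))
  have Q3 : ∀ a : AA n, Te (fun z => sth z * a.1.1 z) := fun a => Te.mul sm_sth a.2.1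
  have Q4 : ∀ a : AA n, Te (fun z => sth z * a.1.2 z) := fun a => Te.mul sm_sth a.2.2
  set L1 : AA n →ₗ[ℝ] Lp ℝ 2 (mu n) := mkL
    (fun a z => sth z * (PX s₁ (-τ) a.1.1 z + PY s₂ (-τ) a.1.2 z)) (fun a => (Q1 a).memLp)
    (fun a b z hz => by
      have e1 : PX s₁ (-τ) (a + b).1.1 z = PX s₁ (-τ) a.1.1 z + PX s₁ (-τ) b.1.1 z :=
        PX_add s₁ (-τ) a.2.1.sm b.2.1.sm hz
      have e2 : PY s₂ (-τ) (a + b).1.2 z = PY s₂ (-τ) a.1.2 z + PY s₂ (-τ) b.1.2 z :=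
        PY_add s₂ (-τ) a.2.2.sm b.2.2.sm hz
      rw [e1, e2]
      ring)
    (fun c a z hz => by
      have e1 : PX s₁ (-τ) (c • a).1.1 z = c * PX s₁ (-τ) a.1.1 z := PX_smul s₁ (-τ) c a.2.1.sm hz
      have e2 : PY s₂ (-τ) (c • a).1.2 z = c * PY s₂ (-τ) a.1.2 z := PY_smul s₂ (-τ) c a.2.2.sm hz
      rw [e1, e2]
      ring) with hL1
  set L2 : AA n →ₗ[ℝ] Lp ℝ 2 (mu n) := mkL
    (fun a z => sth z * (PY s₂ τ a.1.1 z + (-1) * PX s₁ τ a.1.2 z)) (fun a => (Q2 a).memLp)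
    (fun a b z hz => by
      have e1 : PY s₂ τ (a + b).1.1 z = PY s₂ τ a.1.1 z + PY s₂ τ b.1.1 z :=
        PY_add s₂ τ a.2.1.sm b.2.1.sm hz
      have e2 : PX s₁ τ (a + b).1.2 z = PX s₁ τ a.1.2 z + PX s₁ τ b.1.2 z :=
        PX_add s₁ τ a.2.2.sm b.2.2.sm hz
      rw [e1, e2]
      ring)
    (fun c a z hz => by
      have e1 : PY s₂ τ (c • a).1.1 z = c * PY s₂ τ a.1.1 z := PY_smul s₂ τ c a.2.1.sm hz
      have e2 : PX s₁ τ (c • a).1.2 z = c * PX s₁ τ a.1.2 z := PX_smul s₁ τ c a.2.2.sm hz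
      rw [e1, e2]
      ring) with hL2
  set L3 : AA n →ₗ[ℝ] Lp ℝ 2 (mu n) := mkL (fun a z => sth z * a.1.1 z) (fun a => (Q3 a).memLp)
    (fun a b z _ => by
      have e1 : (a + b).1.1 z = a.1.1 z + b.1.1 z := rfl
      rw [e1]
      ring)
    (fun c a z _ => by
      have e1 : (c • a).1.1 z = c * a.1.1 z := rfl
      rw [e1]
      ring) with hL3
  set L4 : AA n →ₗ[ℝ] Lp ℝ 2 (mu n) := mkL (fun a z => sth z * a.1.2 z) (fun a => (Q4 a).memLp)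
    (fun a b z _ => by
      have e1 : (a + b).1.2 z = a.1.2 z + b.1.2 z := rfl
      rw [e1]
      ring)
    (fun c a z _ => by
      have e1 : (c • a).1.2 z = c * a.1.2 z := rfl
      rw [e1]
      ring) with hL4
  have cG : ∀ G : VV n → ℝ, Sm G → AEStronglyMeasurable (fun z => sth z * G z) (mu n) :=
    fun G hGs => ((sm_sth.mul hGs).continuousOn.aestronglyMeasurable measurableSet_Un)
  have mG : ∀ G : VV n → ℝ, Sm G → (∀ z, G z ^ 2 ≤ G₁ z ^ 2 + G₂ z ^ 2) →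
      MemLp (fun z => sth z * G z) 2 (mu n) := by
    intro G hGs hle
    rw [memLp_two_iff_integrable_sq (cG G hGs)]
    refine Integrable.mono' hG ((cG G hGs).pow 2) ?_
    filter_upwards [ae_restrict_mem measurableSet_Un] with z hz
    rw [Real.norm_eq_abs, abs_of_nonneg (sq_nonneg _), mul_pow, sth_sq hz]
    exact mul_le_mul_of_nonneg_left (hle z) (th_pos hz).le
  have m1 := mG G₁ hG₁ fun z => by nlinarith [sq_nonneg (G₂ z)]
  have m2 := mG G₂ hG₂ fun z => by nlinarith [sq_nonneg (G₁ z)]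
  set G : HH n := WithLp.toLp 2 (m1.toLp _, m2.toLp _) with hGdef
  have hfst : G.fst = m1.toLp _ := rfl
  have hsnd : G.snd = m2.toLp _ := rfl
  have i1 := m1.integrable_sq
  have i2 := m2.integrable_sq
  have nG : ‖G‖ ^ 2 = ∫ z in Un n, th z * (G₁ z ^ 2 + G₂ z ^ 2) := by
    rw [WithLp.prod_norm_sq_eq_of_L2, hfst, hsnd, L2sq, L2sq, ← integral_add i1 i2]
    refine integral_congr_ae ?_
    filter_upwards [ae_restrict_mem measurableSet_Un] with z hz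
    rw [mul_pow, mul_pow, sth_sq hz]
    ring
  have bound : ∀ a : AA n, ‖mkP L3 L4 a‖ ^ 2 ≤ B * ‖mkP L1 L2 a‖ ^ 2 := by
    intro a
    have e3 : ‖L3 a‖ ^ 2 = ∫ z in Un n, (sth z * a.1.1 z) ^ 2 := L2sq (Q3 a).memLp
    have e4 : ‖L4 a‖ ^ 2 = ∫ z in Un n, (sth z * a.1.2 z) ^ 2 := L2sq (Q4 a).memLp
    have e1 : ‖L1 a‖ ^ 2 = _ := L2sq (Q1 a).memLp
    have e2 : ‖L2 a‖ ^ 2 = _ := L2sq (Q2 a).memLp
    rw [mkP_norm, mkP_norm, e1, e2, e3, e4,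
      ← integral_add (Q3 a).memLp.integrable_sq (Q4 a).memLp.integrable_sq,
      ← integral_add (Q1 a).memLp.integrable_sq (Q2 a).memLp.integrable_sq]
    have hh := est a.1.1 a.1.2 a.2.1 a.2.2
    have c1 : ∫ z in Un n, th z * (a.1.1 z ^ 2 + a.1.2 z ^ 2)
        = ∫ z in Un n, ((sth z * a.1.1 z) ^ 2 + (sth z * a.1.2 z) ^ 2) := by
      refine integral_congr_ae ?_
      filter_upwards [ae_restrict_mem measurableSet_Un] with z hz
      rw [mul_pow, mul_pow, sth_sq hz]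
      ring
    have c2 : ∫ z in Un n, th z * ((PX s₁ (-τ) a.1.1 z + PY s₂ (-τ) a.1.2 z) ^ 2
        + (PY s₂ τ a.1.1 z - PX s₁ τ a.1.2 z) ^ 2)
        = ∫ z in Un n, ((sth z * (PX s₁ (-τ) a.1.1 z + PY s₂ (-τ) a.1.2 z)) ^ 2
          + (sth z * (PY s₂ τ a.1.1 z + (-1) * PX s₁ τ a.1.2 z)) ^ 2) := by
      refine integral_congr_ae ?_
      filter_upwards [ae_restrict_mem measurableSet_Un] with z hz
      rw [mul_pow, mul_pow, sth_sq hz]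
      ring
    rw [c1, c2] at hh
    exact hh
  obtain ⟨W, hW1, hW2⟩ := riesz_pair (mkP L1 L2) (mkP L3 L4) G hB bound
  -- the functions
  have key : ∀ h : Lp ℝ 2 (mu n), ∃ w : VV n → ℝ, AEStronglyMeasurable w volume ∧
      (∀ z ∈ Un n, w z * sth z = h z) := by
    intro h
    refine ⟨(Un n).indicator fun z => h z / sth z, ?_, fun z hz => ?_⟩
    · rw [aestronglyMeasurable_indicator_iff measurableSet_Un]
      have h1 : AEStronglyMeasurable (fun z => (sth z)⁻¹) (mu n) :=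
        ((ContDiffOn.inv sm_sth fun z hz => (sth_pos hz).ne').continuousOn).aestronglyMeasurable
          measurableSet_Un
      have h2 := (Lp.aestronglyMeasurable h).mul h1
      refine h2.congr (Eventually.of_forall fun z => ?_)
      simp [div_eq_mul_inv]
    · rw [indicator_of_mem hz]
      exact div_mul_cancel₀ _ (sth_pos hz).ne'
  obtain ⟨w, hw1, hw2⟩ := key W.fst
  obtain ⟨v, hv1, hv2⟩ := key W.snd
  have sqw : ∀ z ∈ Un n, th z * w z ^ 2 = W.fst z ^ 2 := by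
    intro z hz
    rw [← hw2 z hz, mul_pow, sth_sq hz]
    ring
  have sqv : ∀ z ∈ Un n, th z * v z ^ 2 = W.snd z ^ 2 := by
    intro z hz
    rw [← hv2 z hz, mul_pow, sth_sq hz]
    ring
  refine ⟨w, v, hw1, hv1, (L2int W.fst).congr_fun (fun z hz => (sqw z hz).symm) measurableSet_Un,
    (L2int W.snd).congr_fun (fun z hz => (sqv z hz).symm) measurableSet_Un, ?_, ?_⟩
  · rw [setIntegral_congr_fun measurableSet_Un sqw, setIntegral_congr_fun measurableSet_Un sqv,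
      ← L2nn, ← L2nn, ← nG]
    have := hW1
    rwa [WithLp.prod_norm_sq_eq_of_L2] at this
  · intro a₁ a₂ ha₁ ha₂
    have h := hW2 ⟨(a₁, a₂), ha₁, ha₂⟩
    rw [inner_mkP, inner_mkP, hfst, hsnd] at h
    have e3 : ⟪m1.toLp _, L3 ⟨(a₁, a₂), ha₁, ha₂⟩⟫ = ∫ z in Un n, m1.toLp _ z * (sth z * a₁ z) :=
      L2in _ (Te.mul sm_sth ha₁).memLp
    have e4 : ⟪m2.toLp _, L4 ⟨(a₁, a₂), ha₁, ha₂⟩⟫ = ∫ z in Un n, m2.toLp _ z * (sth z * a₂ z) :=
      L2in _ (Te.mul sm_sth ha₂).memLp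
    have e1 : ⟪W.fst, L1 ⟨(a₁, a₂), ha₁, ha₂⟩⟫ = ∫ z in Un n, W.fst z *
        (sth z * (PX s₁ (-τ) a₁ z + PY s₂ (-τ) a₂ z)) := L2in _ (Q1 ⟨(a₁, a₂), ha₁, ha₂⟩).memLp
    have e2 : ⟪W.snd, L2 ⟨(a₁, a₂), ha₁, ha₂⟩⟫ = ∫ z in Un n, W.snd z *
        (sth z * (PY s₂ τ a₁ z + (-1) * PX s₁ τ a₂ z)) := L2in _ (Q2 ⟨(a₁, a₂), ha₁, ha₂⟩).memLp
    rw [e1, e2, e3, e4] at h
    have j1 : Integrable (fun z => m1.toLp _ z * (sth z * a₁ z)) (mu n) :=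
      (Lp.memLp (m1.toLp _)).integrable_mul (Te.mul sm_sth ha₁).memLp
    have j2 : Integrable (fun z => m2.toLp _ z * (sth z * a₂ z)) (mu n) :=
      (Lp.memLp (m2.toLp _)).integrable_mul (Te.mul sm_sth ha₂).memLp
    have j3 : Integrable (fun z => W.fst z * (sth z * (PX s₁ (-τ) a₁ z + PY s₂ (-τ) a₂ z))) (mu n) :=
      (Lp.memLp W.fst).integrable_mul (Q1 ⟨(a₁, a₂), ha₁, ha₂⟩).memLp
    have j4 : Integrable (fun z => W.snd z * (sth z * (PY s₂ τ a₁ z + (-1) * PX s₁ τ a₂ z))) (mu n) :=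
      (Lp.memLp W.snd).integrable_mul (Q2 ⟨(a₁, a₂), ha₁, ha₂⟩).memLp
    rw [← integral_add j1 j2, ← integral_add j3 j4] at h
    have l : ∫ z in Un n, th z * (G₁ z * a₁ z + G₂ z * a₂ z)
        = ∫ z in Un n, (m1.toLp _ z * (sth z * a₁ z) + m2.toLp _ z * (sth z * a₂ z)) := by
      refine integral_congr_ae ?_
      filter_upwards [ae_restrict_mem measurableSet_Un, m1.coeFn_toLp, m2.coeFn_toLp]
        with z hz h1 h2
      rw [h1, h2, ← sth_sq hz]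
      ring
    have r : ∫ z in Un n, th z * (w z * (PX s₁ (-τ) a₁ z + PY s₂ (-τ) a₂ z)
          + v z * (PY s₂ τ a₁ z - PX s₁ τ a₂ z))
        = ∫ z in Un n, (W.fst z * (sth z * (PX s₁ (-τ) a₁ z + PY s₂ (-τ) a₂ z))
          + W.snd z * (sth z * (PY s₂ τ a₁ z + (-1) * PX s₁ τ a₂ z))) := by
      refine integral_congr_ae ?_
      filter_upwards [ae_restrict_mem measurableSet_Un] with z hz
      rw [← hw2 z hz, ← hv2 z hz, ← sth_sq hz]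
      ring
    rw [l, r]
    exact h

end Vale.Agent.P088.R2.H820
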