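import Vale.Agent.P088.R2.H820.Sol2

/-!
# P088, row SOL: regularity of the weak solution
-/

open MeasureTheory Set Filter
open scoped ContDiff Matrix Topology RealInnerProductSpace

noncomputable section

namespace Vale.Agent.P088.R2.H820

open Vale.Agent.P088.LR Vale.Agent.P088.HY

variable {n : ℕ}

/-- the standard basis of pairs -/
def bb (n : ℕ) : Module.Basis (Fin n ⊕ Fin n) ℝ (VV n) :=
  (Pi.basisFun ℝ (Fin n)).prod (Pi.basisFun ℝ (Fin n))

lemma bb_inl (i : Fin n) : bb n (Sum.inl i) = (Pi.single i 1, 0) := by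
  unfold bb
  simp

lemma bb_inr (i : Fin n) : bb n (Sum.inr i) = (0, Pi.single i 1) := by
  unfold bb
  simp

lemma db_inl (i : Fin n) (f : VV n → ℝ) : db (bb n) (Sum.inl i) f = HY.dx i f := by
  ext z
  unfold db HY.dx
  rw [bb_inl]

lemma db_inr (i : Fin n) (f : VV n → ℝ) : db (bb n) (Sum.inr i) f = HY.dy i f := by
  ext z
  unfold db HY.dy
  rw [bb_inr]

/-! ## Coefficients -/

/-- second order coefficients of `θ Px` -/
def cX (s : MF n) : Fin n ⊕ Fin n → Fin n ⊕ Fin n → VV n → ℝ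
  | .inl i, .inl j => fun z => th z * (rr z.1 ^ 2 * s z.1 i j)
  | _, _ => fun _ => 0

/-- first order coefficients of `θ Px` -/
def dX (s : MF n) (σ : ℝ) : Fin n ⊕ Fin n → VV n → ℝ
  | .inl j => fun z => th z * ∑ i, s z.1 i j * (rr z.1 * ((n - 2) * z.1 i + 2 * σ * al i z))
  | .inr _ => fun _ => 0

/-- zeroth order coefficient of `θ Px` -/
def eX (s : MF n) (σ : ℝ) (z : VV n) : ℝ := th z * (vp s z.1 + σ * kax s z + σ ^ 2 * Fxs s z)

/-- second order coefficients of `θ Py` -/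
def cY (s : MF n) : Fin n ⊕ Fin n → Fin n ⊕ Fin n → VV n → ℝ
  | .inr i, .inr j => fun z => th z * (rr z.2 ^ 2 * s z.2 i j)
  | _, _ => fun _ => 0

/-- first order coefficients of `θ Py` -/
def dY (s : MF n) (σ : ℝ) : Fin n ⊕ Fin n → VV n → ℝ
  | .inr j => fun z => th z * ∑ i, s z.2 i j * (rr z.2 * ((n - 2) * z.2 i + 2 * σ * be i z))
  | .inl _ => fun _ => 0

/-- zeroth order coefficient of `θ Py` -/
def eY (s : MF n) (σ : ℝ) (z : VV n) : ℝ := th z * (vp s z.2 + σ * kay s z + σ ^ 2 * Fys s z)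

lemma Sm.Ax {f : VV n → ℝ} (hf : Sm f) (i : Fin n) : Sm (HY.Ax i f) := sm_r1.mul (hf.dx i)

lemma Sm.By {f : VV n → ℝ} (hf : Sm f) (i : Fin n) : Sm (HY.By i f) := sm_r2.mul (hf.dy i)

lemma sm_al (i : Fin n) : Sm (al i : VV n → ℝ) := sm_uu.Ax i

lemma sm_be (i : Fin n) : Sm (be i : VV n → ℝ) := sm_uu.By i

lemma contDiff_vp {s : MF n} (hs : SmM s) : ContDiff ℝ ∞ (vp s) := by
  unfold vp
  have h : ∀ i, ContDiff ℝ ∞ (fun x : V n => x i) := fun i => contDiff_apply ℝ ℝ i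
  refine ContDiff.add ((contDiff_const.mul contDiff_rr).mul (ContDiff.sum fun i _ => hs i i)) ?_
  exact contDiff_const.mul (ContDiff.sum fun i _ => ContDiff.sum fun j _ =>
    ((hs i j).mul (h i)).mul (h j))

lemma sm_vp1 {s : MF n} (hs : SmM s) : Sm (fun z : VV n => vp s z.1) :=
  sm_of ((contDiff_vp hs).comp contDiff_fst)

lemma sm_vp2 {s : MF n} (hs : SmM s) : Sm (fun z : VV n => vp s z.2) :=
  sm_of ((contDiff_vp hs).comp contDiff_snd)

lemma Sm.Dxs {s : MF n} (hs : SmM s) {f : VV n → ℝ} (hf : Sm f) : Sm (HY.Dxs s f) :=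
  (Sm.sum fun i _ => Sm.sum fun j _ => (sm_s1 hs i j).mul (((hf.Ax j).Ax i).add
    (((sm_const _).mul (sm_x i)).mul (hf.Ax j)))).add ((sm_vp1 hs).mul hf)

lemma Sm.Dys {s : MF n} (hs : SmM s) {f : VV n → ℝ} (hf : Sm f) : Sm (HY.Dys s f) :=
  (Sm.sum fun i _ => Sm.sum fun j _ => (sm_s2 hs i j).mul (((hf.By j).By i).add
    (((sm_const _).mul (sm_y i)).mul (hf.By j)))).add ((sm_vp2 hs).mul hf)

lemma sm_kax {s : MF n} (hs : SmM s) : Sm (kax s) :=
  (Sm.Dxs hs sm_uu).sub ((sm_vp1 hs).mul sm_uu)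

lemma sm_kay {s : MF n} (hs : SmM s) : Sm (kay s) :=
  (Sm.Dys hs sm_uu).sub ((sm_vp2 hs).mul sm_uu)

lemma sm_Fxs {s : MF n} (hs : SmM s) : Sm (Fxs s) :=
  Sm.sum fun i _ => Sm.sum fun j _ => ((sm_s1 hs i j).mul (sm_al i)).mul (sm_al j)

lemma sm_Fys {s : MF n} (hs : SmM s) : Sm (Fys s) :=
  Sm.sum fun i _ => Sm.sum fun j _ => ((sm_s2 hs i j).mul (sm_be i)).mul (sm_be j)

lemma sm_cX {s : MF n} (hs : SmM s) (i j : Fin n ⊕ Fin n) : Sm (cX s i j) := by
  rcases i with i | i <;> rcases j with j | j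
  · exact sm_th.mul ((sm_r1.pow 2).mul (sm_s1 hs i j))
  all_goals exact sm_const 0

lemma sm_cY {s : MF n} (hs : SmM s) (i j : Fin n ⊕ Fin n) : Sm (cY s i j) := by
  rcases i with i | i <;> rcases j with j | j
  iterate 3 exact sm_const 0
  exact sm_th.mul ((sm_r2.pow 2).mul (sm_s2 hs i j))

lemma sm_dX {s : MF n} (hs : SmM s) (σ : ℝ) (j : Fin n ⊕ Fin n) : Sm (dX s σ j) := by
  rcases j with j | j
  · exact sm_th.mul (Sm.sum fun i _ => (sm_s1 hs i j).mul (sm_r1.mul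
      (((sm_const _).mul (sm_x i)).add ((sm_const _).mul (sm_al i)))))
  · exact sm_const 0

lemma sm_dY {s : MF n} (hs : SmM s) (σ : ℝ) (j : Fin n ⊕ Fin n) : Sm (dY s σ j) := by
  rcases j with j | j
  · exact sm_const 0
  · exact sm_th.mul (Sm.sum fun i _ => (sm_s2 hs i j).mul (sm_r2.mul
      (((sm_const _).mul (sm_y i)).add ((sm_const _).mul (sm_be i)))))

lemma sm_eX {s : MF n} (hs : SmM s) (σ : ℝ) : Sm (eX s σ) :=
  sm_th.mul (((sm_vp1 hs).add ((sm_const σ).mul (sm_kax hs))).add ((sm_const _).mul (sm_Fxs hs)))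

lemma sm_eY {s : MF n} (hs : SmM s) (σ : ℝ) : Sm (eY s σ) :=
  sm_th.mul (((sm_vp2 hs).add ((sm_const σ).mul (sm_kay hs))).add ((sm_const _).mul (sm_Fys hs)))

/-- expansion of `θ Px` -/
lemma op2_X {s : MF n} (hs : Ok s) (σ : ℝ) {f : VV n → ℝ} (hf : Te f) (z : VV n) :
    op2 (bb n) (cX s) (dX s σ) (eX s σ) f z = th z * PX s σ f z := by
  have e : op2 (bb n) (cX s) (dX s σ) (eX s σ) f z
      = th z * (∑ i, ∑ j, rr z.1 ^ 2 * s z.1 i j * HY.dx i (HY.dx j f) z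
        + ∑ j, (∑ i, s z.1 i j * (rr z.1 * ((n - 2) * z.1 i + 2 * σ * al i z))) * HY.dx j f z
        + (vp s z.1 + σ * kax s z + σ ^ 2 * Fxs s z) * f z) := by
    unfold op2
    simp only [Fintype.sum_sum_type, db_inl, db_inr, cX, dX, eX, zero_mul, Finset.sum_const_zero,
      add_zero]
    have a : ∑ i, ∑ j, th z * (rr z.1 ^ 2 * s z.1 i j) * HY.dx i (HY.dx j f) z
        = th z * ∑ i, ∑ j, rr z.1 ^ 2 * s z.1 i j * HY.dx i (HY.dx j f) z := by
      rw [Finset.mul_sum]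
      refine Finset.sum_congr rfl fun i _ => ?_
      rw [Finset.mul_sum]
      exact Finset.sum_congr rfl fun j _ => by ring
    have b : ∑ j, th z * (∑ i, s z.1 i j * (rr z.1 * ((n - 2) * z.1 i + 2 * σ * al i z)))
          * HY.dx j f z
        = th z * ∑ j, (∑ i, s z.1 i j * (rr z.1 * ((n - 2) * z.1 i + 2 * σ * al i z)))
          * HY.dx j f z := by
      rw [Finset.mul_sum]
      exact Finset.sum_congr rfl fun j _ => by ring
    rw [a, b]
    ring
  by_cases hz : z ∈ Un n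
  · rw [e, ← Px_eq hs σ hf.sm hz]
    unfold Px Dxs Kxs
    simp only [Ax_Ax hf.sm _ _ hz]
    have sw : ∑ j, (∑ i, s z.1 i j * (rr z.1 * ((n - 2) * z.1 i + 2 * σ * al i z))) * HY.dx j f z
        = ∑ i, ∑ j, s z.1 i j * (rr z.1 * ((n - 2) * z.1 i + 2 * σ * al i z)) * HY.dx j f z := by
      rw [Finset.sum_comm]
      exact Finset.sum_congr rfl fun j _ => by rw [Finset.sum_mul]
    rw [sw]
    have h1 : (∑ i, ∑ j, rr z.1 ^ 2 * s z.1 i j * HY.dx i (HY.dx j f) z)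
        + (∑ i, ∑ j, s z.1 i j * (rr z.1 * ((n - 2) * z.1 i + 2 * σ * al i z)) * HY.dx j f z)
        = (∑ i, ∑ j, s z.1 i j * (rr z.1 * (-z.1 i * HY.dx j f z + rr z.1 * HY.dx i (HY.dx j f) z)
          + (n - 1) * z.1 i * HY.Ax j f z))
          + σ * (2 * ∑ i, ∑ j, s z.1 i j * al i z * HY.Ax j f z) := by
      simp only [Finset.mul_sum, ← Finset.sum_add_distrib]
      refine Finset.sum_congr rfl fun i _ => Finset.sum_congr rfl fun j _ => ?_
      unfold HY.Ax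
      ring
    rw [h1]
    ring
  · have h0 : f z = 0 := Te.zero_of fun h => hz (hf.2.2 h)
    have h1 : ∀ i, HY.dx i f z = 0 := fun i => Te.zero_of fun h => hz ((hf.dx i).2.2 h)
    have h2 : ∀ i j, HY.dx i (HY.dx j f) z = 0 :=
      fun i j => Te.zero_of fun h => hz (((hf.dx j).dx i).2.2 h)
    have h3 : PX s σ f z = 0 := Te.zero_of fun h => hz ((Te.PX hs.sm σ hf).2.2 h)
    rw [e, h3, h0]
    simp [h1, h2]

/-- expansion of `θ Py` -/
lemma op2_Y {s : MF n} (hs : Ok s) (σ : ℝ) {f : VV n → ℝ} (hf : Te f) (z : VV n) :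
    op2 (bb n) (cY s) (dY s σ) (eY s σ) f z = th z * PY s σ f z := by
  have e : op2 (bb n) (cY s) (dY s σ) (eY s σ) f z
      = th z * (∑ i, ∑ j, rr z.2 ^ 2 * s z.2 i j * HY.dy i (HY.dy j f) z
        + ∑ j, (∑ i, s z.2 i j * (rr z.2 * ((n - 2) * z.2 i + 2 * σ * be i z))) * HY.dy j f z
        + (vp s z.2 + σ * kay s z + σ ^ 2 * Fys s z) * f z) := by
    unfold op2
    simp only [Fintype.sum_sum_type, db_inl, db_inr, cY, dY, eY, zero_mul, Finset.sum_const_zero,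
      zero_add]
    have a : ∑ i, ∑ j, th z * (rr z.2 ^ 2 * s z.2 i j) * HY.dy i (HY.dy j f) z
        = th z * ∑ i, ∑ j, rr z.2 ^ 2 * s z.2 i j * HY.dy i (HY.dy j f) z := by
      rw [Finset.mul_sum]
      refine Finset.sum_congr rfl fun i _ => ?_
      rw [Finset.mul_sum]
      exact Finset.sum_congr rfl fun j _ => by ring
    have b : ∑ j, th z * (∑ i, s z.2 i j * (rr z.2 * ((n - 2) * z.2 i + 2 * σ * be i z)))
          * HY.dy j f z
        = th z * ∑ j, (∑ i, s z.2 i j * (rr z.2 * ((n - 2) * z.2 i + 2 * σ * be i z)))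
          * HY.dy j f z := by
      rw [Finset.mul_sum]
      exact Finset.sum_congr rfl fun j _ => by ring
    rw [a, b]
    ring
  by_cases hz : z ∈ Un n
  · rw [e, ← Py_eq hs σ hf.sm hz]
    unfold Py Dys Kys
    simp only [By_By hf.sm _ _ hz]
    have sw : ∑ j, (∑ i, s z.2 i j * (rr z.2 * ((n - 2) * z.2 i + 2 * σ * be i z))) * HY.dy j f z
        = ∑ i, ∑ j, s z.2 i j * (rr z.2 * ((n - 2) * z.2 i + 2 * σ * be i z)) * HY.dy j f z := by
      rw [Finset.sum_comm]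
      exact Finset.sum_congr rfl fun j _ => by rw [Finset.sum_mul]
    rw [sw]
    have h1 : (∑ i, ∑ j, rr z.2 ^ 2 * s z.2 i j * HY.dy i (HY.dy j f) z)
        + (∑ i, ∑ j, s z.2 i j * (rr z.2 * ((n - 2) * z.2 i + 2 * σ * be i z)) * HY.dy j f z)
        = (∑ i, ∑ j, s z.2 i j * (rr z.2 * (-z.2 i * HY.dy j f z + rr z.2 * HY.dy i (HY.dy j f) z)
          + (n - 1) * z.2 i * HY.By j f z))
          + σ * (2 * ∑ i, ∑ j, s z.2 i j * be i z * HY.By j f z) := by
      simp only [Finset.mul_sum, ← Finset.sum_add_distrib]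
      refine Finset.sum_congr rfl fun i _ => Finset.sum_congr rfl fun j _ => ?_
      unfold HY.By
      ring
    rw [h1]
    ring
  · have h0 : f z = 0 := Te.zero_of fun h => hz (hf.2.2 h)
    have h1 : ∀ i, HY.dy i f z = 0 := fun i => Te.zero_of fun h => hz ((hf.dy i).2.2 h)
    have h2 : ∀ i j, HY.dy i (HY.dy j f) z = 0 :=
      fun i j => Te.zero_of fun h => hz (((hf.dy j).dy i).2.2 h)
    have h3 : PY s σ f z = 0 := Te.zero_of fun h => hz ((Te.PY hs.sm σ hf).2.2 h)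
    rw [e, h3, h0]
    simp [h1, h2]

/-! ## Ellipticity -/

lemma quad_pos {s : Matrix (Fin n) (Fin n) ℝ} {ε : ℝ} (hε : n * ε < 1)
    (hs : ∀ i j, |s i j - (1 : Matrix (Fin n) (Fin n) ℝ) i j| ≤ ε) {ξ : Fin n → ℝ} (hξ : ξ ≠ 0) :
    0 < ∑ i, ∑ j, s i j * ξ i * ξ j := by
  have h1 : ∑ i, ∑ j, s i j * ξ i * ξ j = ∑ i, ξ i ^ 2
      + ∑ i, ∑ j, (s i j - (1 : Matrix (Fin n) (Fin n) ℝ) i j) * ξ i * ξ j := by
    have : ∑ i, ξ i ^ 2 = ∑ i, ∑ j, (1 : Matrix (Fin n) (Fin n) ℝ) i j * ξ i * ξ j := by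
      simp [Matrix.one_apply, pow_two]
    rw [this]
    simp only [← Finset.sum_add_distrib]
    refine Finset.sum_congr rfl fun i _ => Finset.sum_congr rfl fun j _ => ?_
    ring
  have h2 : |∑ i, ∑ j, (s i j - (1 : Matrix (Fin n) (Fin n) ℝ) i j) * ξ i * ξ j|
      ≤ ε * (∑ i, |ξ i|) ^ 2 := by
    calc |∑ i, ∑ j, (s i j - (1 : Matrix (Fin n) (Fin n) ℝ) i j) * ξ i * ξ j|
        ≤ ∑ i, |∑ j, (s i j - (1 : Matrix (Fin n) (Fin n) ℝ) i j) * ξ i * ξ j| :=
          Finset.abs_sum_le_sum_abs _ _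
      _ ≤ ∑ i, ∑ j, |(s i j - (1 : Matrix (Fin n) (Fin n) ℝ) i j) * ξ i * ξ j| :=
          Finset.sum_le_sum fun i _ => Finset.abs_sum_le_sum_abs _ _
      _ ≤ ∑ i, ∑ j, ε * (|ξ i| * |ξ j|) := by
          refine Finset.sum_le_sum fun i _ => Finset.sum_le_sum fun j _ => ?_
          rw [abs_mul, abs_mul, mul_assoc]
          exact mul_le_mul_of_nonneg_right (hs i j) (by positivity)
      _ = _ := by
          rw [pow_two, Finset.sum_mul_sum, Finset.mul_sum]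
          exact Finset.sum_congr rfl fun i _ => by rw [Finset.mul_sum]
  have h3 : (∑ i, |ξ i|) ^ 2 ≤ n * ∑ i, ξ i ^ 2 := by
    have := sq_sum_le_card_mul_sum_sq (s := Finset.univ) (f := fun i => |ξ i|)
    simpa using this
  have h4 : 0 < ∑ i, ξ i ^ 2 := by
    obtain ⟨i, hi⟩ := Function.ne_iff.1 hξ
    refine Finset.sum_pos' (fun i _ => sq_nonneg _) ⟨i, Finset.mem_univ i, ?_⟩
    have : ξ i ≠ 0 := hi
    positivity
  have hε0 : 0 ≤ ε := by
    obtain ⟨i, hi⟩ := Function.ne_iff.1 hξ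
    exact (abs_nonneg _).trans (hs i i)
  have h5 := (abs_le.1 h2).1
  have h6 : ε * (∑ i, |ξ i|) ^ 2 ≤ ε * (n * ∑ i, ξ i ^ 2) := mul_le_mul_of_nonneg_left h3 hε0
  have h7 : ε * (n * ∑ i, ξ i ^ 2) = (n * ε) * ∑ i, ξ i ^ 2 := by ring
  have h8 : (n * ε) * ∑ i, ξ i ^ 2 < 1 * ∑ i, ξ i ^ 2 := mul_lt_mul_of_pos_right hε h4
  rw [h1]
  linarith

/-- the symbols of `θ Px` and `θ Py` -/
lemma symX (s : MF n) (z : VV n) (ξ : Fin n ⊕ Fin n → ℝ) :
    ∑ i, ∑ j, cX s i j z * ξ i * ξ j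
      = th z * (rr z.1 ^ 2 * ∑ i, ∑ j, s z.1 i j * ξ (Sum.inl i) * ξ (Sum.inl j)) := by
  simp only [Fintype.sum_sum_type, cX, zero_mul, Finset.sum_const_zero, add_zero, Finset.mul_sum,
    mul_assoc]

lemma symY (s : MF n) (z : VV n) (ξ : Fin n ⊕ Fin n → ℝ) :
    ∑ i, ∑ j, cY s i j z * ξ i * ξ j
      = th z * (rr z.2 ^ 2 * ∑ i, ∑ j, s z.2 i j * ξ (Sum.inr i) * ξ (Sum.inr j)) := by
  simp only [Fintype.sum_sum_type, cY, zero_mul, Finset.sum_const_zero, zero_add, Finset.mul_sum,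
    mul_assoc]

/-- regularity of weak solutions -/
theorem reg_sol (hyp : RowHYP) {s₁ s₂ : MF n} (h₁ : Ok s₁) (h₂ : Ok s₂) {ε : ℝ} (hε : n * ε < 1)
    (c₁ : ∀ x i j, |s₁ x i j - (1 : Matrix (Fin n) (Fin n) ℝ) i j| ≤ ε)
    (c₂ : ∀ x i j, |s₂ x i j - (1 : Matrix (Fin n) (Fin n) ℝ) i j| ≤ ε) {τ : ℝ}
    {G₁ G₂ : VV n → ℝ} (hG₁ : Sm G₁) (hG₂ : Sm G₂) {w v : VV n → ℝ}
    (hw : AEStronglyMeasurable w volume) (hv : AEStronglyMeasurable v volume)
    (iw : IntegrableOn (fun z => th z * w z ^ 2) (Un n))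
    (iv : IntegrableOn (fun z => th z * v z ^ 2) (Un n))
    (weak : ∀ a₁ a₂ : VV n → ℝ, Te a₁ → Te a₂ → ∫ z in Un n, th z * (G₁ z * a₁ z + G₂ z * a₂ z)
        = ∫ z in Un n, th z * (w z * (PX s₁ (-τ) a₁ z + PY s₂ (-τ) a₂ z)
          + v z * (PY s₂ τ a₁ z - PX s₁ τ a₂ z))) :
    ∃ w' v' : VV n → ℝ, Sm w' ∧ Sm v' ∧ (∀ᵐ z, z ∈ Un n → w' z = w z) ∧
      (∀ᵐ z, z ∈ Un n → v' z = v z) := by
  have loc : ∀ f : VV n → ℝ, AEStronglyMeasurable f volume →
      IntegrableOn (fun z => th z * f z ^ 2) (Un n) →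
      ∀ k : Set (VV n), IsCompact k → k ⊆ Un n → IntegrableOn (fun z => f z ^ 2) k := by
    intro f _ hi k hk hkU
    have h1 : IntegrableOn (fun z => th z * f z ^ 2) k := hi.mono_set hkU
    have h2 : ContinuousOn (fun z : VV n => (th z)⁻¹) k :=
      (ContDiffOn.inv sm_th fun z hz => (th_pos hz).ne').continuousOn.mono hkU
    have h3 := h1.continuousOn_mul h2 hk
    refine h3.congr_fun (fun z hz => ?_) hk.measurableSet
    exact inv_mul_cancel_left₀ (th_pos (hkU hz)).ne' _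
  obtain ⟨W, hW1, hW2⟩ := hyp (Fin n ⊕ Fin n) (VV n) volume (bb n) 2 (Un n) isOpen_Un
    ![![cX s₁, cY s₂], ![cY s₂, fun i j z => -cX s₁ i j z]]
    ![![dX s₁ (-τ), dY s₂ τ], ![dY s₂ (-τ), fun i z => -dX s₁ τ i z]]
    ![![eX s₁ (-τ), eY s₂ τ], ![eY s₂ (-τ), fun z => -eX s₁ τ z]]
    (by
      intro p q i j
      fin_cases p <;> fin_cases q
      · exact sm_cX h₁.sm i j
      · exact sm_cY h₂.sm i j
      · exact sm_cY h₂.sm i j
      · exact (sm_cX h₁.sm i j).neg)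
    (by
      intro p q i
      fin_cases p <;> fin_cases q
      · exact sm_dX h₁.sm _ i
      · exact sm_dY h₂.sm _ i
      · exact sm_dY h₂.sm _ i
      · exact (sm_dX h₁.sm _ i).neg)
    (by
      intro p q
      fin_cases p <;> fin_cases q
      · exact sm_eX h₁.sm _
      · exact sm_eY h₂.sm _
      · exact sm_eY h₂.sm _
      · exact (sm_eX h₁.sm _).neg)
    (by
      intro z hz ξ hξ
      rw [Matrix.det_fin_two]
      simp only [Matrix.of_apply, Matrix.cons_val_zero, Matrix.cons_val_one, neg_mul,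
        Finset.sum_neg_distrib, symX, symY]
      have ht := th_pos hz
      have hr1 := rr1_pos hz
      have hr2 := rr2_pos hz
      set a := ∑ i, ∑ j, s₁ z.1 i j * ξ (Sum.inl i) * ξ (Sum.inl j) with ha
      set b := ∑ i, ∑ j, s₂ z.2 i j * ξ (Sum.inr i) * ξ (Sum.inr j) with hb
      have hab : a ≠ 0 ∨ b ≠ 0 := by
        by_cases h0 : (fun i => ξ (Sum.inl i)) = 0
        · right
          have h3 : (fun i => ξ (Sum.inr i)) ≠ 0 := by
            intro h4
            apply hξ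
            ext i
            rcases i with i | i
            · exact congrFun h0 i
            · exact congrFun h4 i
          exact (quad_pos hε (c₂ z.2) h3).ne'
        · left
          exact (quad_pos hε (c₁ z.1) h0).ne'
      have key : 0 < (th z * (rr z.1 ^ 2 * a)) ^ 2 + (th z * (rr z.2 ^ 2 * b)) ^ 2 := by
        rcases hab with h | h
        · have : th z * (rr z.1 ^ 2 * a) ≠ 0 := by positivity
          positivity
        · have : th z * (rr z.2 ^ 2 * b) ≠ 0 := by positivity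
          positivity
      intro h
      have h5 : th z * (rr z.1 ^ 2 * a) * -(th z * (rr z.1 ^ 2 * a))
          - th z * (rr z.2 ^ 2 * b) * (th z * (rr z.2 ^ 2 * b))
          = -((th z * (rr z.1 ^ 2 * a)) ^ 2 + (th z * (rr z.2 ^ 2 * b)) ^ 2) := by ring
      rw [h5] at h
      linarith)
    ![w, v] ![fun z => th z * G₁ z, fun z => th z * G₂ z]
    (by
      intro q
      fin_cases q
      · exact hw
      · exact hv)
    (by
      intro q
      fin_cases q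
      · exact loc w hw iw
      · exact loc v hv iv)
    (by
      intro p
      fin_cases p
      · exact sm_th.mul hG₁
      · exact sm_th.mul hG₂)
    (by
      intro φ hφ
      have t0 : Te (φ 0) := hφ 0
      have t1 : Te (φ 1) := hφ 1
      have hw' := weak (φ 0) (φ 1) t0 t1
      have offn : ∀ z ∉ Un n, th z * (w z * (PX s₁ (-τ) (φ 0) z + PY s₂ (-τ) (φ 1) z)
          + v z * (PY s₂ τ (φ 0) z - PX s₁ τ (φ 1) z)) = 0 := by
        intro z hz
        have e1 : PX s₁ (-τ) (φ 0) z = 0 := Te.zero_of fun h => hz ((Te.PX h₁.sm _ t0).2.2 h)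
        have e2 : PY s₂ (-τ) (φ 1) z = 0 := Te.zero_of fun h => hz ((Te.PY h₂.sm _ t1).2.2 h)
        have e3 : PY s₂ τ (φ 0) z = 0 := Te.zero_of fun h => hz ((Te.PY h₂.sm _ t0).2.2 h)
        have e4 : PX s₁ τ (φ 1) z = 0 := Te.zero_of fun h => hz ((Te.PX h₁.sm _ t1).2.2 h)
        rw [e1, e2, e3, e4]
        ring
      have offg : ∀ z ∉ Un n, th z * (G₁ z * φ 0 z + G₂ z * φ 1 z) = 0 := by
        intro z hz
        have e1 : φ 0 z = 0 := Te.zero_of fun h => hz (t0.2.2 h)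
        have e2 : φ 1 z = 0 := Te.zero_of fun h => hz (t1.2.2 h)
        rw [e1, e2]
        ring
      rw [setIntegral_eq_integral_of_forall_compl_eq_zero offn,
        setIntegral_eq_integral_of_forall_compl_eq_zero offg] at hw'
      have l : ∀ z, (∑ q, (![w, v] : Fin 2 → VV n → ℝ) q z * ∑ p, op2 (bb n)
          ((![![cX s₁, cY s₂], ![cY s₂, fun i j z => -cX s₁ i j z]] :
            Fin 2 → Fin 2 → Fin n ⊕ Fin n → Fin n ⊕ Fin n → VV n → ℝ) p q)
          ((![![dX s₁ (-τ), dY s₂ τ], ![dY s₂ (-τ), fun i z => -dX s₁ τ i z]] :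
            Fin 2 → Fin 2 → Fin n ⊕ Fin n → VV n → ℝ) p q)
          ((![![eX s₁ (-τ), eY s₂ τ], ![eY s₂ (-τ), fun z => -eX s₁ τ z]] :
            Fin 2 → Fin 2 → VV n → ℝ) p q) (φ p) z)
          = th z * (w z * (PX s₁ (-τ) (φ 0) z + PY s₂ (-τ) (φ 1) z)
          + v z * (PY s₂ τ (φ 0) z - PX s₁ τ (φ 1) z)) := by
        intro z
        simp only [Fin.sum_univ_two, Matrix.cons_val_zero, Matrix.cons_val_one]
        have neg : op2 (bb n) (fun i j z => -cX s₁ i j z) (fun i z => -dX s₁ τ i z)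
            (fun z => -eX s₁ τ z) (φ 1) z = -(th z * PX s₁ τ (φ 1) z) := by
          rw [← op2_X h₁ τ t1 z]
          unfold op2
          simp only [neg_mul, Finset.sum_neg_distrib]
          ring
        rw [neg, op2_X h₁ (-τ) t0 z, op2_Y h₂ (-τ) t1 z, op2_Y h₂ τ t0 z]
        ring
      simp only [l]
      rw [← hw']
      refine integral_congr_ae (Eventually.of_forall fun z => ?_)
      simp only [Fin.sum_univ_two, Matrix.cons_val_zero, Matrix.cons_val_one]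
      ring)
  exact ⟨W 0, W 1, hW1 0, hW1 1, hW2 0, hW2 1⟩

end Vale.Agent.P088.R2.H820
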