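import Vale.Agent.P088.R2.H820.J4

/-!
# P088, row SOLG
-/

open MeasureTheory Set Filter
open scoped ContDiff Matrix Topology RealInnerProductSpace

noncomputable section

namespace Vale.Agent.P088.R2.H820

open Vale.Agent.P088.LR Vale.Agent.P088.HY

variable {n m : ℕ}

/-- the adjoint system -/
def QT (s₁ s₂ : MF n) (e₁ e₂ : Co n m) (τ : ℝ) (w : Fin m ⊕ Fin m → VV n → ℝ) :
    Fin m ⊕ Fin m → VV n → ℝ
  | .inl p => fun z => PXG s₁ e₁ τ (fun q => w (.inl q)) p z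
      + PYG s₂ (HY.adj e₂) (-τ) (fun q => w (.inr q)) p z
  | .inr p => fun z => PYG s₂ e₂ τ (fun q => w (.inl q)) p z
      - PXG s₁ (HY.adj e₁) (-τ) (fun q => w (.inr q)) p z

lemma sm_QT {s₁ s₂ : MF n} (h₁ : Ok s₁) (h₂ : Ok s₂) {e₁ e₂ : Co n m} (k₁ : CoSm e₁)
    (k₂ : CoSm e₂) (τ : ℝ) {w : Fin m ⊕ Fin m → VV n → ℝ} (hw : ∀ i, Sm (w i))
    (i : Fin m ⊕ Fin m) : Sm (QT s₁ s₂ e₁ e₂ τ w i) := by
  rcases i with p | p
  · exact (Sm.PXG h₁.sm k₁ _ (fun q => hw _) p).add (Sm.PYG h₂.sm k₂.adj _ (fun q => hw _) p)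
  · exact (Sm.PYG h₂.sm k₂ _ (fun q => hw _) p).sub (Sm.PXG h₁.sm k₁.adj _ (fun q => hw _) p)

lemma QQ_adj {s₁ s₂ : MF n} (h₁ : Ok s₁) (h₂ : Ok s₂) {e₁ e₂ : Co n m} (k₁ : CoSm e₁)
    (k₂ : CoSm e₂) (τ : ℝ) {w a : Fin m ⊕ Fin m → VV n → ℝ} (hw : ∀ i, Sm (w i))
    (ha : ∀ i, Te (a i)) :
    ∑ i, ∫ z, th z * (w i z * QQ s₁ s₂ e₁ e₂ τ a i z)
      = ∑ i, ∫ z, th z * (QT s₁ s₂ e₁ e₂ τ w i z * a i z) := by
  set w₁ : Fin m → VV n → ℝ := fun q => w (.inl q) with hw₁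
  set w₂ : Fin m → VV n → ℝ := fun q => w (.inr q) with hw₂
  set a₁ : Fin m → VV n → ℝ := fun q => a (.inl q) with ha₁
  set a₂ : Fin m → VV n → ℝ := fun q => a (.inr q) with ha₂
  have sw₁ : ∀ q, Sm (w₁ q) := fun q => hw _
  have sw₂ : ∀ q, Sm (w₂ q) := fun q => hw _
  have ta₁ : ∀ q, Te (a₁ q) := fun q => ha _
  have ta₂ : ∀ q, Te (a₂ q) := fun q => ha _
  have A1 := adj_xG h₁ k₁.adj (-τ) sw₁ ta₁
  have A2 := adj_yG h₂ k₂.adj (-τ) sw₁ ta₂
  have A3 := adj_yG h₂ k₂ τ sw₂ ta₁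
  have A4 := adj_xG h₁ k₁ τ sw₂ ta₂
  rw [neg_neg, adj_adj] at A1 A2
  have l1 : ∀ p, ∫ z, th z * (w (.inl p) z * QQ s₁ s₂ e₁ e₂ τ a (.inl p) z)
      = (∫ z, th z * (w₁ p z * PXG s₁ (HY.adj e₁) (-τ) a₁ p z))
        + ∫ z, th z * (w₁ p z * PYG s₂ (HY.adj e₂) (-τ) a₂ p z) := by
    intro p
    rw [← integral_add
      (Te.mul sm_th (Te.mul (sw₁ p) (Te.PXG h₁.sm k₁.adj (-τ) ta₁ p))).integrable
      (Te.mul sm_th (Te.mul (sw₁ p) (Te.PYG h₂.sm k₂.adj (-τ) ta₂ p))).integrable]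
    congr 1
    ext z
    simp only [QQ]
    ring
  have l2 : ∀ p, ∫ z, th z * (w (.inr p) z * QQ s₁ s₂ e₁ e₂ τ a (.inr p) z)
      = (∫ z, th z * (w₂ p z * PYG s₂ e₂ τ a₁ p z))
        - ∫ z, th z * (w₂ p z * PXG s₁ e₁ τ a₂ p z) := by
    intro p
    rw [← integral_sub
      (Te.mul sm_th (Te.mul (sw₂ p) (Te.PYG h₂.sm k₂ τ ta₁ p))).integrable
      (Te.mul sm_th (Te.mul (sw₂ p) (Te.PXG h₁.sm k₁ τ ta₂ p))).integrable]
    congr 1
    ext z
    simp only [QQ]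
    ring
  have r1 : ∀ p, ∫ z, th z * (QT s₁ s₂ e₁ e₂ τ w (.inl p) z * a (.inl p) z)
      = (∫ z, th z * (PXG s₁ e₁ τ w₁ p z * a₁ p z))
        + ∫ z, th z * (PYG s₂ (HY.adj e₂) (-τ) w₂ p z * a₁ p z) := by
    intro p
    rw [← integral_add
      (Te.mul sm_th (Te.mul (Sm.PXG h₁.sm k₁ τ sw₁ p) (ta₁ p))).integrable
      (Te.mul sm_th (Te.mul (Sm.PYG h₂.sm k₂.adj (-τ) sw₂ p) (ta₁ p))).integrable]
    congr 1
    ext z
    simp only [QT]
    ring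
  have r2 : ∀ p, ∫ z, th z * (QT s₁ s₂ e₁ e₂ τ w (.inr p) z * a (.inr p) z)
      = (∫ z, th z * (PYG s₂ e₂ τ w₁ p z * a₂ p z))
        - ∫ z, th z * (PXG s₁ (HY.adj e₁) (-τ) w₂ p z * a₂ p z) := by
    intro p
    rw [← integral_sub
      (Te.mul sm_th (Te.mul (Sm.PYG h₂.sm k₂ τ sw₁ p) (ta₂ p))).integrable
      (Te.mul sm_th (Te.mul (Sm.PXG h₁.sm k₁.adj (-τ) sw₂ p) (ta₂ p))).integrable]
    congr 1
    ext z
    simp only [QT]
    ring
  rw [Fintype.sum_sum_type, Fintype.sum_sum_type]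
  simp only [l1, l2, r1, r2, Finset.sum_add_distrib, Finset.sum_sub_distrib]
  rw [A1, A2, A3, A4]
  ring

/-- the strong equations -/
theorem strongG {s₁ s₂ : MF n} (h₁ : Ok s₁) (h₂ : Ok s₂) {e₁ e₂ : Co n m} (k₁ : CoSm e₁)
    (k₂ : CoSm e₂) {τ : ℝ} {G w : Fin m ⊕ Fin m → VV n → ℝ} (hG : ∀ i, Sm (G i))
    (hw : ∀ i, Sm (w i))
    (weak : ∀ a : Fin m ⊕ Fin m → VV n → ℝ, (∀ i, Te (a i)) →
      ∑ i, ∫ z, th z * (G i z * a i z) = ∑ i, ∫ z, th z * (w i z * QQ s₁ s₂ e₁ e₂ τ a i z)) :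
    ∀ i, ∀ z ∈ Un n, QT s₁ s₂ e₁ e₂ τ w i z = G i z := by
  intro i₀
  have sq := sm_QT h₁ h₂ k₁ k₂ τ hw
  have hR : Sm (fun z => th z * (QT s₁ s₂ e₁ e₂ τ w i₀ z - G i₀ z)) :=
    sm_th.mul ((sq i₀).sub (hG i₀))
  have h0 := zero_of_weak hR (fun χ hχ => by
    have ta : ∀ i, Te (fun z => if i = i₀ then χ z else 0) := by
      intro i
      by_cases h : i = i₀
      · simpa [h] using hχ
      · simpa [h] using te_zero
    have k := weak (fun i z => if i = i₀ then χ z else 0) ta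
    rw [QQ_adj h₁ h₂ k₁ k₂ τ hw ta] at k
    have s1 : ∀ F : Fin m ⊕ Fin m → VV n → ℝ,
        ∑ i, ∫ z, th z * (F i z * (if i = i₀ then χ z else 0)) = ∫ z, th z * (F i₀ z * χ z) := by
      intro F
      rw [Finset.sum_eq_single i₀]
      · simp
      · intro i _ hi
        simp [hi]
      · intro h
        exact absurd (Finset.mem_univ _) h
    rw [s1, s1] at k
    have i1 : Integrable (fun z => th z * (QT s₁ s₂ e₁ e₂ τ w i₀ z * χ z)) :=
      (Te.mul sm_th (Te.mul (sq i₀) hχ)).integrable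
    have i2 : Integrable (fun z => th z * (G i₀ z * χ z)) :=
      (Te.mul sm_th (Te.mul (hG i₀) hχ)).integrable
    have e4 : ∫ z, th z * (QT s₁ s₂ e₁ e₂ τ w i₀ z - G i₀ z) * χ z
        = (∫ z, th z * (QT s₁ s₂ e₁ e₂ τ w i₀ z * χ z)) - ∫ z, th z * (G i₀ z * χ z) := by
      rw [← integral_sub i1 i2]
      congr 1
      ext z
      ring
    rw [e4, k, sub_self])
  intro z hz
  rcases mul_eq_zero.1 (h0 z hz) with h | h
  · exact absurd h (th_pos hz).ne'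
  · linarith

lemma PxG_PxG {s : MF n} (hs : Ok s) {e e' : Co n m} (h' : CoSm e') (τ σ : ℝ)
    {f : Fin m → VV n → ℝ} (hf : ∀ q, Sm (f q)) (p : Fin m) {z : VV n} (hz : z ∈ Un n) :
    PxG s e τ (PxG s e' σ f) p z = PXG s e τ (PXG s e' σ f) p z := by
  have h1 : ∀ q, Sm (PxG s e' σ f q) :=
    fun q => (Sm.PXG hs.sm h' σ hf q).congr fun _ hz => PxG_eq hs.sy e' σ hf q hz
  rw [PxG_eq hs.sy e τ h1 p hz]
  exact PXG_congr s e τ (fun q w hw => PxG_eq hs.sy e' σ hf q hw) p hz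

lemma PyG_PyG {s : MF n} (hs : Ok s) {e e' : Co n m} (h' : CoSm e') (τ σ : ℝ)
    {f : Fin m → VV n → ℝ} (hf : ∀ q, Sm (f q)) (p : Fin m) {z : VV n} (hz : z ∈ Un n) :
    PyG s e τ (PyG s e' σ f) p z = PYG s e τ (PYG s e' σ f) p z := by
  have h1 : ∀ q, Sm (PyG s e' σ f q) :=
    fun q => (Sm.PYG hs.sm h' σ hf q).congr fun _ hz => PyG_eq hs.sy e' σ hf q hz
  rw [PyG_eq hs.sy e τ h1 p hz]
  exact PYG_congr s e τ (fun q w hw => PyG_eq hs.sy e' σ hf q hw) p hz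

lemma CoOk.mono {K : ℕ} {ε ε' M : ℝ} (hle : ε ≤ ε') {e : Co n m} (h : CoOk K ε M e) :
    CoOk K ε' M e :=
  ⟨h.sb, h.sc, fun l p q k hk x => (h.bb l p q k hk x).trans hle, h.bc⟩

lemma wT_w (τ : ℝ) (w : VV n → ℝ) {z : VV n} (hz : z ∈ Un n) :
    (Real.exp (-τ) * (hh τ z * w z)) ^ 2 * wT τ z = th z * w z ^ 2 := by
  rw [← weight_w τ w hz]
  unfold wT
  ring

lemma wT_G (τ : ℝ) (a b : ℝ) {z : VV n} (hz : z ∈ Un n) :
    (a ^ 2 + b ^ 2) * wT τ z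
      = th z * ((Real.exp τ * (gg τ z * a)) ^ 2 + (Real.exp τ * (gg τ z * b)) ^ 2) := by
  rw [← weight_G τ a b hz]
  unfold wT
  ring

theorem rowSOLG (hest : RowESTG) (htop : RowTOPG) (hyp : RowHYP) : RowSOLG := by
  intro n m hn
  obtain ⟨C, ε₁, hC, hε₁, hest'⟩ := hest n m hn
  obtain ⟨ε₂, hε₂, htop'⟩ := htop n m hn
  have hn0 : (0 : ℝ) < n := by
    have : 0 < n := by omega
    exact_mod_cast this
  refine ⟨C, min (min ε₁ ε₂) (1 / (2 * n)), hC, by positivity, fun M hM => ?_⟩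
  obtain ⟨τ₁, hτ₁, est⟩ := hest' M hM
  obtain ⟨τ₂, hτ₂, top⟩ := htop' M hM
  refine ⟨max (max τ₁ τ₂) 1, by positivity, ?_⟩
  intro s₁ s₂ e₁ e₂ hs₁ hs₂ he₁ he₂ hcom η τ hη hDB hτ hτη F₁ F₂ hF₁ hF₂ comp hint
  have le1 : min (min ε₁ ε₂) (1 / (2 * (n : ℝ))) ≤ ε₁ := (min_le_left _ _).trans (min_le_left _ _)
  have le2 : min (min ε₁ ε₂) (1 / (2 * (n : ℝ))) ≤ ε₂ := (min_le_left _ _).trans (min_le_right _ _)
  have le3 : min (min ε₁ ε₂) (1 / (2 * (n : ℝ))) ≤ 1 / (2 * n) := min_le_right _ _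
  have t1 : τ₁ ≤ τ := ((le_max_left _ _).trans (le_max_left _ _)).trans hτ
  have t2 : τ₂ ≤ τ := ((le_max_right _ _).trans (le_max_left _ _)).trans hτ
  have t3 : 1 ≤ τ := (le_max_right _ _).trans hτ
  have hτ0 : 0 < τ := by linarith
  have o₁ := TS.ok hs₁
  have o₂ := TS.ok hs₂
  have k₁ := CoOk.csm he₁
  have k₂ := CoOk.csm he₂
  have sF₁ : ∀ p, Sm (F₁ p) := hF₁
  have sF₂ : ∀ p, Sm (F₂ p) := hF₂
  set G₁ : Fin m → VV n → ℝ := fun p z => Real.exp τ * (gg τ z * (rr z.1 ^ 2 * F₁ p z)) with hG₁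
  set G₂ : Fin m → VV n → ℝ := fun p z => Real.exp τ * (gg τ z * (rr z.2 ^ 2 * F₂ p z)) with hG₂
  have sG₁ : ∀ p, Sm (G₁ p) :=
    fun p => (sm_const _).mul ((sm_gg τ).mul ((sm_r1.pow 2).mul (sF₁ p)))
  have sG₂ : ∀ p, Sm (G₂ p) :=
    fun p => (sm_const _).mul ((sm_gg τ).mul ((sm_r2.pow 2).mul (sF₂ p)))
  have wG : ∀ p, ∀ z ∈ Un n, (rr z.1 ^ 4 * F₁ p z ^ 2 + rr z.2 ^ 4 * F₂ p z ^ 2) * wT τ z
      = th z * (G₁ p z ^ 2 + G₂ p z ^ 2) := by
    intro p z hz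
    have := wT_G τ (rr z.1 ^ 2 * F₁ p z) (rr z.2 ^ 2 * F₂ p z) hz
    rw [hG₁, hG₂]
    rw [← this]
    ring
  have iG : ∀ p, IntegrableOn (fun z => th z * (G₁ p z ^ 2 + G₂ p z ^ 2)) (Un n) :=
    fun p => (hint p).congr_fun (wG p) measurableSet_Un
  set G : Fin m ⊕ Fin m → VV n → ℝ := Sum.elim G₁ G₂ with hG
  have sG : ∀ i, Sm (G i) := by
    rintro (p | p)
    · exact sG₁ p
    · exact sG₂ p
  have i1 : ∀ p, IntegrableOn (fun z => th z * G₁ p z ^ 2) (Un n) := by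
    intro p
    have c1 : AEStronglyMeasurable (fun z => th z * G₁ p z ^ 2) (mu n) :=
      (sm_th.mul ((sG₁ p).pow 2)).continuousOn.aestronglyMeasurable measurableSet_Un
    refine Integrable.mono' (iG p) c1 ?_
    filter_upwards [ae_restrict_mem measurableSet_Un] with z hz
    have ht := (th_pos hz).le
    rw [Real.norm_eq_abs, abs_of_nonneg (mul_nonneg ht (sq_nonneg _))]
    exact mul_le_mul_of_nonneg_left (by nlinarith [sq_nonneg (G₂ p z)]) ht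
  have i2 : ∀ p, IntegrableOn (fun z => th z * G₂ p z ^ 2) (Un n) := by
    intro p
    have c1 : AEStronglyMeasurable (fun z => th z * G₂ p z ^ 2) (mu n) :=
      (sm_th.mul ((sG₂ p).pow 2)).continuousOn.aestronglyMeasurable measurableSet_Un
    refine Integrable.mono' (iG p) c1 ?_
    filter_upwards [ae_restrict_mem measurableSet_Un] with z hz
    have ht := (th_pos hz).le
    rw [Real.norm_eq_abs, abs_of_nonneg (mul_nonneg ht (sq_nonneg _))]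
    exact mul_le_mul_of_nonneg_left (by nlinarith [sq_nonneg (G₁ p z)]) ht
  have iG' : ∀ i, IntegrableOn (fun z => th z * G i z ^ 2) (Un n) := by
    rintro (p | p)
    · exact i1 p
    · exact i2 p
  have sumG : ∑ i, ∫ z in Un n, th z * G i z ^ 2
      = ∑ p, ∫ z in Un n, th z * (G₁ p z ^ 2 + G₂ p z ^ 2) := by
    rw [Fintype.sum_sum_type, ← Finset.sum_add_distrib]
    refine Finset.sum_congr rfl fun p _ => ?_
    have e1 : ∫ z in Un n, th z * (G₁ p z ^ 2 + G₂ p z ^ 2)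
        = ∫ z in Un n, (th z * G₁ p z ^ 2 + th z * G₂ p z ^ 2) := by
      congr 1
      ext z
      ring
    rw [e1, integral_add (i1 p) (i2 p)]
    rfl
  -- the estimate
  have est' : ∀ a : Fin m ⊕ Fin m → VV n → ℝ, (∀ i, Te (a i)) →
      ∑ i, ∫ z in Un n, th z * a i z ^ 2
        ≤ (C / (2 * τ)) * ∑ i, ∫ z in Un n, th z * QQ s₁ s₂ e₁ e₂ τ a i z ^ 2 := by
    intro a ha
    set a₁ : Fin m → VV n → ℝ := fun q => a (.inl q) with ha₁
    set a₂ : Fin m → VV n → ℝ := fun q => a (.inr q) with ha₂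
    have ta₁ : ∀ q, Te (a₁ q) := fun q => ha _
    have ta₂ : ∀ q, Te (a₂ q) := fun q => ha _
    have tq := te_QQ o₁ o₂ k₁ k₂ τ ha
    have h := est s₁ s₂ e₁ e₂ (TS.mono le1 hs₁) (TS.mono le1 hs₂) (CoOk.mono le1 he₁)
      (CoOk.mono le1 he₂) η τ hη hDB t1 (hτη.trans le1) a₁ a₂ ta₁ ta₂
    have T1 : ∀ p, Te (fun z => th z * a₁ p z ^ 2) := by
      intro p
      have := Te.mul sm_th (Te.mul (ta₁ p).sm (ta₁ p))
      simpa only [pow_two] using this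
    have T2 : ∀ p, Te (fun z => th z * a₂ p z ^ 2) := by
      intro p
      have := Te.mul sm_th (Te.mul (ta₂ p).sm (ta₂ p))
      simpa only [pow_two] using this
    have T3 : ∀ i, Te (fun z => th z * QQ s₁ s₂ e₁ e₂ τ a i z ^ 2) := by
      intro i
      have := Te.mul sm_th (Te.mul (tq i).sm (tq i))
      simpa only [pow_two] using this
    have T4 : ∀ p, Te (fun z => th z * (τ ^ 2 * (a₁ p z + a₂ p z) ^ 2
        + τ * (a₁ p z - a₂ p z) ^ 2)) := by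
      intro p
      have s1 : Te (fun z => a₁ p z + a₂ p z) := (ta₁ p).add (ta₂ p)
      have s2 : Te (fun z => a₁ p z + (-1) * a₂ p z) := (ta₁ p).add ((ta₂ p).smul _)
      have s3 := Te.mul sm_th (((Te.mul s1.sm s1).smul (τ ^ 2)).add ((Te.mul s2.sm s2).smul τ))
      convert s3 using 2
      ring
    have r : ∑ p, ∫ z in Un n, th z *
        ((PxG s₁ (HY.adj e₁) (-τ) a₁ p z + PyG s₂ (HY.adj e₂) (-τ) a₂ p z) ^ 2
          + (PyG s₂ e₂ τ a₁ p z - PxG s₁ e₁ τ a₂ p z) ^ 2)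
        = ∑ i, ∫ z in Un n, th z * QQ s₁ s₂ e₁ e₂ τ a i z ^ 2 := by
      rw [Fintype.sum_sum_type, ← Finset.sum_add_distrib]
      refine Finset.sum_congr rfl fun p _ => ?_
      rw [← integral_add (T3 (.inl p)).integrable.integrableOn (T3 (.inr p)).integrable.integrableOn]
      refine setIntegral_congr_fun measurableSet_Un fun z hz => ?_
      simp only [QQ]
      rw [PxG_eq o₁.sy _ _ (fun q => (ta₁ q).sm) p hz, PyG_eq o₂.sy _ _ (fun q => (ta₂ q).sm) p hz,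
        PyG_eq o₂.sy _ _ (fun q => (ta₁ q).sm) p hz, PxG_eq o₁.sy _ _ (fun q => (ta₂ q).sm) p hz]
      ring
    rw [r] at h
    have l : 2 * τ * ∑ i, ∫ z in Un n, th z * a i z ^ 2
        ≤ ∑ p, ∫ z in Un n, th z * (τ ^ 2 * (a₁ p z + a₂ p z) ^ 2 + τ * (a₁ p z - a₂ p z) ^ 2) := by
      rw [Fintype.sum_sum_type, ← Finset.sum_add_distrib, Finset.mul_sum]
      refine Finset.sum_le_sum fun p _ => ?_
      have e1 : (∫ z in Un n, th z * a (.inl p) z ^ 2) + ∫ z in Un n, th z * a (.inr p) z ^ 2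
          = ∫ z in Un n, (th z * a₁ p z ^ 2 + th z * a₂ p z ^ 2) := by
        rw [integral_add (T1 p).integrable.integrableOn (T2 p).integrable.integrableOn]
      rw [e1, ← integral_const_mul]
      refine setIntegral_mono_on (((T1 p).add (T2 p)).integrable.integrableOn.const_mul _)
        (T4 p).integrable.integrableOn measurableSet_Un fun z hz => ?_
      have ht := th_pos hz
      have h3 : 2 * τ * (a₁ p z ^ 2 + a₂ p z ^ 2)
          ≤ τ ^ 2 * (a₁ p z + a₂ p z) ^ 2 + τ * (a₁ p z - a₂ p z) ^ 2 := by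
        have h4 : τ * (a₁ p z + a₂ p z) ^ 2 ≤ τ ^ 2 * (a₁ p z + a₂ p z) ^ 2 := by
          apply mul_le_mul_of_nonneg_right _ (sq_nonneg _)
          nlinarith
        nlinarith
      calc 2 * τ * (th z * a₁ p z ^ 2 + th z * a₂ p z ^ 2)
          = th z * (2 * τ * (a₁ p z ^ 2 + a₂ p z ^ 2)) := by ring
        _ ≤ _ := mul_le_mul_of_nonneg_left h3 ht.le
    have h5 := l.trans h
    rw [div_mul_eq_mul_div, le_div_iff₀ (by positivity)]
    linarith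
  have hB : 0 ≤ C / (2 * τ) := by positivity
  -- the space of test vectors
  let AT : Submodule ℝ (Fin m ⊕ Fin m → VV n → ℝ) :=
    { carrier := {a | ∀ i, Te (a i)}
      add_mem' := fun ha hb i => (ha i).add (hb i)
      zero_mem' := fun _ => te_zero
      smul_mem' := fun c _ ha i => (ha i).smul c }
  have qadd : ∀ a b : AT, ∀ i, ∀ z ∈ Un n, QQ s₁ s₂ e₁ e₂ τ (a + b : AT).1 i z
      = QQ s₁ s₂ e₁ e₂ τ a.1 i z + QQ s₁ s₂ e₁ e₂ τ b.1 i z := by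
    intro a b i z hz
    have sa : ∀ i, Sm (a.1 i) := fun i => (a.2 i).sm
    have sb : ∀ i, Sm (b.1 i) := fun i => (b.2 i).sm
    rcases i with p | p
    · have x1 := PXG_add s₁ (HY.adj e₁) (-τ) (f := fun q => a.1 (.inl q))
        (g := fun q => b.1 (.inl q)) (fun q => sa _) (fun q => sb _) p hz
      have x2 := PYG_add s₂ (HY.adj e₂) (-τ) (f := fun q => a.1 (.inr q))
        (g := fun q => b.1 (.inr q)) (fun q => sa _) (fun q => sb _) p hz
      change PXG s₁ (HY.adj e₁) (-τ) (fun q z => a.1 (.inl q) z + b.1 (.inl q) z) p z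
        + PYG s₂ (HY.adj e₂) (-τ) (fun q z => a.1 (.inr q) z + b.1 (.inr q) z) p z = _
      rw [x1, x2]
      simp only [QQ]
      ring
    · have x1 := PYG_add s₂ e₂ τ (f := fun q => a.1 (.inl q))
        (g := fun q => b.1 (.inl q)) (fun q => sa _) (fun q => sb _) p hz
      have x2 := PXG_add s₁ e₁ τ (f := fun q => a.1 (.inr q))
        (g := fun q => b.1 (.inr q)) (fun q => sa _) (fun q => sb _) p hz
      change PYG s₂ e₂ τ (fun q z => a.1 (.inl q) z + b.1 (.inl q) z) p z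
        - PXG s₁ e₁ τ (fun q z => a.1 (.inr q) z + b.1 (.inr q) z) p z = _
      rw [x1, x2]
      simp only [QQ]
      ring
  have qsm : ∀ (c : ℝ) (a : AT), ∀ i, ∀ z ∈ Un n, QQ s₁ s₂ e₁ e₂ τ (c • a : AT).1 i z
      = c * QQ s₁ s₂ e₁ e₂ τ a.1 i z := by
    intro c a i z hz
    have sa : ∀ i, Sm (a.1 i) := fun i => (a.2 i).sm
    rcases i with p | p
    · have x1 := PXG_smul s₁ (HY.adj e₁) (-τ) c (f := fun q => a.1 (.inl q)) (fun q => sa _) p hz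
      have x2 := PYG_smul s₂ (HY.adj e₂) (-τ) c (f := fun q => a.1 (.inr q)) (fun q => sa _) p hz
      change PXG s₁ (HY.adj e₁) (-τ) (fun q z => c * a.1 (.inl q) z) p z
        + PYG s₂ (HY.adj e₂) (-τ) (fun q z => c * a.1 (.inr q) z) p z = _
      rw [x1, x2]
      simp only [QQ]
      ring
    · have x1 := PYG_smul s₂ e₂ τ c (f := fun q => a.1 (.inl q)) (fun q => sa _) p hz
      have x2 := PXG_smul s₁ e₁ τ c (f := fun q => a.1 (.inr q)) (fun q => sa _) p hz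
      change PYG s₂ e₂ τ (fun q z => c * a.1 (.inl q) z) p z
        - PXG s₁ e₁ τ (fun q z => c * a.1 (.inr q) z) p z = _
      rw [x1, x2]
      simp only [QQ]
      ring
  obtain ⟨w, mw, iw, bd, weak0⟩ := weak_gen (fun (a : AT) i => a.1 i)
    (fun (a : AT) i => QQ s₁ s₂ e₁ e₂ τ a.1 i) (fun a i => a.2 i)
    (fun a i => te_QQ o₁ o₂ k₁ k₂ τ a.2 i) (fun a b i z _ => rfl) (fun c a i z _ => rfl)
    qadd qsm hB (fun a => est' a.1 a.2) sG iG'
  have weak : ∀ a : Fin m ⊕ Fin m → VV n → ℝ, (∀ i, Te (a i)) →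
      ∑ i, ∫ z in Un n, th z * (G i z * a i z)
        = ∑ i, ∫ z in Un n, th z * (w i z * QQ s₁ s₂ e₁ e₂ τ a i z) :=
    fun a ha => weak0 ⟨a, ha⟩
  have hnε : (n : ℝ) * (1 / (2 * n)) < 1 := by
    field_simp
    norm_num
  obtain ⟨w', sw, aw⟩ := reg_solG hyp o₁ o₂ hnε
    (fun x i j => (TS.near hs₁ x i j).trans le3) (fun x i j => (TS.near hs₂ x i j).trans le3)
    k₁ k₂ sG mw iw weak
  -- the weak equations for the smooth functions
  have weak' : ∀ a : Fin m ⊕ Fin m → VV n → ℝ, (∀ i, Te (a i)) →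
      ∑ i, ∫ z, th z * (G i z * a i z)
        = ∑ i, ∫ z, th z * (w' i z * QQ s₁ s₂ e₁ e₂ τ a i z) := by
    intro a ha
    have tq := te_QQ o₁ o₂ k₁ k₂ τ ha
    have h := weak a ha
    have e1 : ∀ i, ∫ z in Un n, th z * (G i z * a i z) = ∫ z, th z * (G i z * a i z) := by
      intro i
      refine setIntegral_eq_integral_of_forall_compl_eq_zero fun z hz => ?_
      have : a i z = 0 := Te.zero_of fun h => hz ((ha i).2.2 h)
      rw [this]
      ring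
    have e2 : ∀ i, ∫ z in Un n, th z * (w i z * QQ s₁ s₂ e₁ e₂ τ a i z)
        = ∫ z, th z * (w' i z * QQ s₁ s₂ e₁ e₂ τ a i z) := by
      intro i
      rw [← setIntegral_eq_integral_of_forall_compl_eq_zero (s := Un n)
        (f := fun z => th z * (w' i z * QQ s₁ s₂ e₁ e₂ τ a i z))]
      · refine setIntegral_congr_ae measurableSet_Un ?_
        filter_upwards [aw i] with z h1 hz
        rw [h1 hz]
      · intro z hz
        have : QQ s₁ s₂ e₁ e₂ τ a i z = 0 := Te.zero_of fun h => hz ((tq i).2.2 h)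
        rw [this]
        ring
    simp only [e1, e2] at h
    exact h
  have str := strongG o₁ o₂ k₁ k₂ sG sw weak'
  set u : Fin m → VV n → ℝ := fun q => w' (.inl q) with hu
  set v : Fin m → VV n → ℝ := fun q => w' (.inr q) with hv
  have su : ∀ q, Sm (u q) := fun q => sw _
  have sv : ∀ q, Sm (v q) := fun q => sw _
  have eq1 : ∀ p, ∀ z ∈ Un n, PXG s₁ e₁ τ u p z + PYG s₂ (HY.adj e₂) (-τ) v p z = G₁ p z :=
    fun p z hz => str (.inl p) z hz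
  have eq2 : ∀ p, ∀ z ∈ Un n, PYG s₂ e₂ τ u p z - PXG s₁ (HY.adj e₁) (-τ) v p z = G₂ p z :=
    fun p z hz => str (.inr p) z hz
  -- compatibility
  have hG1 : ∀ p, ∀ z ∈ Un n, hh τ z * G₁ p z = Real.exp τ * (rr z.1 ^ 2 * F₁ p z) := by
    intro p z hz
    have := gg_mul_hh τ hz
    rw [hG₁]
    calc hh τ z * (Real.exp τ * (gg τ z * (rr z.1 ^ 2 * F₁ p z)))
        = (gg τ z * hh τ z) * (Real.exp τ * (rr z.1 ^ 2 * F₁ p z)) := by ring
      _ = _ := by rw [this, one_mul]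
  have hG2 : ∀ p, ∀ z ∈ Un n, hh τ z * G₂ p z = Real.exp τ * (rr z.2 ^ 2 * F₂ p z) := by
    intro p z hz
    have := gg_mul_hh τ hz
    rw [hG₂]
    calc hh τ z * (Real.exp τ * (gg τ z * (rr z.2 ^ 2 * F₂ p z)))
        = (gg τ z * hh τ z) * (Real.exp τ * (rr z.2 ^ 2 * F₂ p z)) := by ring
      _ = _ := by rw [this, one_mul]
  have cmp : ∀ p, ∀ z ∈ Un n, PYG s₂ e₂ τ G₁ p z = PXG s₁ e₁ τ G₂ p z := by
    intro p z hz
    unfold PYG PXG
    rw [LyG_congr s₂ e₂ hG1 p hz, LxG_congr s₁ e₁ hG2 p hz,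
      LyG_smul s₂ e₂ _ (fun q => (sm_r1.pow 2).mul (sF₁ q)) p hz,
      LxG_smul s₁ e₁ _ (fun q => (sm_r2.pow 2).mul (sF₂ q)) p hz,
      LyG_c1 s₂ e₂ (c := fun x => rr x ^ 2) (contDiff_rr.pow 2) sF₁ p hz,
      LxG_c2 s₁ e₁ (c := fun x => rr x ^ 2) (contDiff_rr.pow 2) sF₂ p hz, comp z hz p]
    ring
  -- the second function vanishes
  have sq' : ∀ f f' : VV n → ℝ, (∀ᵐ z, z ∈ Un n → f' z = f z) →
      IntegrableOn (fun z => th z * f z ^ 2) (Un n) →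
      IntegrableOn (fun z => th z * f' z ^ 2) (Un n) := by
    intro f f' hff hi
    refine hi.congr_fun_ae ?_
    filter_upwards [ae_restrict_of_ae hff, ae_restrict_mem measurableSet_Un] with z h1 h2
    rw [h1 h2]
  have v0 : ∀ z ∈ Un n, ∀ p, v p z = 0 := by
    refine top s₁ s₂ e₁ e₂ (TS.mono le2 hs₁) (TS.mono le2 hs₂) (CoOk.mono le2 he₁)
      (CoOk.mono le2 he₂) hcom τ t2 v sv (fun p => sq' _ _ (aw (.inr p)) (iw (.inr p)))
      fun z hz p => ?_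
    rw [PxG_PxG o₁ k₁.adj τ (-τ) sv p hz, PyG_PyG o₂ k₂.adj τ (-τ) sv p hz]
    have a1 : PXG s₁ e₁ τ (PXG s₁ (HY.adj e₁) (-τ) v) p z
        = PXG s₁ e₁ τ (fun q z => PYG s₂ e₂ τ u q z - G₂ q z) p z :=
      PXG_congr s₁ e₁ τ (fun q z hz => by have := eq2 q z hz; linarith) p hz
    have a2 : PYG s₂ e₂ τ (PYG s₂ (HY.adj e₂) (-τ) v) p z
        = PYG s₂ e₂ τ (fun q z => G₁ q z - PXG s₁ e₁ τ u q z) p z :=
      PYG_congr s₂ e₂ τ (fun q z hz => by have := eq1 q z hz; linarith) p hz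
    rw [a1, a2, PXG_sub s₁ e₁ τ (fun q => Sm.PYG o₂.sm k₂ τ su q) sG₂ p hz,
      PYG_sub s₂ e₂ τ sG₁ (fun q => Sm.PXG o₁.sm k₁ τ su q) p hz,
      cmp p z hz, PYG_PXG o₁.sm o₂.sm k₁ k₂ hcom τ su p hz]
    ring
  have zx : ∀ p, ∀ z ∈ Un n, PXG s₁ (HY.adj e₁) (-τ) v p z = 0 := by
    intro p z hz
    rw [PXG_congr s₁ (HY.adj e₁) (-τ) (g := fun _ _ => 0) (fun q z hz => v0 z hz q) p hz]
    unfold PXG LxG Lx HY.dx
    simp
  have zy : ∀ p, ∀ z ∈ Un n, PYG s₂ (HY.adj e₂) (-τ) v p z = 0 := by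
    intro p z hz
    rw [PYG_congr s₂ (HY.adj e₂) (-τ) (g := fun _ _ => 0) (fun q z hz => v0 z hz q) p hz]
    unfold PYG LyG Ly HY.dy
    simp
  have E1 : ∀ p, ∀ z ∈ Un n, LxG s₁ e₁ (fun q z => hh τ z * u q z) p z = Real.exp τ * F₁ p z := by
    intro p z hz
    have h1 := eq1 p z hz
    rw [zy p z hz, add_zero, hG₁] at h1
    unfold PXG at h1
    have hg := (gg_pos τ hz).ne'
    have hr := (pow_pos (rr1_pos hz) 2).ne'
    have h2 : gg τ z * (rr z.1 ^ 2 * LxG s₁ e₁ (fun q z => hh τ z * u q z) p z)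
        = gg τ z * (rr z.1 ^ 2 * (Real.exp τ * F₁ p z)) := by
      rw [h1]
      ring
    exact mul_left_cancel₀ hr (mul_left_cancel₀ hg h2)
  have E2 : ∀ p, ∀ z ∈ Un n, LyG s₂ e₂ (fun q z => hh τ z * u q z) p z = Real.exp τ * F₂ p z := by
    intro p z hz
    have h1 := eq2 p z hz
    rw [zx p z hz, sub_zero, hG₂] at h1
    unfold PYG at h1
    have hg := (gg_pos τ hz).ne'
    have hr := (pow_pos (rr2_pos hz) 2).ne'
    have h2 : gg τ z * (rr z.2 ^ 2 * LyG s₂ e₂ (fun q z => hh τ z * u q z) p z)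
        = gg τ z * (rr z.2 ^ 2 * (Real.exp τ * F₂ p z)) := by
      rw [h1]
      ring
    exact mul_left_cancel₀ hr (mul_left_cancel₀ hg h2)
  have sh : ∀ q, Sm (fun z => hh τ z * u q z) := fun q => (sm_hh τ).mul (su q)
  have ee : Real.exp (-τ) * Real.exp τ = 1 := by rw [← Real.exp_add]; simp
  have ww : ∀ p, ∀ z ∈ Un n, th z * u p z ^ 2
      = (Real.exp (-τ) * (hh τ z * u p z)) ^ 2 * wT τ z := fun p z hz => (wT_w τ (u p) hz).symm
  refine ⟨fun p z => Real.exp (-τ) * (hh τ z * u p z), fun p => (sm_const _).mul (sh p),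
    ?_, ?_, ?_, ?_⟩
  · intro z hz p
    rw [LxG_smul s₁ e₁ _ sh p hz, E1 p z hz, ← mul_assoc, ee, one_mul]
  · intro z hz p
    rw [LyG_smul s₂ e₂ _ sh p hz, E2 p z hz, ← mul_assoc, ee, one_mul]
  · intro p
    exact (sq' _ _ (aw (.inl p)) (iw (.inl p))).congr_fun (ww p) measurableSet_Un
  · have c1 : ∑ p, ∫ z in Un n, (Real.exp (-τ) * (hh τ z * u p z)) ^ 2 * wT τ z
        = ∑ p, ∫ z in Un n, th z * w (.inl p) z ^ 2 := by
      refine Finset.sum_congr rfl fun p _ => ?_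
      rw [← setIntegral_congr_fun measurableSet_Un (ww p)]
      refine setIntegral_congr_ae measurableSet_Un ?_
      filter_upwards [aw (.inl p)] with z h1 hz
      rw [← h1 hz]
    have c2 : ∑ p, ∫ z in Un n, (rr z.1 ^ 4 * F₁ p z ^ 2 + rr z.2 ^ 4 * F₂ p z ^ 2) * wT τ z
        = ∑ i, ∫ z in Un n, th z * G i z ^ 2 := by
      rw [sumG]
      exact Finset.sum_congr rfl fun p _ => setIntegral_congr_fun measurableSet_Un (wG p)
    rw [c1, c2]
    have e2 : 0 ≤ ∑ p, ∫ z in Un n, th z * w (.inr p) z ^ 2 :=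
      Finset.sum_nonneg fun p _ => setIntegral_nonneg measurableSet_Un fun z hz =>
        mul_nonneg (th_pos hz).le (sq_nonneg _)
    have e3 : 0 ≤ ∑ i, ∫ z in Un n, th z * G i z ^ 2 :=
      Finset.sum_nonneg fun p _ => setIntegral_nonneg measurableSet_Un fun z hz =>
        mul_nonneg (th_pos hz).le (sq_nonneg _)
    rw [Fintype.sum_sum_type (f := fun i => ∫ z in Un n, th z * w i z ^ 2)] at bd
    have e4 : C / (2 * τ) * ∑ i, ∫ z in Un n, th z * G i z ^ 2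
        ≤ C / τ * ∑ i, ∫ z in Un n, th z * G i z ^ 2 := by
      apply mul_le_mul_of_nonneg_right _ e3
      apply div_le_div_of_nonneg_left hC.le hτ0
      linarith
    linarith

end Vale.Agent.P088.R2.H820
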